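import Vale.Agent.P076.R2.H831V.Spec

/-!
# P076 : domination of the smoothed measures on the paraboloid (row P3)
-/

open MeasureTheory Complex FourierTransform Filter Topology Set
open scoped ENNReal NNReal

namespace Vale.Agent.P076.R2.H831V

open Vale.Agent.P076 Vale.Agent.P076.H791 Vale.Agent.P076.R2.H45 Vale.Agent.P076.R2.H831
open Vale.Agent.P076.R2.H831.V2

variable {n : ℕ}

lemma measurable_gam (c : ℝ) {α : Type*} [MeasurableSpace α] {f : α → E n} {g : α → ℝ}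
    (hf : Measurable f) (hg : Measurable g) : Measurable fun a => gam c (f a) (g a) := by
  unfold gam
  fun_prop

lemma gam_le {δ : ℝ} {a b : E n} {w : ℝ} (h : ‖a - b‖ < δ) :
    gam Real.pi a w ≤ ENNReal.ofReal (Real.exp (Real.pi * δ ^ 2)) * gam (Real.pi / 2) b w := by
  unfold gam
  rw [← ENNReal.ofReal_mul (Real.exp_pos _).le, ← Real.exp_add]
  refine ENNReal.ofReal_le_ofReal (Real.exp_le_exp.2 ?_)
  have hp := Real.pi_pos
  have h1 : ‖b‖ ≤ ‖a‖ + ‖a - b‖ := by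
    have := norm_sub_le a (a - b)
    rwa [sub_sub_cancel] at this
  have h0 := norm_nonneg (a - b)
  have h0' := norm_nonneg b
  have h2 : ‖b‖ ^ 2 ≤ 2 * ‖a‖ ^ 2 + 2 * δ ^ 2 := by
    nlinarith [sq_nonneg (‖a‖ - ‖a - b‖), mul_self_le_mul_self h0' h1,
      mul_self_le_mul_self h0 h.le]
  nlinarith [mul_le_mul_of_nonneg_left h2 hp.le, mul_nonneg hp.le (sq_nonneg w)]

theorem stDom (hn : 1 ≤ n) (h : StCap n) : StDom n := by
  intro δ hδ
  obtain ⟨κ, hκ, hcap⟩ := h δ hδ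
  refine ⟨Real.toNNReal (Real.exp (Real.pi * δ ^ 2)) * (Real.toNNReal κ)⁻¹, ?_⟩
  intro V G θ hV hG h1 hH ζ μ
  set D : ℝ≥0∞ := ENNReal.ofReal (Real.exp (Real.pi * δ ^ 2)) with hD
  set K : ℝ≥0∞ := ENNReal.ofReal κ with hK
  have hK0 : K ≠ 0 := by simpa [hK] using hκ
  have hKt : K ≠ ⊤ := ENNReal.ofReal_ne_top
  have hC : ((Real.toNNReal (Real.exp (Real.pi * δ ^ 2)) * (Real.toNNReal κ)⁻¹ : ℝ≥0) : ℝ≥0∞) =
      D * K⁻¹ := by
    rw [ENNReal.coe_mul, ENNReal.coe_inv (by simpa using hκ)]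
    rfl
  rw [hC]
  have hm1 : Measurable fun η : E n => V η * gam Real.pi (ζ - η) (‖η‖ ^ 2 - μ) :=
    hV.mul (measurable_gam _ (by fun_prop) (by fun_prop))
  have hm2 : Measurable fun η : E n => G η * gam (Real.pi / 2) (ζ - η) (‖η‖ ^ 2 - μ) :=
    hG.mul (measurable_gam _ (by fun_prop) (by fun_prop))
  unfold KV
  rw [lint_polar hn hm1, lint_polar hn hm2, ← lintegral_const_mul]
  swap
  · refine Measurable.lintegral_prod_right' (f := fun p : (Ioi (0 : ℝ)) × Sp n =>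
      G (p.1.1 • p.2.1) * gam (Real.pi / 2) (ζ - p.1.1 • p.2.1) (‖p.1.1 • p.2.1‖ ^ 2 - μ)) ?_
    exact hm2.comp (by fun_prop)
  refine lintegral_mono fun ρ => ?_
  obtain ⟨ρ, hρ0⟩ := ρ
  change ∫⁻ ω : Sp n, V (ρ • ω.1) * gam Real.pi (ζ - ρ • ω.1) (‖ρ • ω.1‖ ^ 2 - μ) ∂sig n ≤
    D * K⁻¹ * θ * ∫⁻ ω : Sp n, G (ρ • ω.1) * gam (Real.pi / 2) (ζ - ρ • ω.1)
      (‖ρ • ω.1‖ ^ 2 - μ) ∂sig n
  have hnorm : ∀ ω : Sp n, ‖ρ • (ω : E n)‖ = ρ := fun ω => by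
    rw [norm_smul, Real.norm_of_nonneg (le_of_lt hρ0), norm_eq_of_mem_sphere ω, mul_one]
  rcases lt_or_ge ρ 1 with hρ | hρ
  · have : ∀ ω : Sp n, V (ρ • ω.1) * gam Real.pi (ζ - ρ • ω.1) (‖ρ • ω.1‖ ^ 2 - μ) = 0 :=
      fun ω => by rw [h1 _ (by rw [hnorm]; exact hρ), zero_mul]
    simp only [this, lintegral_zero, zero_le]
  have hmV : Measurable fun ω : Sp n => V (ρ • ω.1) := hV.comp (by fun_prop)
  have hmG : Measurable fun ω : Sp n => G (ρ • ω.1) := hG.comp (by fun_prop)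
  have hmg : Measurable fun ω : Sp n => gam (Real.pi / 2) (ζ - ρ • ω.1) (ρ ^ 2 - μ) :=
    measurable_gam _ (by fun_prop) (by fun_prop)
  have hmg1 : Measurable fun ω : Sp n => gam Real.pi (ζ - ρ • ω.1) (ρ ^ 2 - μ) :=
    measurable_gam _ (by fun_prop) (by fun_prop)
  simp only [hnorm]
  set R : ℝ≥0∞ := ENNReal.ofReal (ρ ^ (n - 1)) with hR
  let S : Set (Sp n × Sp n) := {p | ‖ρ • (p.1 : E n) - ρ • (p.2 : E n)‖ < δ}
  have hS : MeasurableSet S := measurableSet_lt (by fun_prop) measurable_const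
  let F : Sp n → Sp n → ℝ≥0∞ := fun ω ω₁ =>
    S.indicator (fun _ => (1 : ℝ≥0∞)) (ω, ω₁) *
      (R * (V (ρ • ω.1) * (D * gam (Real.pi / 2) (ζ - ρ • ω₁.1) (ρ ^ 2 - μ))))
  have hmF : Measurable (Function.uncurry F) := by
    refine Measurable.mul (measurable_const.indicator hS) ?_
    refine measurable_const.mul ((hmV.comp measurable_fst).mul
      (measurable_const.mul (hmg.comp measurable_snd)))
  -- first estimate
  have e1 : ∀ ω : Sp n, K * (V (ρ • ω.1) * gam Real.pi (ζ - ρ • ω.1) (ρ ^ 2 - μ)) ≤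
      ∫⁻ ω₁, F ω ω₁ ∂sig n := by
    intro ω
    have hSω : MeasurableSet {ω' : Sp n | ‖ρ • (ω : E n) - ρ • (ω' : E n)‖ < δ} :=
      measurableSet_lt (by fun_prop) measurable_const
    calc K * (V (ρ • ω.1) * gam Real.pi (ζ - ρ • ω.1) (ρ ^ 2 - μ))
        ≤ (R * sig n {ω' : Sp n | ‖ρ • (ω : E n) - ρ • (ω' : E n)‖ < δ}) *
            (V (ρ • ω.1) * gam Real.pi (ζ - ρ • ω.1) (ρ ^ 2 - μ)) :=
          mul_le_mul_left (hcap ρ hρ ω) _
      _ = ∫⁻ _ in {ω' : Sp n | ‖ρ • (ω : E n) - ρ • (ω' : E n)‖ < δ},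
            R * (V (ρ • ω.1) * gam Real.pi (ζ - ρ • ω.1) (ρ ^ 2 - μ)) ∂sig n := by
          rw [setLIntegral_const]; ring
      _ ≤ ∫⁻ ω₁ in {ω' : Sp n | ‖ρ • (ω : E n) - ρ • (ω' : E n)‖ < δ},
            (R * (V (ρ • ω.1) * (D * gam (Real.pi / 2) (ζ - ρ • ω₁.1) (ρ ^ 2 - μ))))
              ∂sig n := by
          refine setLIntegral_mono' hSω fun ω₁ h₁ => ?_
          gcongr
          refine gam_le ?_
          have : ζ - ρ • (ω : E n) - (ζ - ρ • (ω₁ : E n)) =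
            -(ρ • (ω : E n) - ρ • (ω₁ : E n)) := by abel
          rw [this, norm_neg]
          exact h₁
      _ = ∫⁻ ω₁, F ω ω₁ ∂sig n := by
          rw [← lintegral_indicator hSω]
          refine lintegral_congr fun ω₁ => ?_
          by_cases h₁ : ‖ρ • (ω : E n) - ρ • (ω₁ : E n)‖ < δ
          · rw [indicator_of_mem (by exact h₁)]
            simp only [F]
            rw [indicator_of_mem (show (ω, ω₁) ∈ S from h₁), one_mul]
          · rw [indicator_of_notMem (by exact h₁)]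
            simp only [F]
            rw [indicator_of_notMem (show (ω, ω₁) ∉ S from h₁), zero_mul]
  -- second estimate
  have e2 : ∀ ω₁ : Sp n, ∫⁻ ω, F ω ω₁ ∂sig n ≤
      D * θ * (G (ρ • ω₁.1) * gam (Real.pi / 2) (ζ - ρ • ω₁.1) (ρ ^ 2 - μ)) := by
    intro ω₁
    have hSω : MeasurableSet {ω' : Sp n | ‖ρ • (ω₁ : E n) - ρ • (ω' : E n)‖ < δ} :=
      measurableSet_lt (by fun_prop) measurable_const
    calc ∫⁻ ω, F ω ω₁ ∂sig n
        = ∫⁻ ω, (R * (D * gam (Real.pi / 2) (ζ - ρ • ω₁.1) (ρ ^ 2 - μ))) *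
            {ω' : Sp n | ‖ρ • (ω₁ : E n) - ρ • (ω' : E n)‖ < δ}.indicator
              (fun ω' : Sp n => V (ρ • ω'.1)) ω ∂sig n := by
          refine lintegral_congr fun ω => ?_
          by_cases h₁ : ‖ρ • (ω₁ : E n) - ρ • (ω : E n)‖ < δ
          · rw [indicator_of_mem (by exact h₁)]
            simp only [F]
            rw [indicator_of_mem (show (ω, ω₁) ∈ S from by
              change ‖ρ • (ω : E n) - ρ • (ω₁ : E n)‖ < δ
              rwa [norm_sub_rev]), one_mul]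
            ring
          · rw [indicator_of_notMem (by exact h₁)]
            simp only [F]
            rw [indicator_of_notMem (show (ω, ω₁) ∉ S from by
              change ¬ ‖ρ • (ω : E n) - ρ • (ω₁ : E n)‖ < δ
              rwa [norm_sub_rev]), zero_mul, mul_zero]
      _ = (R * (D * gam (Real.pi / 2) (ζ - ρ • ω₁.1) (ρ ^ 2 - μ))) *
            ∫⁻ ω' in {ω' : Sp n | ‖ρ • (ω₁ : E n) - ρ • (ω' : E n)‖ < δ}, V (ρ • (ω' : E n))
              ∂sig n := by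
          rw [lintegral_const_mul _ (hmV.indicator hSω), lintegral_indicator hSω]
      _ = (D * gam (Real.pi / 2) (ζ - ρ • ω₁.1) (ρ ^ 2 - μ)) * (R *
            ∫⁻ ω' in {ω' : Sp n | ‖ρ • (ω₁ : E n) - ρ • (ω' : E n)‖ < δ}, V (ρ • (ω' : E n))
              ∂sig n) := by ring
      _ ≤ (D * gam (Real.pi / 2) (ζ - ρ • ω₁.1) (ρ ^ 2 - μ)) * (θ * G (ρ • (ω₁ : E n))) :=
          mul_le_mul_right (hH ρ hρ ω₁) _
      _ = _ := by ring
  -- conclusion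
  have e3 : K * ∫⁻ ω : Sp n, V (ρ • ω.1) * gam Real.pi (ζ - ρ • ω.1) (ρ ^ 2 - μ) ∂sig n ≤
      D * θ * ∫⁻ ω : Sp n, G (ρ • ω.1) * gam (Real.pi / 2) (ζ - ρ • ω.1) (ρ ^ 2 - μ) ∂sig n := by
    calc K * ∫⁻ ω : Sp n, V (ρ • ω.1) * gam Real.pi (ζ - ρ • ω.1) (ρ ^ 2 - μ) ∂sig n
        = ∫⁻ ω : Sp n, K * (V (ρ • ω.1) * gam Real.pi (ζ - ρ • ω.1) (ρ ^ 2 - μ)) ∂sig n :=
          (lintegral_const_mul _ (hmV.mul hmg1)).symm
      _ ≤ ∫⁻ ω : Sp n, ∫⁻ ω₁ : Sp n, F ω ω₁ ∂sig n ∂sig n := lintegral_mono e1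
      _ = ∫⁻ ω₁ : Sp n, ∫⁻ ω : Sp n, F ω ω₁ ∂sig n ∂sig n :=
          lintegral_lintegral_swap hmF.aemeasurable
      _ ≤ ∫⁻ ω₁ : Sp n, D * θ * (G (ρ • ω₁.1) * gam (Real.pi / 2) (ζ - ρ • ω₁.1) (ρ ^ 2 - μ))
            ∂sig n := lintegral_mono e2
      _ = _ := lintegral_const_mul _ (hmG.mul hmg)
  calc ∫⁻ ω : Sp n, V (ρ • ω.1) * gam Real.pi (ζ - ρ • ω.1) (ρ ^ 2 - μ) ∂sig n
      = K⁻¹ * (K * ∫⁻ ω : Sp n, V (ρ • ω.1) * gam Real.pi (ζ - ρ • ω.1) (ρ ^ 2 - μ) ∂sig n) := by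
        rw [← mul_assoc, ENNReal.inv_mul_cancel hK0 hKt, one_mul]
    _ ≤ K⁻¹ * (D * θ * ∫⁻ ω : Sp n, G (ρ • ω.1) * gam (Real.pi / 2) (ζ - ρ • ω.1) (ρ ^ 2 - μ)
          ∂sig n) := mul_le_mul_right e3 _
    _ = _ := by ring

end Vale.Agent.P076.R2.H831V
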