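import Vale.Agent.P076.R2.H831.Sta

/-!
# P076 : definitions for the statement on sparse sets of frequencies, tubes with a density
-/

open MeasureTheory Filter Topology
open scoped ENNReal

namespace Vale.Agent.P076.R2

/-- The part in the shell `2 ^ k ≤ |ξ| < 2 ^ (k + 1)` of the tube `|ξ - (ξ·e) e| ≤ b`, where
`p = (e, b, θ)`. -/
def tube {n : ℕ} (k : ℕ) (p : (Fin n → ℝ) × ℝ × ℝ) : Set (Fin n → ℝ) :=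
  {ξ | 2 ^ k ≤ nrm ξ ∧ nrm ξ < 2 ^ (k + 1) ∧ nrm (ξ - (∑ i, ξ i * p.1 i) • p.1) ≤ p.2.1}

/-- For `(e, b, θ) ∈ T k`: `|e| = 1`, `b ≤ 2 ^ (k - 1)`, and `θ = 1` or `θ ≥ 0` bounds the surface
measure of `Ω ∩ tube` in the balls of radius `δ` centred on the spheres around `0`; moreover
`∑_k √(k+1) 2^(-2sk) ∑_{(e,b,θ) ∈ T k} θ max(b, 2^(k/2)) < ∞`. -/
def ThinTubes {n : ℕ} (s δ : ℝ) (Ω : Set (Fin n → ℝ)) (T : ℕ → Finset ((Fin n → ℝ) × ℝ × ℝ)) :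
    Prop :=
  (∀ k, ∀ p ∈ T k, nrm p.1 = 1 ∧ p.2.1 ≤ 2 ^ k / 2 ∧ 0 ≤ p.2.2 ∧
    (p.2.2 = 1 ∨ DensityLE (Ω ∩ tube k p) (fun _ => ENNReal.ofReal p.2.2) δ)) ∧
    Summable fun k : ℕ => √((k : ℝ) + 1) * (2 : ℝ) ^ (-(2 * s * k)) *
      ∑ p ∈ T k, p.2.2 * max p.2.1 ((2 : ℝ) ^ ((k : ℝ) / 2))

end Vale.Agent.P076.R2
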