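import Vale.Agent.P076.R2.H831V.Tu3
import Vale.Agent.P076.R2.H831V.Sta

/-!
# P076 : few tubes with a local density, on the frequency side of the problem
-/

open MeasureTheory Complex FourierTransform Filter Topology Set
open scoped ENNReal NNReal

namespace Vale.Agent.P076.R2.H831V

open Vale.Agent.P076 Vale.Agent.P076.H791 Vale.Agent.P076.R2 Vale.Agent.P076.R2.H45
open Vale.Agent.P076.R2.H831

variable {n : ℕ}

/-- the set of frequencies -/
def thinSet (Ω : Set (Fin n → ℝ)) (T : ℕ → Finset ((Fin n → ℝ) × ℝ × ℝ)) : Set (Fin n → ℝ) :=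
  {ξ | ξ ∈ Ω ∧ ∃ k, ∃ p ∈ T k, ξ ∈ tube k p}

lemma measurableSet_tube (k : ℕ) (p : (Fin n → ℝ) × ℝ × ℝ) : MeasurableSet (tube k p) := by
  have m1 : Measurable fun ξ : Fin n → ℝ => nrm (ξ - (∑ i, ξ i * p.1 i) • p.1) := by
    refine measurable_nrm.comp ?_
    fun_prop
  exact (measurableSet_le measurable_const measurable_nrm).inter
    ((measurableSet_lt measurable_nrm measurable_const).inter
      (measurableSet_le m1 measurable_const))

lemma measurableSet_thin {Ω : Set (Fin n → ℝ)} (hΩ : MeasurableSet Ω)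
    (T : ℕ → Finset ((Fin n → ℝ) × ℝ × ℝ)) : MeasurableSet (thinSet Ω T) := by
  have e : thinSet Ω T = Ω ∩ ⋃ k, ⋃ p ∈ T k, tube k p := by
    ext ξ
    simp only [thinSet, Set.mem_inter_iff, Set.mem_iUnion, Set.mem_ofPred_eq, exists_prop]
  rw [e]
  exact hΩ.inter (MeasurableSet.iUnion fun k => (T k).measurableSet_biUnion fun p _ =>
    measurableSet_tube k p)

/-- the embedding of the data -/
def embT3 : (Fin n → ℝ) × ℝ × ℝ ↪ E n × ℝ × ℝ where
  toFun p := (toE p.1, p.2)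
  inj' p q h := by
    obtain ⟨h1, h2⟩ := Prod.mk.inj h
    have h3 : p.1 = q.1 := by
      funext i
      have := congrArg (fun v : E n => v i) h1
      simpa only [toE_apply] using this
    exact Prod.ext h3 h2

/-- the set on the side of `E n` -/
def OmE (Ω : Set (Fin n → ℝ)) : Set (E n) := {x | WithLp.ofLp x ∈ Ω}

lemma measurableSet_OmE {Ω : Set (Fin n → ℝ)} (hΩ : MeasurableSet Ω) : MeasurableSet (OmE Ω) := by
  have h : Measurable fun x : E n => WithLp.ofLp x := by fun_prop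
  exact h hΩ

lemma mem_pieceX (Ω : Set (Fin n → ℝ)) (k : ℕ) (p : (Fin n → ℝ) × ℝ × ℝ) (x : E n) :
    x ∈ pieceX (OmE Ω) k (embT3 p) ↔ WithLp.ofLp x ∈ Ω ∩ tube k p := by
  have e1 : nrm (WithLp.ofLp x) = ‖x‖ := by
    rw [nrm_eq]
    rfl
  have e2 : (∑ i, WithLp.ofLp x i * p.1 i) = inner ℝ x (toE p.1) := (inner_toE (WithLp.ofLp x) p.1).symm
  have e3 : nrm (WithLp.ofLp x - (∑ i, WithLp.ofLp x i * p.1 i) • p.1) =
      ‖x - (inner ℝ x (toE p.1) : ℝ) • toE p.1‖ := by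
    rw [nrm_eq, e2]
    rfl
  constructor
  · rintro ⟨h1, h2, h3, h4⟩
    refine ⟨h1, ?_, ?_, ?_⟩
    · rw [e1]; exact h2
    · rw [e1]; exact h3
    · rw [e3]; exact h4
  · rintro ⟨h1, h2, h3, h4⟩
    rw [e1] at h2 h3
    rw [e3] at h4
    exact ⟨h1, h2, h3, h4⟩

/-- **few tubes with a local density are good** -/
theorem good_thin_of (hn : 1 ≤ n) (hTr : StTransfer n) (hDo : StDom n) (hNe : StNear n) {s δ : ℝ}
    (hs : 0 ≤ s) (hδ : 0 < δ) {Ω : Set (Fin n → ℝ)} (hΩ : MeasurableSet Ω)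
    (T : ℕ → Finset ((Fin n → ℝ) × ℝ × ℝ)) (hT : ThinTubes s δ Ω T) :
    Good s (thinSet Ω T) := by
  refine MP_tubes3 hn hTr hDo hNe hs (measurableSet_OmE hΩ) (fun k => (T k).map embT3) hδ ?_ ?_
    (measurable_wt (measurable_hwt s (measurableSet_thin hΩ T))) (fun η => one_le_hwt hs _ _) ?_
  · intro k p hp
    rw [Finset.mem_map] at hp
    obtain ⟨q, hq, rfl⟩ := hp
    obtain ⟨h1, h2, h3, h4⟩ := hT.1 k q hq
    rw [nrm_eq] at h1
    refine ⟨h1, h2, h3, h4.imp (fun h => h) fun h => ?_⟩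
    intro ρ hρ ω
    refine le_trans (le_of_eq ?_) (h ρ hρ ω)
    congr 2
    ext ω'
    exact and_congr Iff.rfl (mem_pieceX Ω k q _)
  · refine hT.2.congr fun k => ?_
    simp only [ak3, Finset.sum_map]
    rfl
  · intro η hη
    unfold Vale.Agent.P076.H791.wt hwt at hη ⊢
    have hnr : nrm (WithLp.ofLp ((2 * Real.pi) • η)) = ‖(2 * Real.pi) • η‖ := by
      rw [nrm_eq]
      rfl
    by_cases h1 : WithLp.ofLp ((2 * Real.pi) • η) ∈ thinSet Ω T
    · rw [if_pos h1, hnr]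
      refine ⟨le_rfl, ?_⟩
      obtain ⟨h2, k, p, hp, h3⟩ := h1
      exact ⟨k, embT3 p, Finset.mem_map_of_mem _ hp, (mem_pieceX Ω k p _).2 ⟨h2, h3⟩⟩
    · rw [if_neg h1] at hη
      exact absurd rfl hη

end Vale.Agent.P076.R2.H831V
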