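import Vale.Agent.P076.R2.H831V.Spec

/-!
# P076 : row P1, caps of radius `δ` on the sphere of radius `ρ`
-/

open MeasureTheory Complex FourierTransform Filter Topology Set
open scoped ENNReal NNReal

namespace Vale.Agent.P076.R2.H831V.PF

open Vale.Agent.P076 Vale.Agent.P076.H791 Vale.Agent.P076.R2.H45 Vale.Agent.P076.R2.H831
open Vale.Agent.P076.R2.H831.V2

variable {n : ℕ}

/-- the radial measure of a short interval -/
lemma nu_le {ρ t : ℝ} (hρ : 1 ≤ ρ) (ht0 : 0 < t) (ht1 : t ≤ 1) :
    nu n {q : Ioi (0 : ℝ) | |q.1 - ρ| < t} ≤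
      ENNReal.ofReal (2 * t * 2 ^ (n - 1)) * ENNReal.ofReal (ρ ^ (n - 1)) := by
  have hm : MeasurableSet {q : Ioi (0 : ℝ) | |q.1 - ρ| < t} :=
    measurableSet_lt (by fun_prop) measurable_const
  rw [nu, Measure.volumeIoiPow, withDensity_apply _ hm]
  calc ∫⁻ q in {q : Ioi (0 : ℝ) | |q.1 - ρ| < t}, ENNReal.ofReal (q.1 ^ (n - 1))
        ∂(Measure.comap Subtype.val volume)
      ≤ ∫⁻ q in {q : Ioi (0 : ℝ) | |q.1 - ρ| < t}, ENNReal.ofReal ((2 * ρ) ^ (n - 1))
        ∂(Measure.comap Subtype.val volume) := by
        refine setLIntegral_mono' hm fun q hq => ENNReal.ofReal_le_ofReal ?_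
        have h1 := (abs_lt.1 (show |q.1 - ρ| < t from hq)).2
        have h0 : (0 : ℝ) < q.1 := q.2
        exact pow_le_pow_left₀ h0.le (by linarith) _
    _ = ENNReal.ofReal ((2 * ρ) ^ (n - 1)) *
        (Measure.comap Subtype.val volume) {q : Ioi (0 : ℝ) | |q.1 - ρ| < t} := by
        rw [setLIntegral_const]
    _ ≤ ENNReal.ofReal ((2 * ρ) ^ (n - 1)) * ENNReal.ofReal (2 * t) := by
        gcongr
        rw [(MeasurableEmbedding.subtype_coe measurableSet_Ioi).comap_apply]
        calc volume (Subtype.val '' {q : Ioi (0 : ℝ) | |q.1 - ρ| < t})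
            ≤ volume (Ioo (ρ - t) (ρ + t)) := by
              refine measure_mono ?_
              rintro _ ⟨q, hq, rfl⟩
              have := abs_lt.1 (show |q.1 - ρ| < t from hq)
              exact ⟨by linarith [this.1], by linarith [this.2]⟩
          _ = ENNReal.ofReal (2 * t) := by
              rw [Real.volume_Ioo]; congr 1; ring
    _ = ENNReal.ofReal (2 * t * 2 ^ (n - 1)) * ENNReal.ofReal (ρ ^ (n - 1)) := by
        rw [← ENNReal.ofReal_mul (by positivity), ← ENNReal.ofReal_mul (by positivity)]
        congr 1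
        rw [mul_pow]; ring

/-- Row P1 -/
theorem stCap (hn : 1 ≤ n) : StCap n := by
  intro δ hδ
  obtain ⟨t, ht0, ht1, htδ⟩ : ∃ t : ℝ, 0 < t ∧ t ≤ 1 ∧ 2 * t < δ := by
    refine ⟨min δ 1 / 4, by positivity, ?_, ?_⟩
    · have := min_le_right δ 1; linarith
    · have := min_le_left δ 1; linarith
  have hv0 : volume (Metric.ball (0 : E n) t) ≠ 0 := (Metric.measure_ball_pos _ _ ht0).ne'
  have hvt : volume (Metric.ball (0 : E n) t) ≠ ∞ := measure_ball_lt_top.ne
  have hc : 0 < 2 * t * 2 ^ (n - 1) := by positivity
  refine ⟨(volume (Metric.ball (0 : E n) t)).toReal / (2 * t * 2 ^ (n - 1)),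
    div_pos (ENNReal.toReal_pos hv0 hvt) hc, fun ρ hρ ω => ?_⟩
  set S : Set (Sp n) := {ω' : Sp n | ‖ρ • (ω : E n) - ρ • (ω' : E n)‖ < δ} with hS
  have key : volume (Metric.ball (0 : E n) t) ≤ ENNReal.ofReal (2 * t * 2 ^ (n - 1)) *
      (ENNReal.ofReal (ρ ^ (n - 1)) * sig n S) := by
    rw [← Measure.addHaar_ball_center volume (ρ • (ω : E n)) t,
      ← lintegral_indicator_one Metric.isOpen_ball.measurableSet,
      lint_polar hn (measurable_one.indicator Metric.isOpen_ball.measurableSet)]
    calc ∫⁻ q, ∫⁻ ω' : Sp n, (Metric.ball (ρ • (ω : E n)) t).indicator 1 (q.1 • ω'.1)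
          ∂sig n ∂nu n
        ≤ ∫⁻ q, ({q : Ioi (0 : ℝ) | |q.1 - ρ| < t}.indicator (fun _ => sig n S)) q ∂nu n := by
          refine lintegral_mono fun q => ?_
          by_cases hq : |q.1 - ρ| < t
          · rw [indicator_of_mem (by exact hq)]
            calc ∫⁻ ω' : Sp n, (Metric.ball (ρ • (ω : E n)) t).indicator 1 (q.1 • ω'.1) ∂sig n
                ≤ ∫⁻ ω' : Sp n, S.indicator 1 ω' ∂sig n := by
                  refine lintegral_mono fun ω' => ?_
                  by_cases h : q.1 • ω'.1 ∈ Metric.ball (ρ • (ω : E n)) t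
                  · have hmem : ω' ∈ S := by
                      show ‖ρ • (ω : E n) - ρ • (ω' : E n)‖ < δ
                      rw [Metric.mem_ball, dist_eq_norm] at h
                      have h2 : ρ • (ω : E n) - ρ • (ω' : E n) =
                          -(q.1 • (ω' : E n) - ρ • (ω : E n)) + (q.1 - ρ) • (ω' : E n) := by
                        rw [sub_smul]; abel
                      have h3 : ‖(q.1 - ρ) • (ω' : E n)‖ = |q.1 - ρ| := by
                        rw [norm_smul, norm_eq_of_mem_sphere, mul_one, Real.norm_eq_abs]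
                      rw [h2]
                      calc _ ≤ ‖-(q.1 • (ω' : E n) - ρ • (ω : E n))‖ +
                            ‖(q.1 - ρ) • (ω' : E n)‖ := norm_add_le _ _
                        _ < t + t := by rw [norm_neg, h3]; exact add_lt_add h hq
                        _ < δ := by linarith
                    rw [indicator_of_mem h, indicator_of_mem hmem]
                    simp
                  · rw [indicator_of_notMem h]; exact zero_le
              _ = sig n S := by
                  refine lintegral_indicator_one ?_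
                  exact measurableSet_lt (by fun_prop) measurable_const
          · rw [indicator_of_notMem (by exact hq)]
            refine le_of_eq ((lintegral_congr fun ω' => ?_).trans lintegral_zero)
            refine indicator_of_notMem ?_ _
            intro h
            apply hq
            rw [Metric.mem_ball, dist_eq_norm] at h
            calc |q.1 - ρ| = |‖q.1 • (ω' : E n)‖ - ‖ρ • (ω : E n)‖| := by
                  rw [norm_smul, norm_smul, norm_eq_of_mem_sphere, norm_eq_of_mem_sphere,
                    mul_one, mul_one, Real.norm_of_nonneg (le_of_lt q.2),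
                    Real.norm_of_nonneg (by linarith)]
              _ ≤ ‖q.1 • (ω' : E n) - ρ • (ω : E n)‖ := abs_norm_sub_norm_le _ _
              _ < t := h
      _ = nu n {q : Ioi (0 : ℝ) | |q.1 - ρ| < t} * sig n S := by
          rw [lintegral_indicator (measurableSet_lt (by fun_prop) measurable_const),
            setLIntegral_const, mul_comm]
      _ ≤ (ENNReal.ofReal (2 * t * 2 ^ (n - 1)) * ENNReal.ofReal (ρ ^ (n - 1))) * sig n S := by
          gcongr
          exact nu_le hρ ht0 ht1
      _ = _ := by rw [mul_assoc]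
  rw [ENNReal.ofReal_div_of_pos hc, ENNReal.ofReal_toReal hvt]
  exact ENNReal.div_le_of_le_mul' key

end Vale.Agent.P076.R2.H831V.PF
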