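import Vale.Agent.P076.R2.H831V.Spec

/-!
# P076 : transfer of the TT* estimate between two densities (local constancy)
-/

open MeasureTheory Complex FourierTransform Filter Topology Set
open scoped ENNReal NNReal

namespace Vale.Agent.P076.R2.H831V.PF

open Vale.Agent.P076 Vale.Agent.P076.H791 Vale.Agent.P076.R2.H45 Vale.Agent.P076.R2.H831
open Vale.Agent.P076.R2.H831.V2

variable {n : ℕ}

namespace Tra

/-- the unimodular exponential -/
noncomputable def eb (x : ℝ) : ℂ := cexp (((2 * Real.pi * x : ℝ) : ℂ) * I)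

lemma norm_eb (x : ℝ) : ‖eb x‖ = 1 := by
  rw [eb, Complex.norm_exp_ofReal_mul_I]

lemma eb_add (x y : ℝ) : eb (x + y) = eb x * eb y := by
  rw [eb, eb, eb, ← Complex.exp_add]
  congr 1
  push_cast
  ring

lemma continuous_eb : Continuous eb := by
  unfold eb
  fun_prop

lemma ph_eb (x : E n) (t : ℝ) (η : E n) : ph x t 0 η = eb (inner ℝ x η - t * ‖η‖ ^ 2) := by
  unfold ph eb
  congr 1
  push_cast
  ring

/-- the Gaussian -/
noncomputable def gr (c : ℝ) (q : E n × ℝ) : ℝ := Real.exp (-(c * (‖q.1‖ ^ 2 + q.2 ^ 2)))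

section

variable {V : Type} [NormedAddCommGroup V] [InnerProductSpace ℝ V] [FiniteDimensional ℝ V]
  [MeasurableSpace V] [BorelSpace V]

lemma int_gauss {c : ℝ} (hc : 0 < c) : Integrable fun v : V => Real.exp (-(c * ‖v‖ ^ 2)) := by
  have h := (GaussianFourier.integrable_cexp_neg_mul_sq_norm_add (V := V)
    (b := ((c : ℝ) : ℂ)) (by rw [Complex.ofReal_re]; positivity) 0 0).norm
  refine h.congr (Eventually.of_forall fun x => ?_)
  simp only [zero_mul, add_zero]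
  rw [Complex.norm_exp, show (-((c : ℝ) : ℂ) * (‖x‖ : ℂ) ^ 2)
    = ((-(c * ‖x‖ ^ 2) : ℝ) : ℂ) by push_cast; ring, Complex.ofReal_re]

lemma ft_gauss (x : V) : ∫ v : V, ((Real.exp (-(Real.pi * ‖v‖ ^ 2)) : ℝ) : ℂ) * eb (inner ℝ x v)
    = ((Real.exp (-(Real.pi * ‖x‖ ^ 2)) : ℝ) : ℂ) := by
  have h := GaussianFourier.integral_cexp_neg_mul_sq_norm_add (V := V) (b := ((Real.pi : ℝ) : ℂ))
    (by rw [Complex.ofReal_re]; exact Real.pi_pos) (2 * Real.pi * I) x
  have e1 : ∀ v : V, ((Real.exp (-(Real.pi * ‖v‖ ^ 2)) : ℝ) : ℂ) * eb (inner ℝ x v)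
      = cexp (-((Real.pi : ℝ) : ℂ) * (‖v‖ : ℂ) ^ 2 + 2 * Real.pi * I * (inner ℝ x v : ℝ)) := by
    intro v
    rw [eb, Complex.ofReal_exp, ← Complex.exp_add]
    congr 1
    push_cast
    ring
  simp_rw [e1]
  rw [h]
  have hpi : ((Real.pi : ℝ) : ℂ) ≠ 0 := by
    rw [Ne, Complex.ofReal_eq_zero]
    exact Real.pi_pos.ne'
  rw [div_self hpi, one_cpow, one_mul, Complex.ofReal_exp]
  congr 1
  push_cast
  rw [mul_pow, mul_pow, Complex.I_sq]
  field_simp
  ring

end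

lemma int_gr {c : ℝ} (hc : 0 < c) : Integrable (gr c : E n × ℝ → ℝ) := by
  have h1 : Integrable fun v : E n => Real.exp (-(c * ‖v‖ ^ 2)) := int_gauss hc
  have h2 : Integrable fun w : ℝ => Real.exp (-(c * ‖w‖ ^ 2)) := int_gauss hc
  have h3 := h1.mul_prod h2
  refine h3.congr (Eventually.of_forall fun q => ?_)
  simp only [gr]
  rw [← Real.exp_add, Real.norm_eq_abs, sq_abs]
  congr 1
  ring

lemma ft_gr (x : E n) (t : ℝ) : ∫ q : E n × ℝ, ((gr Real.pi q : ℝ) : ℂ) *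
    eb (inner ℝ x q.1 + t * q.2) = ((gr Real.pi (x, t) : ℝ) : ℂ) := by
  have h1 := ft_gauss (V := E n) x
  have h2 := ft_gauss (V := ℝ) t
  have h3 := integral_prod_mul (μ := (volume : Measure (E n))) (ν := (volume : Measure ℝ))
    (fun v : E n => ((Real.exp (-(Real.pi * ‖v‖ ^ 2)) : ℝ) : ℂ) * eb (inner ℝ x v))
    (fun w : ℝ => ((Real.exp (-(Real.pi * ‖w‖ ^ 2)) : ℝ) : ℂ) * eb (inner ℝ t w))
  rw [h1, h2] at h3
  have e2 : ((gr Real.pi (x, t) : ℝ) : ℂ) = ((Real.exp (-(Real.pi * ‖x‖ ^ 2)) : ℝ) : ℂ) *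
      ((Real.exp (-(Real.pi * ‖t‖ ^ 2)) : ℝ) : ℂ) := by
    rw [← Complex.ofReal_mul, ← Real.exp_add, gr, Real.norm_eq_abs, sq_abs]
    congr 2
    ring
  rw [e2, ← h3]
  refine integral_congr_ae (Eventually.of_forall fun q => ?_)
  simp only
  have e3 : (inner ℝ t q.2 : ℝ) = t * q.2 := by
    simp [mul_comm]
  rw [e3, eb_add, gr]
  have e4 : Real.exp (-(Real.pi * (‖q.1‖ ^ 2 + q.2 ^ 2))) =
      Real.exp (-(Real.pi * ‖q.1‖ ^ 2)) * Real.exp (-(Real.pi * ‖q.2‖ ^ 2)) := by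
    rw [← Real.exp_add, Real.norm_eq_abs, sq_abs]
    congr 1
    ring
  rw [e4, Complex.ofReal_mul]
  ring

/-- the extension of the operator to space-time -/
noncomputable def NN (A : Set (E n)) (s : E n → ℝ) (h1 : E n → ℂ) (p : E n × ℝ) : ℂ :=
  ∫ x in A, h1 x * eb (inner ℝ x p.1 - s x * p.2)

lemma measurable_NN {A : Set (E n)} {s : E n → ℝ} {h1 : E n → ℂ} (ms : Measurable s)
    (mh : Measurable h1) : Measurable (NN A s h1) := by
  have h2 : Measurable fun q : (E n × ℝ) × E n =>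
      h1 q.2 * eb (inner ℝ q.2 q.1.1 - s q.2 * q.1.2) := by
    have m1 : Measurable fun q : (E n × ℝ) × E n => s q.2 * q.1.2 :=
      (ms.comp measurable_snd).mul (measurable_snd.comp measurable_fst)
    have m2 : Measurable fun q : (E n × ℝ) × E n => (inner ℝ q.2 q.1.1 : ℝ) := by
      have : Continuous fun q : (E n × ℝ) × E n => (inner ℝ q.2 q.1.1 : ℝ) := by fun_prop
      exact this.measurable
    exact (mh.comp measurable_snd).mul (continuous_eb.measurable.comp (m2.sub m1))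
  exact (h2.stronglyMeasurable.integral_prod_right
    (ν := (volume : Measure (E n)).restrict A)).measurable

lemma continuous_gr (c : ℝ) : Continuous (gr c : E n × ℝ → ℝ) := by
  unfold gr
  fun_prop

/-- the representation by a Gaussian mean -/
lemma rep {A : Set (E n)} {s : E n → ℝ} {h h1 : E n → ℂ} {K : ℝ} (hA : MeasurableSet A)
    (hvol : volume A < ⊤) (ms : Measurable s) (mh1 : Measurable h1) (bh1 : ∀ x, ‖h1 x‖ ≤ K)
    (heq : ∀ x ∈ A, h x = h1 x * ((gr Real.pi (x, s x) : ℝ) : ℂ)) (η : E n) :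
    Phi A s h η = ∫ q : E n × ℝ, ((gr Real.pi q : ℝ) : ℂ) *
      NN A s h1 (η + q.1, ‖η‖ ^ 2 - q.2) := by
  have : IsFiniteMeasure ((volume : Measure (E n)).restrict A) :=
    ⟨by rw [Measure.restrict_apply_univ]; exact hvol⟩
  set f : E n × ℝ → E n → ℂ := fun q x => ((gr Real.pi q : ℝ) : ℂ) *
    (h1 x * eb (inner ℝ x (η + q.1) - s x * (‖η‖ ^ 2 - q.2))) with hf
  have hint : Integrable (Function.uncurry f)
      ((volume : Measure (E n × ℝ)).prod ((volume : Measure (E n)).restrict A)) := by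
    have hb := (int_gr (n := n) Real.pi_pos).mul_prod
      (integrable_const (μ := (volume : Measure (E n)).restrict A) K)
    refine hb.mono' ?_ (Eventually.of_forall fun q => ?_)
    · have m0 : Measurable fun q : (E n × ℝ) × E n => ((gr Real.pi q.1 : ℝ) : ℂ) :=
        Complex.measurable_ofReal.comp ((continuous_gr Real.pi).measurable.comp measurable_fst)
      have m1 : Measurable fun q : (E n × ℝ) × E n => s q.2 * (‖η‖ ^ 2 - q.1.2) :=
        (ms.comp measurable_snd).mul (measurable_const.sub (measurable_snd.comp measurable_fst))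
      have m2 : Measurable fun q : (E n × ℝ) × E n => (inner ℝ q.2 (η + q.1.1) : ℝ) := by
        have : Continuous fun q : (E n × ℝ) × E n => (inner ℝ q.2 (η + q.1.1) : ℝ) := by fun_prop
        exact this.measurable
      exact (m0.mul ((mh1.comp measurable_snd).mul
        (continuous_eb.measurable.comp (m2.sub m1)))).aestronglyMeasurable
    · simp only [Function.uncurry, hf]
      rw [norm_mul, norm_mul, norm_eb, mul_one, Complex.norm_real, Real.norm_of_nonneg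
        (by unfold gr; positivity)]
      exact mul_le_mul_of_nonneg_left (bh1 _) (by unfold gr; positivity)
  have hsw := integral_integral_swap hint
  have e1 : ∀ q : E n × ℝ, ((gr Real.pi q : ℝ) : ℂ) * NN A s h1 (η + q.1, ‖η‖ ^ 2 - q.2) =
      ∫ x in A, f q x := by
    intro q
    rw [NN, hf, ← integral_const_mul]
  simp_rw [e1]
  rw [hsw, Phi]
  refine setIntegral_congr_fun hA fun x hx => ?_
  simp only [hf]
  have e2 : ∀ q : E n × ℝ, ((gr Real.pi q : ℝ) : ℂ) *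
      (h1 x * eb (inner ℝ x (η + q.1) - s x * (‖η‖ ^ 2 - q.2))) =
      (h1 x * eb (inner ℝ x η - s x * ‖η‖ ^ 2)) *
        (((gr Real.pi q : ℝ) : ℂ) * eb (inner ℝ x q.1 + s x * q.2)) := by
    intro q
    have e3 : (inner ℝ x (η + q.1) : ℝ) - s x * (‖η‖ ^ 2 - q.2) =
        (inner ℝ x η - s x * ‖η‖ ^ 2) + (inner ℝ x q.1 + s x * q.2) := by
      rw [inner_add_right]
      ring
    rw [e3, eb_add]
    ring
  simp_rw [e2]
  rw [integral_const_mul, ft_gr, heq x hx, ph_eb]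
  ring

lemma gam_gr (c : ℝ) (q : E n × ℝ) : gam c q.1 q.2 = ENNReal.ofReal (gr c q) := rfl

lemma gam_pos (c : ℝ) (v : E n) (w : ℝ) : gam c v w ≠ 0 := by
  unfold gam
  rw [Ne, ENNReal.ofReal_eq_zero, not_le]
  exact Real.exp_pos _

lemma gam_ne_top (c : ℝ) (v : E n) (w : ℝ) : gam c v w ≠ ⊤ := ENNReal.ofReal_ne_top

lemma measurable_gam (c : ℝ) : Measurable fun q : E n × ℝ => gam c q.1 q.2 :=
  (continuous_gr c).measurable.ennreal_ofReal

/-- the mass of the Gaussian -/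
noncomputable def Ga (n : ℕ) (c : ℝ) : ℝ≥0∞ := ∫⁻ q : E n × ℝ, gam c q.1 q.2

lemma Ga_lt_top {c : ℝ} (hc : 0 < c) : Ga n c < ⊤ := by
  unfold Ga
  simp_rw [gam_gr]
  exact (int_gr hc).lintegral_lt_top

/-- Cauchy-Schwarz -/
lemma cs {A : Set (E n)} {s : E n → ℝ} {h h1 : E n → ℂ} {K : ℝ} (hA : MeasurableSet A)
    (hvol : volume A < ⊤) (ms : Measurable s) (mh1 : Measurable h1) (bh1 : ∀ x, ‖h1 x‖ ≤ K)
    (heq : ∀ x ∈ A, h x = h1 x * ((gr Real.pi (x, s x) : ℝ) : ℂ)) (η : E n) :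
    ‖Phi A s h η‖ₑ ^ 2 ≤ Ga n Real.pi * ∫⁻ q : E n × ℝ, gam Real.pi q.1 q.2 *
      ‖NN A s h1 (η + q.1, ‖η‖ ^ 2 - q.2)‖ₑ ^ 2 := by
  set F : E n × ℝ → ℝ≥0∞ := fun q => ‖NN A s h1 (η + q.1, ‖η‖ ^ 2 - q.2)‖ₑ with hF
  have mF : Measurable F := by
    have m1 : Measurable fun q : E n × ℝ => ((η + q.1, ‖η‖ ^ 2 - q.2) : E n × ℝ) :=
      (measurable_const.add measurable_fst).prodMk (measurable_const.sub measurable_snd)
    exact ((measurable_NN ms mh1).comp m1).enorm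
  have h1' : ‖Phi A s h η‖ₑ ≤ ∫⁻ q : E n × ℝ, gam Real.pi q.1 q.2 * F q := by
    rw [rep hA hvol ms mh1 bh1 heq η]
    refine (enorm_integral_le_lintegral_enorm _).trans (le_of_eq ?_)
    refine lintegral_congr fun q => ?_
    rw [enorm_mul, gam_gr]
    congr 1
    rw [← ofReal_norm, Complex.norm_real, Real.norm_of_nonneg (by unfold gr; positivity)]
  have h2 := cs_weight (μ := (volume : Measure (E n × ℝ)))
    (f := fun q => gam Real.pi q.1 q.2 * F q) (u := fun q => (gam Real.pi q.1 q.2)⁻¹)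
    ((measurable_gam Real.pi).mul mF).aemeasurable (measurable_gam Real.pi).inv.aemeasurable
    (Eventually.of_forall fun q => ENNReal.inv_ne_zero.2 (gam_ne_top _ _ _))
    (Eventually.of_forall fun q hq => absurd (ENNReal.inv_eq_top.1 hq) (gam_pos _ _ _))
  refine (pow_le_pow_left' h1' 2).trans (h2.trans (le_of_eq ?_))
  simp only [inv_inv]
  unfold Ga
  congr 1
  refine lintegral_congr fun q => ?_
  rw [mul_pow, pow_two (gam Real.pi q.1 q.2), ← mul_assoc, ← mul_assoc,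
    ENNReal.inv_mul_cancel (gam_pos _ _ _) (gam_ne_top _ _ _), one_mul]

/-- change of variables -/
lemma chg (c : ℝ) {M : E n × ℝ → ℝ≥0∞} (mM : Measurable M) (η : E n) :
    ∫⁻ q : E n × ℝ, gam c q.1 q.2 * M (η + q.1, ‖η‖ ^ 2 - q.2) =
      ∫⁻ p : E n × ℝ, gam c (p.1 - η) (‖η‖ ^ 2 - p.2) * M p := by
  have m1 : Measurable fun q : E n × ℝ => gam c q.1 q.2 * M (η + q.1, ‖η‖ ^ 2 - q.2) := by
    have m2 : Measurable fun q : E n × ℝ => ((η + q.1, ‖η‖ ^ 2 - q.2) : E n × ℝ) :=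
      (measurable_const.add measurable_fst).prodMk (measurable_const.sub measurable_snd)
    exact (measurable_gam c).mul (mM.comp m2)
  have m3 : Measurable fun p : E n × ℝ => gam c (p.1 - η) (‖η‖ ^ 2 - p.2) * M p := by
    have m2 : Measurable fun p : E n × ℝ => ((p.1 - η, ‖η‖ ^ 2 - p.2) : E n × ℝ) :=
      (measurable_fst.sub measurable_const).prodMk (measurable_const.sub measurable_snd)
    exact ((measurable_gam c).comp m2).mul mM
  rw [show (volume : Measure (E n × ℝ)) = (volume : Measure (E n)).prod volume from rfl,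
    lintegral_prod _ m1.aemeasurable, lintegral_prod _ m3.aemeasurable]
  have e1 : ∀ v : E n, ∫⁻ w : ℝ, gam c v w * M (η + v, ‖η‖ ^ 2 - w) =
      ∫⁻ w : ℝ, gam c v (‖η‖ ^ 2 - w) * M (η + v, w) := by
    intro v
    have := lintegral_sub_left_eq_self (μ := (volume : Measure ℝ))
      (fun w : ℝ => gam c v (‖η‖ ^ 2 - w) * M (η + v, w)) (‖η‖ ^ 2)
    rw [← this]
    refine lintegral_congr fun w => ?_
    rw [sub_sub_cancel]
  simp only
  simp_rw [e1]
  have h2 := lintegral_add_left_eq_self (μ := (volume : Measure (E n)))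
    (fun z : E n => ∫⁻ w : ℝ, gam c (z - η) (‖η‖ ^ 2 - w) * M (z, w)) η
  rw [← h2]
  refine lintegral_congr fun v => ?_
  rw [add_sub_cancel_left]

lemma continuous_ker (c : ℝ) : Continuous fun q : E n × (E n × ℝ) =>
    Real.exp (-(c * (‖q.2.1 - q.1‖ ^ 2 + (‖q.1‖ ^ 2 - q.2.2) ^ 2))) := by
  fun_prop

lemma measurable_ker (c : ℝ) : Measurable fun q : E n × (E n × ℝ) =>
    gam c (q.2.1 - q.1) (‖q.1‖ ^ 2 - q.2.2) := by
  unfold gam
  exact (continuous_ker (n := n) c).measurable.ennreal_ofReal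

lemma measurable_ker1 (c : ℝ) (η : E n) : Measurable fun p : E n × ℝ =>
    gam c (p.1 - η) (‖η‖ ^ 2 - p.2) := by
  have h : Continuous fun p : E n × ℝ =>
      Real.exp (-(c * (‖p.1 - η‖ ^ 2 + (‖η‖ ^ 2 - p.2) ^ 2))) := by fun_prop
  unfold gam
  exact h.measurable.ennreal_ofReal

lemma measurable_ker2 (c : ℝ) (p : E n × ℝ) : Measurable fun η : E n =>
    gam c (p.1 - η) (‖η‖ ^ 2 - p.2) := by
  have h : Continuous fun η : E n =>
      Real.exp (-(c * (‖p.1 - η‖ ^ 2 + (‖η‖ ^ 2 - p.2) ^ 2))) := by fun_prop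
  unfold gam
  exact h.measurable.ennreal_ofReal

lemma measurable_KV (c : ℝ) {V : E n → ℝ≥0∞} (mV : Measurable V) :
    Measurable fun p : E n × ℝ => KV c V p.1 p.2 := by
  have h : Continuous fun q : (E n × ℝ) × E n =>
      Real.exp (-(c * (‖q.1.1 - q.2‖ ^ 2 + (‖q.2‖ ^ 2 - q.1.2) ^ 2))) := by fun_prop
  have h2 : Measurable fun q : (E n × ℝ) × E n => V q.2 *
      ENNReal.ofReal (Real.exp (-(c * (‖q.1.1 - q.2‖ ^ 2 + (‖q.2‖ ^ 2 - q.1.2) ^ 2)))) :=
    (mV.comp measurable_snd).mul h.measurable.ennreal_ofReal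
  exact h2.lintegral_prod_right'

/-- Tonelli -/
lemma ton (c : ℝ) {M : E n × ℝ → ℝ≥0∞} (mM : Measurable M) {V : E n → ℝ≥0∞}
    (mV : Measurable V) :
    ∫⁻ η, V η * ∫⁻ q : E n × ℝ, gam c q.1 q.2 * M (η + q.1, ‖η‖ ^ 2 - q.2) =
      ∫⁻ p : E n × ℝ, M p * KV c V p.1 p.2 := by
  have mker := measurable_ker (n := n) c
  have mj : Measurable (Function.uncurry fun (η : E n) (p : E n × ℝ) =>
      V η * (gam c (p.1 - η) (‖η‖ ^ 2 - p.2) * M p)) :=
    (mV.comp measurable_fst).mul (mker.mul (mM.comp measurable_snd))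
  calc ∫⁻ η, V η * ∫⁻ q : E n × ℝ, gam c q.1 q.2 * M (η + q.1, ‖η‖ ^ 2 - q.2)
      = ∫⁻ η, ∫⁻ p : E n × ℝ, V η * (gam c (p.1 - η) (‖η‖ ^ 2 - p.2) * M p) := by
        refine lintegral_congr fun η => ?_
        rw [chg c mM, lintegral_const_mul]
        exact (measurable_ker1 c η).mul mM
    _ = ∫⁻ p : E n × ℝ, ∫⁻ η, V η * (gam c (p.1 - η) (‖η‖ ^ 2 - p.2) * M p) :=
        lintegral_lintegral_swap mj.aemeasurable
    _ = ∫⁻ p : E n × ℝ, M p * KV c V p.1 p.2 := by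
        refine lintegral_congr fun p => ?_
        unfold KV
        rw [← lintegral_const_mul]
        · refine lintegral_congr fun η => ?_
          ring
        · exact mV.mul (measurable_ker2 c p)

lemma swp (c : ℝ) {M : E n × ℝ → ℝ≥0∞} (mM : Measurable M) {G : E n → ℝ≥0∞}
    (mG : Measurable G) :
    ∫⁻ η, G η * ∫⁻ q : E n × ℝ, gam c q.1 q.2 * M (η + q.1, ‖η‖ ^ 2 - q.2) =
      ∫⁻ q : E n × ℝ, gam c q.1 q.2 * ∫⁻ η, G η * M (η + q.1, ‖η‖ ^ 2 - q.2) := by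
  have m1 : Measurable fun q : E n × (E n × ℝ) =>
      ((q.1 + q.2.1, ‖q.1‖ ^ 2 - q.2.2) : E n × ℝ) := by
    have : Continuous fun q : E n × (E n × ℝ) =>
      ((q.1 + q.2.1, ‖q.1‖ ^ 2 - q.2.2) : E n × ℝ) := by fun_prop
    exact this.measurable
  have m2 : Measurable fun q : E n × (E n × ℝ) => gam c q.2.1 q.2.2 :=
    (measurable_gam c).comp measurable_snd
  have m3 : Measurable fun q : E n × (E n × ℝ) => M (q.1 + q.2.1, ‖q.1‖ ^ 2 - q.2.2) :=
    mM.comp m1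
  have mj : Measurable (Function.uncurry fun (η : E n) (q : E n × ℝ) =>
      G η * (gam c q.1 q.2 * M (η + q.1, ‖η‖ ^ 2 - q.2))) :=
    (mG.comp measurable_fst).mul (m2.mul m3)
  calc ∫⁻ η, G η * ∫⁻ q : E n × ℝ, gam c q.1 q.2 * M (η + q.1, ‖η‖ ^ 2 - q.2)
      = ∫⁻ η, ∫⁻ q : E n × ℝ, G η * (gam c q.1 q.2 * M (η + q.1, ‖η‖ ^ 2 - q.2)) := by
        refine lintegral_congr fun η => ?_
        rw [lintegral_const_mul]
        have m4 : Measurable fun q : E n × ℝ => ((η + q.1, ‖η‖ ^ 2 - q.2) : E n × ℝ) :=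
          (measurable_const.add measurable_fst).prodMk (measurable_const.sub measurable_snd)
        exact (measurable_gam c).mul (mM.comp m4)
    _ = ∫⁻ q : E n × ℝ, ∫⁻ η, G η * (gam c q.1 q.2 * M (η + q.1, ‖η‖ ^ 2 - q.2)) :=
        lintegral_lintegral_swap mj.aemeasurable
    _ = _ := by
        refine lintegral_congr fun q => ?_
        rw [← lintegral_const_mul' _ _ (gam_ne_top _ _ _)]
        refine lintegral_congr fun η => ?_
        ring

/-- the estimate for the modulated amplitudes -/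
lemma modul {r : ℕ} {A : Set (E n)} {s : E n → ℝ} {h1 : E n → ℂ} {K : ℝ} (hK : 0 < K)
    (hA : MeasurableSet A) (hsub : A ⊆ Metric.ball 0 r) (ms : Measurable s)
    (bs : ∀ x, |s x| ≤ r) (mh1 : Measurable h1) (bh1 : ∀ x, ‖h1 x‖ ≤ K) {G : E n → ℝ≥0∞}
    {S : ℝ≥0∞} (hG : TTr r G S) (q : E n × ℝ) :
    ∫⁻ η, G η * ‖NN A s h1 (η + q.1, ‖η‖ ^ 2 - q.2)‖ₑ ^ 2 ≤
      ENNReal.ofReal K ^ 2 * (S * volume A) := by
  set h3 : E n → ℂ := fun x => ((K⁻¹ : ℝ) : ℂ) * (h1 x * eb (inner ℝ x q.1 + s x * q.2)) with hh3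
  have m3 : Measurable h3 := by
    have m1 : Measurable fun x : E n => s x * q.2 := ms.mul measurable_const
    have m2 : Measurable fun x : E n => (inner ℝ x q.1 : ℝ) := by
      have : Continuous fun x : E n => (inner ℝ x q.1 : ℝ) := by fun_prop
      exact this.measurable
    exact measurable_const.mul (mh1.mul (continuous_eb.measurable.comp (m2.add m1)))
  have b3 : ∀ x, ‖h3 x‖ ≤ 1 := by
    intro x
    rw [hh3]
    simp only
    rw [norm_mul, norm_mul, norm_eb, mul_one, Complex.norm_real,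
      Real.norm_of_nonneg (inv_nonneg.2 hK.le)]
    calc K⁻¹ * ‖h1 x‖ ≤ K⁻¹ * K := mul_le_mul_of_nonneg_left (bh1 x) (inv_nonneg.2 hK.le)
      _ = 1 := inv_mul_cancel₀ hK.ne'
  have e1 : ∀ η, NN A s h1 (η + q.1, ‖η‖ ^ 2 - q.2) = (K : ℂ) * Phi A s h3 η := by
    intro η
    rw [NN, Phi, ← integral_const_mul]
    refine integral_congr_ae (Eventually.of_forall fun x => ?_)
    simp only [hh3]
    have e3 : (inner ℝ x (η + q.1) : ℝ) - s x * (‖η‖ ^ 2 - q.2) =
        (inner ℝ x η - s x * ‖η‖ ^ 2) + (inner ℝ x q.1 + s x * q.2) := by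
      rw [inner_add_right]
      ring
    rw [e3, eb_add, ph_eb]
    have hK' : (K : ℂ) ≠ 0 := by
      rw [Ne, Complex.ofReal_eq_zero]; exact hK.ne'
    rw [Complex.ofReal_inv]
    field_simp
  have h4 := hG A s h3 ⟨hA, hsub, ms, bs, m3, b3⟩
  have e2 : ∀ η, G η * ‖NN A s h1 (η + q.1, ‖η‖ ^ 2 - q.2)‖ₑ ^ 2 =
      ENNReal.ofReal K ^ 2 * (G η * ‖Phi A s h3 η‖ₑ ^ 2) := by
    intro η
    have e4 : ‖(K : ℂ)‖ₑ = ENNReal.ofReal K := by
      rw [← ofReal_norm, Complex.norm_real, Real.norm_of_nonneg hK.le]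
    rw [e1, enorm_mul, e4, mul_pow]
    ring
  simp_rw [e2]
  rw [lintegral_const_mul' _ _ (ENNReal.pow_ne_top ENNReal.ofReal_ne_top)]
  exact mul_le_mul_right h4 _

end Tra

open Tra in
/-- Row P2 -/
theorem stTransfer : StTransfer n := by
  intro r
  set K : ℝ := Real.exp (2 * Real.pi * r ^ 2) with hK
  have hKp : 0 < K := Real.exp_pos _
  have hfin : Ga n Real.pi * Ga n (Real.pi / 2) * ENNReal.ofReal K ^ 2 ≠ ⊤ :=
    ENNReal.mul_ne_top (ENNReal.mul_ne_top (Ga_lt_top Real.pi_pos).ne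
      (Ga_lt_top (by have := Real.pi_pos; positivity)).ne)
      (ENNReal.pow_ne_top ENNReal.ofReal_ne_top)
  refine ⟨(Ga n Real.pi * Ga n (Real.pi / 2) * ENNReal.ofReal K ^ 2).toNNReal,
    fun V G S c mV mG hG hKV A s h a => ?_⟩
  rw [ENNReal.coe_toNNReal hfin]
  -- the amplitude without the Gaussian
  set h1 : E n → ℂ := Set.indicator {x : E n | ‖x‖ ≤ r}
    (fun x => h x * ((Real.exp (Real.pi * (‖x‖ ^ 2 + s x ^ 2)) : ℝ) : ℂ)) with hh1
  have mh1 : Measurable h1 := by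
    refine Measurable.indicator ?_ (measurableSet_le measurable_norm measurable_const)
    refine a.mh.mul (Complex.measurable_ofReal.comp (Real.measurable_exp.comp ?_))
    exact measurable_const.mul ((measurable_norm.pow_const 2).add (a.ms.pow_const 2))
  have bh1 : ∀ x, ‖h1 x‖ ≤ K := by
    intro x
    rw [hh1]
    by_cases hx : x ∈ {x : E n | ‖x‖ ≤ r}
    · rw [Set.indicator_of_mem hx, norm_mul, Complex.norm_real,
        Real.norm_of_nonneg (Real.exp_pos _).le]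
      have h2 : Real.exp (Real.pi * (‖x‖ ^ 2 + s x ^ 2)) ≤ K := by
        rw [hK, Real.exp_le_exp]
        have h3 : ‖x‖ ^ 2 ≤ (r : ℝ) ^ 2 := pow_le_pow_left₀ (norm_nonneg _) hx 2
        have h4 : s x ^ 2 ≤ (r : ℝ) ^ 2 := by
          rw [← sq_abs]
          exact pow_le_pow_left₀ (abs_nonneg _) (a.bs x) 2
        have := Real.pi_pos
        nlinarith
      calc ‖h x‖ * Real.exp (Real.pi * (‖x‖ ^ 2 + s x ^ 2)) ≤ 1 * K :=
            mul_le_mul (a.bh x) h2 (Real.exp_pos _).le zero_le_one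
        _ = K := one_mul _
    · rw [Set.indicator_of_notMem hx, norm_zero]
      exact hKp.le
  have heq : ∀ x ∈ A, h x = h1 x * ((gr Real.pi (x, s x) : ℝ) : ℂ) := by
    intro x hx
    have hx' : x ∈ {x : E n | ‖x‖ ≤ r} := by
      have := a.sub hx
      rw [mem_ball_zero_iff] at this
      exact this.le
    rw [hh1, Set.indicator_of_mem hx', mul_assoc, ← Complex.ofReal_mul, gr, ← Real.exp_add]
    simp
  have mN : Measurable fun p : E n × ℝ => ‖NN A s h1 p‖ₑ ^ 2 :=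
    (measurable_NN a.ms mh1).enorm.pow_const 2
  calc ∫⁻ η, V η * ‖Phi A s h η‖ₑ ^ 2
      ≤ ∫⁻ η, Ga n Real.pi * (V η * ∫⁻ q : E n × ℝ, gam Real.pi q.1 q.2 *
          ‖NN A s h1 (η + q.1, ‖η‖ ^ 2 - q.2)‖ₑ ^ 2) := by
        refine lintegral_mono fun η => ?_
        calc V η * ‖Phi A s h η‖ₑ ^ 2 ≤ V η * (Ga n Real.pi * ∫⁻ q : E n × ℝ,
              gam Real.pi q.1 q.2 * ‖NN A s h1 (η + q.1, ‖η‖ ^ 2 - q.2)‖ₑ ^ 2) :=
              mul_le_mul_right (cs a.mA a.vol a.ms mh1 bh1 heq η) _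
          _ = _ := by ring
    _ = Ga n Real.pi * ∫⁻ η, V η * ∫⁻ q : E n × ℝ, gam Real.pi q.1 q.2 *
          ‖NN A s h1 (η + q.1, ‖η‖ ^ 2 - q.2)‖ₑ ^ 2 :=
        lintegral_const_mul' _ _ (Ga_lt_top Real.pi_pos).ne
    _ = Ga n Real.pi * ∫⁻ p : E n × ℝ, ‖NN A s h1 p‖ₑ ^ 2 * KV Real.pi V p.1 p.2 := by
        rw [ton Real.pi mN mV]
    _ ≤ Ga n Real.pi * ∫⁻ p : E n × ℝ, c * (‖NN A s h1 p‖ₑ ^ 2 * KV (Real.pi / 2) G p.1 p.2) := by
        refine mul_le_mul_right (lintegral_mono fun p => ?_) _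
        calc ‖NN A s h1 p‖ₑ ^ 2 * KV Real.pi V p.1 p.2 ≤
              ‖NN A s h1 p‖ₑ ^ 2 * (c * KV (Real.pi / 2) G p.1 p.2) :=
              mul_le_mul_right (hKV p.1 p.2) _
          _ = _ := by ring
    _ = Ga n Real.pi * (c * ∫⁻ p : E n × ℝ, ‖NN A s h1 p‖ₑ ^ 2 * KV (Real.pi / 2) G p.1 p.2) := by
        have m5 : Measurable fun p : E n × ℝ => ‖NN A s h1 p‖ₑ ^ 2 * KV (Real.pi / 2) G p.1 p.2 :=
          mN.mul (measurable_KV _ mG)
        rw [lintegral_const_mul c m5]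
    _ = Ga n Real.pi * (c * ∫⁻ η, G η * ∫⁻ q : E n × ℝ, gam (Real.pi / 2) q.1 q.2 *
          ‖NN A s h1 (η + q.1, ‖η‖ ^ 2 - q.2)‖ₑ ^ 2) := by
        rw [ton (Real.pi / 2) mN mG]
    _ = Ga n Real.pi * (c * ∫⁻ q : E n × ℝ, gam (Real.pi / 2) q.1 q.2 *
          ∫⁻ η, G η * ‖NN A s h1 (η + q.1, ‖η‖ ^ 2 - q.2)‖ₑ ^ 2) := by
        congr 2
        exact swp (Real.pi / 2) mN mG
    _ ≤ Ga n Real.pi * (c * ∫⁻ q : E n × ℝ, gam (Real.pi / 2) q.1 q.2 *
          (ENNReal.ofReal K ^ 2 * (S * volume A))) := by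
        refine mul_le_mul_right (mul_le_mul_right (lintegral_mono fun q => ?_) _) _
        exact mul_le_mul_right (modul hKp a.mA a.sub a.ms a.bs mh1 bh1 hG q) _
    _ = Ga n Real.pi * Ga n (Real.pi / 2) * ENNReal.ofReal K ^ 2 * c * S * volume A := by
        rw [lintegral_mul_const _ (measurable_gam _)]
        unfold Ga
        ring

end Vale.Agent.P076.R2.H831V.PF
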