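import Vale.Agent.P076.R2.H831V.Spec

/-!
# P076 : row P3, domination of the smoothed measures (helper875)
-/

set_option autoImplicit false

open MeasureTheory Complex FourierTransform Filter Topology Set
open scoped ENNReal NNReal

namespace Vale.Agent.P076.R2.H831V.PF

open Vale.Agent.P076 Vale.Agent.P076.H791 Vale.Agent.P076.R2.H45 Vale.Agent.P076.R2.H831
open Vale.Agent.P076.R2.H831.V2 Vale.Agent.P076.R2.H831V

variable {n : ℕ}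

lemma gam_near {δ : ℝ} (ζ η η₁ : E n) (μ : ℝ) (h : ‖η - η₁‖ < δ)
    (hn : ‖η‖ = ‖η₁‖) :
    gam Real.pi (ζ - η) (‖η‖ ^ 2 - μ) ≤ ENNReal.ofReal (Real.exp (Real.pi * δ ^ 2)) *
      gam (Real.pi / 2) (ζ - η₁) (‖η₁‖ ^ 2 - μ) := by
  unfold gam
  rw [← ENNReal.ofReal_mul (Real.exp_pos _).le, ← Real.exp_add]
  apply ENNReal.ofReal_le_ofReal
  apply Real.exp_le_exp.2
  rw [hn]
  have h1 : ‖ζ - η₁‖ ≤ ‖ζ - η‖ + ‖η - η₁‖ := by
    have := norm_add_le (ζ - η) (η - η₁)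
    rwa [sub_add_sub_cancel] at this
  have h2 : ‖ζ - η₁‖ ^ 2 ≤ 2 * ‖ζ - η‖ ^ 2 + 2 * δ ^ 2 := by
    have h3 := norm_nonneg (ζ - η₁)
    have h4 := norm_nonneg (ζ - η)
    have h5 := norm_nonneg (η - η₁)
    nlinarith [sq_nonneg (‖ζ - η‖ - δ)]
  have hp := Real.pi_pos
  nlinarith [sq_nonneg (‖η₁‖ ^ 2 - μ)]

lemma meas_gam (c : ℝ) (ζ : E n) (μ : ℝ) :
    Measurable (fun η : E n => gam c (ζ - η) (‖η‖ ^ 2 - μ)) := by
  unfold gam
  apply ENNReal.measurable_ofReal.comp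
  exact Continuous.measurable (by fun_prop)

theorem stDom (hn : 1 ≤ n) (h : StCap n) : StDom n := by
  intro δ hδ
  obtain ⟨κ, hκ, hcap⟩ := h δ hδ
  refine ⟨(Real.exp (Real.pi * δ ^ 2) / κ).toNNReal, ?_⟩
  intro V G θ hV hG hV0 hyp ζ μ
  have hJm : Measurable (fun ρ : Ioi (0 : ℝ) => ∫⁻ ω : Sp n, G (ρ.1 • (ω : E n)) *
      gam (Real.pi / 2) (ζ - ρ.1 • (ω : E n)) (‖ρ.1 • (ω : E n)‖ ^ 2 - μ) ∂sig n) := by
    apply Measurable.lintegral_prod_right' (f := fun p : Ioi (0 : ℝ) × Sp n =>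
      G (p.1.1 • (p.2 : E n)) *
        gam (Real.pi / 2) (ζ - p.1.1 • (p.2 : E n)) (‖p.1.1 • (p.2 : E n)‖ ^ 2 - μ))
    have hm : Measurable (fun p : Ioi (0 : ℝ) × Sp n => p.1.1 • (p.2 : E n)) :=
      Continuous.measurable (by fun_prop)
    exact (hG.comp hm).mul ((meas_gam (Real.pi / 2) ζ μ).comp hm)
  unfold KV
  rw [lint_polar hn (f := fun η => V η * gam Real.pi (ζ - η) (‖η‖ ^ 2 - μ))
      (hV.mul (meas_gam _ ζ μ)),
    lint_polar hn (f := fun η => G η * gam (Real.pi / 2) (ζ - η) (‖η‖ ^ 2 - μ))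
      (hG.mul (meas_gam _ ζ μ)),
    ← lintegral_const_mul _ hJm]
  refine lintegral_mono fun ρ => ?_
  have hρ0 : 0 < ρ.1 := ρ.2
  have hnorm : ∀ ω : Sp n, ‖ρ.1 • (ω : E n)‖ = ρ.1 := by
    intro ω
    rw [norm_smul, Real.norm_of_nonneg hρ0.le, norm_eq_of_mem_sphere ω, mul_one]
  rcases lt_or_ge ρ.1 1 with hρ | hρ
  · have h0 : ∀ ω : Sp n, V (ρ.1 • (ω : E n)) = 0 := fun ω => hV0 _ (by rw [hnorm]; exact hρ)
    simp only [h0, zero_mul, lintegral_zero, zero_le]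
  · set R : ℝ≥0∞ := ENNReal.ofReal (ρ.1 ^ (n - 1)) with hR
    set e : ℝ≥0∞ := ENNReal.ofReal (Real.exp (Real.pi * δ ^ 2)) with he
    have heT : e ≠ ⊤ := ENNReal.ofReal_ne_top
    have hRT : R ≠ ⊤ := ENNReal.ofReal_ne_top
    have hsm : Measurable (fun ω : Sp n => ρ.1 • (ω : E n)) :=
      Continuous.measurable (by fun_prop)
    set S : Set (Sp n × Sp n) := {p | ‖ρ.1 • (p.1 : E n) - ρ.1 • (p.2 : E n)‖ < δ} with hS
    have hSm : MeasurableSet S :=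
      (isOpen_lt (by fun_prop) continuous_const).measurableSet
    set F : Sp n × Sp n → ℝ≥0∞ := S.indicator (fun p => V (ρ.1 • (p.1 : E n)) *
      gam (Real.pi / 2) (ζ - ρ.1 • (p.2 : E n)) (‖ρ.1 • (p.2 : E n)‖ ^ 2 - μ)) with hF
    have hFm : Measurable F := by
      refine Measurable.indicator ?_ hSm
      exact (hV.comp (hsm.comp measurable_fst)).mul
        ((meas_gam (Real.pi / 2) ζ μ).comp (hsm.comp measurable_snd))
    have hsw : ∫⁻ ω, ∫⁻ ω₁, F (ω, ω₁) ∂sig n ∂sig n = ∫⁻ ω₁, ∫⁻ ω, F (ω, ω₁) ∂sig n ∂sig n :=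
      lintegral_lintegral_swap hFm.aemeasurable
    -- step 1
    have h1 : ∀ ω : Sp n, ENNReal.ofReal κ * (V (ρ.1 • (ω : E n)) *
        gam Real.pi (ζ - ρ.1 • (ω : E n)) (‖ρ.1 • (ω : E n)‖ ^ 2 - μ)) ≤
        (R * e) * ∫⁻ ω₁, F (ω, ω₁) ∂sig n := by
      intro ω
      set X := V (ρ.1 • (ω : E n)) *
        gam Real.pi (ζ - ρ.1 • (ω : E n)) (‖ρ.1 • (ω : E n)‖ ^ 2 - μ) with hX
      have a1 : ENNReal.ofReal κ * X ≤ R * sig n {ω' : Sp n |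
          ‖ρ.1 • (ω : E n) - ρ.1 • (ω' : E n)‖ < δ} * X :=
        mul_le_mul_left (hcap ρ.1 hρ ω) X
      refine a1.trans ?_
      have hSω : MeasurableSet {ω' : Sp n | ‖ρ.1 • (ω : E n) - ρ.1 • (ω' : E n)‖ < δ} :=
        (isOpen_lt (by fun_prop) continuous_const).measurableSet
      have a2 : sig n {ω' : Sp n | ‖ρ.1 • (ω : E n) - ρ.1 • (ω' : E n)‖ < δ} * X ≤
          e * ∫⁻ ω₁, F (ω, ω₁) ∂sig n := by
        rw [mul_comm, ← setLIntegral_const, ← lintegral_indicator hSω,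
          ← lintegral_const_mul' _ _ heT]
        refine lintegral_mono fun ω₁ => ?_
        by_cases hm : ‖ρ.1 • (ω : E n) - ρ.1 • (ω₁ : E n)‖ < δ
        · have m1 : ω₁ ∈ {ω' : Sp n | ‖ρ.1 • (ω : E n) - ρ.1 • (ω' : E n)‖ < δ} := hm
          have m2 : (ω, ω₁) ∈ S := hm
          rw [indicator_of_mem m1, hF, indicator_of_mem m2, hX]
          have := gam_near ζ (ρ.1 • (ω : E n)) (ρ.1 • (ω₁ : E n)) μ hm (by rw [hnorm, hnorm])
          calc V (ρ.1 • (ω : E n)) *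
                gam Real.pi (ζ - ρ.1 • (ω : E n)) (‖ρ.1 • (ω : E n)‖ ^ 2 - μ)
              ≤ V (ρ.1 • (ω : E n)) * (e * gam (Real.pi / 2) (ζ - ρ.1 • (ω₁ : E n))
                (‖ρ.1 • (ω₁ : E n)‖ ^ 2 - μ)) := by gcongr
            _ = _ := by ring
        · have m1 : ω₁ ∉ {ω' : Sp n | ‖ρ.1 • (ω : E n) - ρ.1 • (ω' : E n)‖ < δ} := hm
          rw [indicator_of_notMem m1]
          exact zero_le
      calc R * sig n {ω' : Sp n | ‖ρ.1 • (ω : E n) - ρ.1 • (ω' : E n)‖ < δ} * X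
          = R * (sig n {ω' : Sp n | ‖ρ.1 • (ω : E n) - ρ.1 • (ω' : E n)‖ < δ} * X) := by ring
        _ ≤ R * (e * ∫⁻ ω₁, F (ω, ω₁) ∂sig n) := by gcongr
        _ = _ := by ring
    -- step 2
    have h2 : ∀ ω₁ : Sp n, R * ∫⁻ ω, F (ω, ω₁) ∂sig n ≤
        θ * (G (ρ.1 • (ω₁ : E n)) *
          gam (Real.pi / 2) (ζ - ρ.1 • (ω₁ : E n)) (‖ρ.1 • (ω₁ : E n)‖ ^ 2 - μ)) := by
      intro ω₁
      have hgT : gam (Real.pi / 2) (ζ - ρ.1 • (ω₁ : E n)) (‖ρ.1 • (ω₁ : E n)‖ ^ 2 - μ) ≠ ⊤ :=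
        ENNReal.ofReal_ne_top
      have hSω : MeasurableSet {ω' : Sp n | ‖ρ.1 • (ω₁ : E n) - ρ.1 • (ω' : E n)‖ < δ} :=
        (isOpen_lt (by fun_prop) continuous_const).measurableSet
      have b1 : ∫⁻ ω, F (ω, ω₁) ∂sig n =
          (∫⁻ ω' in {ω' : Sp n | ‖ρ.1 • (ω₁ : E n) - ρ.1 • (ω' : E n)‖ < δ},
            V (ρ.1 • (ω' : E n)) ∂sig n) *
          gam (Real.pi / 2) (ζ - ρ.1 • (ω₁ : E n)) (‖ρ.1 • (ω₁ : E n)‖ ^ 2 - μ) := by
        rw [← lintegral_mul_const' _ _ hgT, ← lintegral_indicator hSω]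
        refine lintegral_congr fun ω => ?_
        by_cases hm : ‖ρ.1 • (ω : E n) - ρ.1 • (ω₁ : E n)‖ < δ
        · have m1 : ω ∈ {ω' : Sp n | ‖ρ.1 • (ω₁ : E n) - ρ.1 • (ω' : E n)‖ < δ} := by
            show ‖ρ.1 • (ω₁ : E n) - ρ.1 • (ω : E n)‖ < δ
            rw [norm_sub_rev]
            exact hm
          have m2 : (ω, ω₁) ∈ S := hm
          rw [indicator_of_mem m1, hF, indicator_of_mem m2]
        · have m1 : ω ∉ {ω' : Sp n | ‖ρ.1 • (ω₁ : E n) - ρ.1 • (ω' : E n)‖ < δ} := by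
            show ¬ ‖ρ.1 • (ω₁ : E n) - ρ.1 • (ω : E n)‖ < δ
            rw [norm_sub_rev]
            exact hm
          have m2 : (ω, ω₁) ∉ S := hm
          rw [indicator_of_notMem m1, hF, indicator_of_notMem m2]
      rw [b1, ← mul_assoc, ← mul_assoc]
      exact mul_le_mul_left (hyp ρ.1 hρ ω₁) _
    have h3 : ENNReal.ofReal κ * ∫⁻ ω : Sp n, V (ρ.1 • (ω : E n)) *
        gam Real.pi (ζ - ρ.1 • (ω : E n)) (‖ρ.1 • (ω : E n)‖ ^ 2 - μ) ∂sig n ≤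
        e * (θ * ∫⁻ ω₁ : Sp n, G (ρ.1 • (ω₁ : E n)) *
          gam (Real.pi / 2) (ζ - ρ.1 • (ω₁ : E n)) (‖ρ.1 • (ω₁ : E n)‖ ^ 2 - μ) ∂sig n) := by
      rw [← lintegral_const_mul' _ _ ENNReal.ofReal_ne_top]
      refine (lintegral_mono h1).trans ?_
      have hBm : Measurable (fun ω₁ : Sp n => G (ρ.1 • (ω₁ : E n)) *
          gam (Real.pi / 2) (ζ - ρ.1 • (ω₁ : E n)) (‖ρ.1 • (ω₁ : E n)‖ ^ 2 - μ)) :=
        (hG.comp hsm).mul ((meas_gam (Real.pi / 2) ζ μ).comp hsm)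
      rw [lintegral_const_mul' _ _ (ENNReal.mul_ne_top hRT heT), hsw, mul_comm R e, mul_assoc,
        ← lintegral_const_mul' _ _ hRT, ← lintegral_const_mul _ hBm]
      exact mul_le_mul_right (lintegral_mono h2) e
    set A := ∫⁻ ω : Sp n, V (ρ.1 • (ω : E n)) *
        gam Real.pi (ζ - ρ.1 • (ω : E n)) (‖ρ.1 • (ω : E n)‖ ^ 2 - μ) ∂sig n with hA
    set B := ∫⁻ ω₁ : Sp n, G (ρ.1 • (ω₁ : E n)) *
          gam (Real.pi / 2) (ζ - ρ.1 • (ω₁ : E n)) (‖ρ.1 • (ω₁ : E n)‖ ^ 2 - μ) ∂sig n with hB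
    have hκ0 : ENNReal.ofReal κ ≠ 0 := (ENNReal.ofReal_pos.2 hκ).ne'
    have hκT : ENNReal.ofReal κ ≠ ⊤ := ENNReal.ofReal_ne_top
    have hC : (((Real.exp (Real.pi * δ ^ 2) / κ).toNNReal : ℝ≥0) : ℝ≥0∞) =
        (ENNReal.ofReal κ)⁻¹ * e := by
      have h5 : (((Real.exp (Real.pi * δ ^ 2) / κ).toNNReal : ℝ≥0) : ℝ≥0∞) =
          ENNReal.ofReal (Real.exp (Real.pi * δ ^ 2) / κ) := rfl
      rw [h5, ENNReal.ofReal_div_of_pos hκ, div_eq_mul_inv, mul_comm]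
    rw [hC]
    calc A = (ENNReal.ofReal κ)⁻¹ * (ENNReal.ofReal κ * A) := by
          rw [← mul_assoc, ENNReal.inv_mul_cancel hκ0 hκT, one_mul]
      _ ≤ (ENNReal.ofReal κ)⁻¹ * (e * (θ * B)) := by gcongr
      _ = (ENNReal.ofReal κ)⁻¹ * e * θ * B := by ring

end Vale.Agent.P076.R2.H831V.PF
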