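import Vale.Agent.P076.R2.H831V.Spec

/-!
# P076 : the majorant of a tube near the tube (row P4)
-/

open MeasureTheory Complex FourierTransform Filter Topology Set
open scoped ENNReal NNReal

namespace Vale.Agent.P076.R2.H831V.PF

open Vale.Agent.P076 Vale.Agent.P076.H791 Vale.Agent.P076.R2.H45 Vale.Agent.P076.R2.H831
open Vale.Agent.P076.R2.H831.V2

variable {n : ℕ}

lemma perp_sq (x e : E n) (he : ‖e‖ = 1) :
    ‖x - (inner ℝ x e : ℝ) • e‖ ^ 2 = ‖x‖ ^ 2 - (inner ℝ x e : ℝ) ^ 2 := by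
  rw [norm_sub_sq_real, norm_smul, inner_smul_right, he]
  simp only [Real.norm_eq_abs, mul_one, sq_abs]
  ring

lemma perp_near (η η₁ e : E n) (he : ‖e‖ = 1) (h : ‖η₁ - η‖ ≤ 1) :
    ‖η₁‖ ^ 2 - (inner ℝ η₁ e : ℝ) ^ 2 ≤ 2 * (‖η‖ ^ 2 - (inner ℝ η e : ℝ) ^ 2) + 2 := by
  have h1 : η₁ - (inner ℝ η₁ e : ℝ) • e = (η - (inner ℝ η e : ℝ) • e) +
      ((η₁ - η) - (inner ℝ (η₁ - η) e : ℝ) • e) := by
    rw [inner_sub_left, sub_smul]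
    abel
  have h2 : ‖(η₁ - η) - (inner ℝ (η₁ - η) e : ℝ) • e‖ ^ 2 ≤ 1 := by
    rw [perp_sq _ _ he]
    have h3 := sq_nonneg (inner ℝ (η₁ - η) e : ℝ)
    have h4 : ‖η₁ - η‖ ^ 2 ≤ 1 := by
      have := norm_nonneg (η₁ - η)
      nlinarith
    linarith
  rw [← perp_sq _ _ he, ← perp_sq _ _ he, h1]
  have h5 := norm_add_le (η - (inner ℝ η e : ℝ) • e) ((η₁ - η) - (inner ℝ (η₁ - η) e : ℝ) • e)
  set a : ℝ := ‖η - (inner ℝ η e : ℝ) • e‖ with ha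
  set b : ℝ := ‖(η₁ - η) - (inner ℝ (η₁ - η) e : ℝ) • e‖ with hb
  have ha0 : 0 ≤ a := norm_nonneg _
  have hb0 : 0 ≤ b := norm_nonneg _
  have h6 : ‖(η - (inner ℝ η e : ℝ) • e) + ((η₁ - η) - (inner ℝ (η₁ - η) e : ℝ) • e)‖ ^ 2 ≤
      (a + b) ^ 2 := by
    gcongr
  nlinarith [sq_nonneg (a - b)]

/-- the Gaussian of a tube near a point -/
lemma gg_near {R L σ u v c N X Y : ℝ} (hR : 0 < R) (hL : 0 < L) (hN : 1 ≤ N)
    (hLR : (L / R) ^ 2 ≤ 8 * N)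
    (hu : |u - c| ≤ R / L) (huv : |v - u| ≤ 1) (hB1 : (σ ^ 2)⁻¹ ≤ 1) (hB0 : 0 ≤ (σ ^ 2)⁻¹)
    (hX : (σ ^ 2)⁻¹ * X ≤ 1 / 36) (hY : Y ≤ 2 * X + 2) :
    Real.exp (-(70 * N)) ≤ Real.exp (-(Real.pi * ((L / R) ^ 2 * (v - c) ^ 2 + (σ ^ 2)⁻¹ * Y))) := by
  apply Real.exp_le_exp.2
  have hpi3 := Real.pi_gt_three
  have hpi4 := Real.pi_lt_d2
  have hA0 : 0 ≤ (L / R) ^ 2 := sq_nonneg _
  have h6 : (L / R) ^ 2 * (u - c) ^ 2 ≤ 1 := by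
    have h7 : (u - c) ^ 2 ≤ (R / L) ^ 2 := by
      rw [← sq_abs]
      gcongr
    calc (L / R) ^ 2 * (u - c) ^ 2 ≤ (L / R) ^ 2 * (R / L) ^ 2 := by
          gcongr
      _ = 1 := by field_simp
  have h9 : (v - u) ^ 2 ≤ 1 := by
    rw [← sq_abs]
    exact pow_le_one₀ (abs_nonneg _) huv
  have h8 : (v - c) ^ 2 ≤ 2 * (u - c) ^ 2 + 2 := by
    nlinarith [sq_nonneg ((v - u) - (u - c))]
  have h10 := mul_le_mul_of_nonneg_left h8 hA0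
  have h14 : (L / R) ^ 2 * (2 * (u - c) ^ 2 + 2) = 2 * ((L / R) ^ 2 * (u - c) ^ 2) +
    2 * (L / R) ^ 2 := by ring
  have h15 := mul_le_mul_of_nonneg_left hY hB0
  have h16 : (σ ^ 2)⁻¹ * (2 * X + 2) = 2 * ((σ ^ 2)⁻¹ * X) + 2 * (σ ^ 2)⁻¹ := by ring
  have h11 : (L / R) ^ 2 * (v - c) ^ 2 + (σ ^ 2)⁻¹ * Y ≤ 16 * N + 5 := by linarith
  have h12 : Real.pi * ((L / R) ^ 2 * (v - c) ^ 2 + (σ ^ 2)⁻¹ * Y) ≤ Real.pi * (16 * N + 5) :=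
    mul_le_mul_of_nonneg_left h11 (by linarith)
  have h13 : Real.pi * (16 * N + 5) ≤ 3.15 * (16 * N + 5) :=
    mul_le_mul_of_nonneg_right (by linarith) (by linarith)
  linarith

/-- the coordinates of a point of a tube -/
lemma tube_coord {k : ℕ} (hk : 3 ≤ k) {p : E n × ℝ} (hp : ‖p.1‖ = 1) (hp2 : p.2 ≤ 2 ^ k / 2)
    {η : E n} (h1 : 2 ^ k ≤ ‖(2 * Real.pi) • η‖) (h2 : ‖(2 * Real.pi) • η‖ < 2 ^ (k + 1))
    (h3 : ‖(2 * Real.pi) • η - (inner ℝ ((2 * Real.pi) • η) p.1 : ℝ) • p.1‖ ≤ p.2) :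
    RR k ≤ |(inner ℝ η p.1 : ℝ)| ∧ |(inner ℝ η p.1 : ℝ)| ≤ 3 * RR k ∧
      ((max p.2 ((2 : ℝ) ^ ((k : ℝ) / 2))) ^ 2)⁻¹ * (‖η‖ ^ 2 - (inner ℝ η p.1 : ℝ) ^ 2) ≤
        1 / 36 := by
  have hR1 := RR_ge hk
  have hR0 : 0 < RR k := lt_of_lt_of_le one_pos hR1
  have hpi3 := Real.pi_gt_three
  have hpi4 := Real.pi_lt_d2
  set u : ℝ := inner ℝ η p.1 with hu
  set σ : ℝ := max p.2 ((2 : ℝ) ^ ((k : ℝ) / 2)) with hσ
  have hσ0 : 0 < σ := lt_of_lt_of_le (by positivity) (le_max_right _ _)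
  have hp0 : 0 ≤ p.2 := (norm_nonneg _).trans h3
  have hR8 : (2 : ℝ) ^ k = 8 * RR k := by unfold RR; ring
  have e1 : ‖(2 * Real.pi) • η - (inner ℝ ((2 * Real.pi) • η) p.1 : ℝ) • p.1‖ ^ 2 =
      (2 * Real.pi) ^ 2 * (‖η‖ ^ 2 - u ^ 2) := by
    rw [inner_smul_left, norm_sub_sq_real, norm_smul, norm_smul, inner_smul_left, inner_smul_right,
      hp, ← hu]
    simp only [RCLike.conj_to_real, Real.norm_eq_abs, mul_one]
    rw [abs_of_pos (by positivity), sq_abs]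
    ring
  have e2 : (2 * Real.pi) ^ 2 * (‖η‖ ^ 2 - u ^ 2) ≤ p.2 ^ 2 := by
    rw [← e1]
    gcongr
  rw [norm_smul, Real.norm_eq_abs, abs_of_pos (by positivity), hR8] at h1
  rw [norm_smul, Real.norm_eq_abs, abs_of_pos (by positivity), pow_succ, hR8] at h2
  rw [hR8] at hp2
  have hη0 : 0 ≤ ‖η‖ := norm_nonneg η
  have e3 : (8 * RR k) ^ 2 ≤ (2 * Real.pi) ^ 2 * ‖η‖ ^ 2 := by
    rw [← mul_pow]
    gcongr
  have e4 : p.2 ^ 2 ≤ (4 * RR k) ^ 2 := by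
    gcongr
    linarith
  have hpisq : Real.pi ^ 2 ≤ 12 := by nlinarith
  have e5 : RR k ^ 2 ≤ u ^ 2 := by
    have h6 : 48 * RR k ^ 2 ≤ (2 * Real.pi) ^ 2 * u ^ 2 := by nlinarith
    have h7 : (2 * Real.pi) ^ 2 * u ^ 2 ≤ 48 * u ^ 2 := by nlinarith [sq_nonneg u]
    linarith
  have e6 : RR k ≤ |u| := by
    rw [← abs_of_pos hR0]
    exact sq_le_sq.1 e5
  have e7 : |u| ≤ 3 * RR k := by
    have h6 : |u| ≤ ‖η‖ := by
      have := abs_real_inner_le_norm η p.1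
      rwa [hp, mul_one] at this
    nlinarith
  have h7' : 0 ≤ ‖η‖ ^ 2 - u ^ 2 := by
    have h8 : 0 ≤ (2 * Real.pi) ^ 2 * (‖η‖ ^ 2 - u ^ 2) := by rw [← e1]; positivity
    exact nonneg_of_mul_nonneg_right h8 (by positivity)
  have e8 : (σ ^ 2)⁻¹ * (‖η‖ ^ 2 - u ^ 2) ≤ 1 / 36 := by
    rw [inv_mul_le_iff₀ (by positivity)]
    have h6 : p.2 ^ 2 ≤ σ ^ 2 := by
      gcongr
      exact le_max_left _ _
    have h9 : (36 : ℝ) ≤ (2 * Real.pi) ^ 2 := by nlinarith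
    have h10 := mul_le_mul_of_nonneg_right h9 h7'
    linarith
  exact ⟨e6, e7, e8⟩

lemma LL_RR {k : ℕ} (hn : 1 ≤ n) (hk : 3 ≤ k) : (LL2 n k / RR k) ^ 2 ≤ 8 * n := by
  have hn1 : (1 : ℝ) ≤ n := by exact_mod_cast hn
  have hR1 := RR_ge hk
  have hR0 : 0 < RR k := lt_of_lt_of_le one_pos hR1
  have h6 : LL2 n k ^ 2 ≤ 8 * n * RR k := by
    rw [LL_sq2 hk]
    have h7 := Real.log_le_sub_one_of_pos hR0
    have h8 : 6 * (n : ℝ) * Real.log (RR k) ≤ 6 * n * (RR k - 1) := by gcongr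
    nlinarith
  rw [div_pow, div_le_iff₀ (by positivity)]
  have h9 : RR k ≤ RR k ^ 2 := by nlinarith
  have h10 : 8 * (n : ℝ) * RR k ≤ 8 * n * RR k ^ 2 := by gcongr
  linarith

/-- Row P4. -/
theorem stNear (hn : 1 ≤ n) : StNear n := by
  intro k hk p hp hp2 η η₁ h1 h2 h3 h4
  have hn1 : (1 : ℝ) ≤ n := by exact_mod_cast hn
  have hR0 : 0 < RR k := lt_of_lt_of_le one_pos (RR_ge hk)
  have hL0 : 0 < LL2 n k := lt_of_lt_of_le one_pos (LL_ge2 (n := n) hk)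
  obtain ⟨e6, e7, e8⟩ := tube_coord hk hp hp2 h1 h2 h3
  have e9 := perp_near η η₁ p.1 hp h4
  have huv : |(inner ℝ η₁ p.1 : ℝ) - (inner ℝ η p.1 : ℝ)| ≤ 1 := by
    have h6 := abs_real_inner_le_norm (η₁ - η) p.1
    rw [hp, mul_one, inner_sub_left] at h6
    exact h6.trans h4
  have hσ1 : 1 ≤ max p.2 ((2 : ℝ) ^ ((k : ℝ) / 2)) := by
    refine le_trans ?_ (le_max_right _ _)
    exact Real.one_le_rpow (by norm_num) (by positivity)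
  set u : ℝ := inner ℝ η p.1 with hu
  set σ : ℝ := max p.2 ((2 : ℝ) ^ ((k : ℝ) / 2)) with hσ
  have hB1 : (σ ^ 2)⁻¹ ≤ 1 := inv_le_one_of_one_le₀ (one_le_pow₀ hσ1)
  have hB0 : 0 ≤ (σ ^ 2)⁻¹ := by positivity
  have key : ∀ c : ℝ, |u - c| ≤ RR k / LL2 n k →
      Real.exp (-(70 * n)) ≤ gg p.1 (RR k) (LL2 n k) σ c η₁ := fun c hc =>
    gg_near hR0 hL0 hn1 (LL_RR hn hk) hc huv hB1 hB0 e8 e9
  have nn : ∀ j ∈ Finset.range (JJ2 n k), 0 ≤ gg p.1 (RR k) (LL2 n k) σ (cc2 n k j) η₁ +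
      gg p.1 (RR k) (LL2 n k) σ (-cc2 n k j) η₁ := fun j _ =>
    add_nonneg (gg_nonneg _ _ _ _ _ _) (gg_nonneg _ _ _ _ _ _)
  unfold tub2
  rcases le_total 0 u with hu0 | hu0
  · rw [abs_of_nonneg hu0] at e6 e7
    obtain ⟨j, hj, hjc⟩ := exists_center2 (n := n) hk e6 e7
    refine le_trans ?_ (Finset.single_le_sum nn hj)
    have := key _ hjc
    have h9 := gg_nonneg p.1 (RR k) (LL2 n k) σ (-cc2 n k j) η₁
    linarith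
  · rw [abs_of_nonpos hu0] at e6 e7
    obtain ⟨j, hj, hjc⟩ := exists_center2 (n := n) hk e6 e7
    refine le_trans ?_ (Finset.single_le_sum nn hj)
    have h10 : |u - -cc2 n k j| ≤ RR k / LL2 n k := by
      rw [← abs_neg]
      rw [show -(u - -cc2 n k j) = -u - cc2 n k j by ring]
      exact hjc
    have := key _ h10
    have h9 := gg_nonneg p.1 (RR k) (LL2 n k) σ (cc2 n k j) η₁
    linarith

end Vale.Agent.P076.R2.H831V.PF
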