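import Vale.Agent.P076.R2.H831V.Fin5
import Vale.Agent.P076.R2.H831V.P1
import Vale.Agent.P076.R2.H831V.P2
import Vale.Agent.P076.R2.H831V.P3
import Vale.Agent.P076.R2.H831V.P4

/-!
# P076 : few tubes with a local density are good
-/

open MeasureTheory Complex FourierTransform Filter Topology Set
open scoped ENNReal NNReal

namespace Vale.Agent.P076.R2.H831V

open Vale.Agent.P076 Vale.Agent.P076.H791 Vale.Agent.P076.R2 Vale.Agent.P076.R2.H45
open Vale.Agent.P076.R2.H831

variable {n : ℕ}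

/-- **few tubes with a local density are good** -/
theorem good_thin (hn : 1 ≤ n) {s δ : ℝ} (hs : 0 ≤ s) (hδ : 0 < δ) {Ω : Set (Fin n → ℝ)}
    (hΩ : MeasurableSet Ω) (T : ℕ → Finset ((Fin n → ℝ) × ℝ × ℝ)) (hT : ThinTubes s δ Ω T) :
    Good s (thinSet Ω T) :=
  good_thin_of hn PF.stTransfer (PF.stDom hn (PF.stCap hn)) (PF.stNear hn) hs hδ hΩ T hT

end Vale.Agent.P076.R2.H831V
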