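import Vale.Agent.P076.R2.H831V.Spec2

/-!
# P076 : row Z1
-/

open MeasureTheory Complex FourierTransform Filter Topology Set
open scoped ENNReal NNReal

set_option linter.all false

namespace Vale.Agent.P076.R2.H831V.QA

open Vale.Agent.P076 Vale.Agent.P076.H791 Vale.Agent.P076.R2 Vale.Agent.P076.R2.H45
open Vale.Agent.P076.R2.H831 Vale.Agent.P076.R2.H831V

variable {n : ℕ}

/-- the weight -/
noncomputable def W (e : Fin n → ℝ) (ε : ℝ) (ξ : Fin n → ℝ) : ℝ :=
  1 + |∑ i, ξ i * e i| ^ (1 / 2 + ε) + nrm (ξ - (∑ i, ξ i * e i) • e) ^ (1 + ε)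

/-- the radial majorant -/
noncomputable def gg (ε ρ : ℝ) : ℝ := 8 ^ (1 + ε) * (1 + ‖ρ‖) ^ (-(1 + ε))

noncomputable def th (ε : ℝ) (k j : ℕ) : ℝ :=
  min ((2 : ℝ) ^ (-(((k : ℝ) - 1) * (1 / 2 + ε)))) ((2 : ℝ) ^ (-(((j : ℝ) - 1) * (1 + ε))))

lemma th_nonneg (ε : ℝ) (k j : ℕ) : 0 ≤ th ε k j := by
  unfold th; positivity

lemma nrm_nonneg' (ξ : Fin n → ℝ) : 0 ≤ nrm ξ := Real.sqrt_nonneg _

lemma one_le_W (e : Fin n → ℝ) (ε : ℝ) (ξ : Fin n → ℝ) : 1 ≤ W e ε ξ := by
  unfold W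
  have h1 : 0 ≤ |∑ i, ξ i * e i| ^ (1 / 2 + ε) := Real.rpow_nonneg (abs_nonneg _) _
  have h2 : 0 ≤ nrm (ξ - (∑ i, ξ i * e i) • e) ^ (1 + ε) := Real.rpow_nonneg (nrm_nonneg' _) _
  linarith

lemma gg_eq (ε : ℝ) {ρ : ℝ} (hρ : 0 ≤ ρ) : gg ε ρ = (8 / (1 + ρ)) ^ (1 + ε) := by
  unfold gg
  rw [Real.norm_eq_abs, abs_of_nonneg hρ, Real.div_rpow (by norm_num) (by positivity),
    Real.rpow_neg (by positivity), div_eq_mul_inv]

lemma measurable_gg (ε : ℝ) : Measurable (gg ε) := by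
  unfold gg
  fun_prop

lemma gg_int (ε : ℝ) (hε : 0 < ε) : ∫⁻ ρ : ℝ, ENNReal.ofReal (gg ε ρ) < ⊤ := by
  have h : Integrable (fun ρ : ℝ => (1 + ‖ρ‖) ^ (-(1 + ε))) := by
    apply integrable_one_add_norm
    simp only [Module.finrank_self, Nat.cast_one]
    linarith
  exact (h.const_mul _).lintegral_lt_top

lemma nrm_tri (e ξ : Fin n → ℝ) (he : nrm e = 1) :
    nrm ξ ≤ |∑ i, ξ i * e i| + nrm (ξ - (∑ i, ξ i * e i) • e) := by
  set c := ∑ i, ξ i * e i
  have h1 : ‖toE ξ‖ ≤ ‖toE (c • e)‖ + ‖toE (ξ - c • e)‖ := by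
    have : toE ξ = toE (c • e) + toE (ξ - c • e) := by
      ext i
      simp [toE_apply]
    rw [this]
    exact norm_add_le _ _
  rw [← nrm_eq, ← nrm_eq, ← nrm_eq] at h1
  have h2 : nrm (c • e) = |c| := by
    rw [nrm_eq]
    have : toE (c • e) = c • toE e := by
      ext i
      simp [toE_apply]
    rw [this, norm_smul, ← nrm_eq, he, mul_one, Real.norm_eq_abs]
  rw [h2] at h1
  exact h1

lemma point (e : Fin n → ℝ) (ε : ℝ) (he : nrm e = 1) (hε : 0 < ε) (ξ : Fin n → ℝ) :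
    (W e ε ξ)⁻¹ ≤ gg ε (nrm ξ) ∨ ∃ k j : ℕ, j < k ∧ ξ ∈ tube k (e, (2 : ℝ) ^ j, th ε k j) ∧
      (W e ε ξ)⁻¹ ≤ th ε k j := by
  have hW := one_le_W e ε ξ
  have hWi : (W e ε ξ)⁻¹ ≤ 1 := inv_le_one_of_one_le₀ hW
  have hN := nrm_nonneg' ξ
  set N := nrm ξ with hNdef
  set c := nrm (ξ - (∑ i, ξ i * e i) • e) with hc
  set a := |∑ i, ξ i * e i| with ha
  have hc0 : 0 ≤ c := nrm_nonneg' _
  have ha0 : 0 ≤ a := abs_nonneg _
  have htri : N ≤ a + c := nrm_tri e ξ he
  have hWd : W e ε ξ = 1 + a ^ (1 / 2 + ε) + c ^ (1 + ε) := rfl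
  have hpa : 0 ≤ a ^ (1 / 2 + ε) := Real.rpow_nonneg ha0 _
  have hpc : 0 ≤ c ^ (1 + ε) := Real.rpow_nonneg hc0 _
  rw [gg_eq ε hN]
  by_cases hN2 : N < 2
  · left
    refine hWi.trans ?_
    apply Real.one_le_rpow _ (by linarith)
    rw [le_div_iff₀ (by linarith)]
    linarith
  · push Not at hN2
    obtain ⟨k, hk1, hk2⟩ := exists_nat_pow_near (x := N) (y := 2) (by linarith) (by norm_num)
    have hk0 : 1 ≤ k := by
      by_contra h
      have : k = 0 := by omega
      subst this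
      norm_num at hk2
      linarith
    have hkk : (2 : ℝ) ^ k = 2 * 2 ^ (k - 1) := by
      rw [← pow_succ']
      congr 1
      omega
    by_cases hcb : (2 : ℝ) ^ (k - 1) < c
    · left
      have h1 : N / 4 < c := by
        rw [pow_succ, hkk] at hk2
        linarith
      have h2 : (N / 4) ^ (1 + ε) ≤ c ^ (1 + ε) :=
        Real.rpow_le_rpow (by linarith) h1.le (by linarith)
      have h3 : (0 : ℝ) < (N / 4) ^ (1 + ε) := Real.rpow_pos_of_pos (by linarith) _
      calc (W e ε ξ)⁻¹ ≤ ((N / 4) ^ (1 + ε))⁻¹ := by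
            apply inv_anti₀ h3
            rw [hWd]
            linarith
        _ = (4 / N) ^ (1 + ε) := by
            rw [← Real.inv_rpow (by linarith), inv_div]
        _ ≤ (8 / (1 + N)) ^ (1 + ε) := by
            apply Real.rpow_le_rpow (by positivity) _ (by linarith)
            rw [div_le_div_iff₀ (by linarith) (by linarith)]
            linarith
    · right
      push Not at hcb
      have hab : (2 : ℝ) ^ (k - 1) ≤ a := by linarith
      classical
      have hex : ∃ j : ℕ, c ≤ (2 : ℝ) ^ j := ⟨k - 1, hcb⟩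
      set j := Nat.find hex with hj
      have hj1 : c ≤ (2 : ℝ) ^ j := Nat.find_spec hex
      have hj2 : j ≤ k - 1 := Nat.find_min' hex hcb
      refine ⟨k, j, by omega, ⟨hk1, hk2, hj1⟩, ?_⟩
      unfold th
      refine le_min ?_ ?_
      · rw [Real.rpow_neg (by norm_num)]
        apply inv_anti₀ (by positivity)
        have h2 : ((2 : ℝ) ^ (k - 1)) ^ (1 / 2 + ε) ≤ a ^ (1 / 2 + ε) :=
          Real.rpow_le_rpow (by positivity) hab (by linarith)
        rw [← Real.rpow_natCast, ← Real.rpow_mul (by norm_num), Nat.cast_sub hk0,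
          Nat.cast_one] at h2
        rw [hWd]
        linarith
      · rcases Nat.eq_zero_or_pos j with h0 | h0
        · rw [h0]
          refine hWi.trans ?_
          apply Real.one_le_rpow (by norm_num)
          push_cast
          linarith
        · rw [Real.rpow_neg (by norm_num)]
          apply inv_anti₀ (by positivity)
          have hlt : (2 : ℝ) ^ (j - 1) < c := by
            have := Nat.find_min hex (m := j - 1) (by omega)
            push Not at this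
            exact this
          have h2 : ((2 : ℝ) ^ (j - 1)) ^ (1 + ε) ≤ c ^ (1 + ε) :=
            Real.rpow_le_rpow (by positivity) hlt.le (by linarith)
          rw [← Real.rpow_natCast, ← Real.rpow_mul (by norm_num), Nat.cast_sub h0,
            Nat.cast_one] at h2
          rw [hWd]
          linarith

lemma th_max (ε : ℝ) (hε : 0 < ε) (k j : ℕ) :
    th ε k j * max ((2 : ℝ) ^ j) ((2 : ℝ) ^ ((k : ℝ) / 2)) ≤
      (2 : ℝ) ^ (1 + ε) * ((2 : ℝ) ^ (-(ε / 2))) ^ k := by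
  have hj : (2 : ℝ) ^ j = (2 : ℝ) ^ (j : ℝ) := (Real.rpow_natCast _ _).symm
  have hR : (2 : ℝ) ^ (1 + ε) * ((2 : ℝ) ^ (-(ε / 2))) ^ k = (2 : ℝ) ^ (1 + ε - ε / 2 * k) := by
    rw [← Real.rpow_natCast, ← Real.rpow_mul (by norm_num), ← Real.rpow_add (by norm_num)]
    congr 1
    ring
  have hk0 : (0 : ℝ) ≤ k := Nat.cast_nonneg k
  rw [hR, hj]
  rcases le_total (j : ℝ) ((k : ℝ) / 2) with h | h
  · rw [max_eq_right (Real.rpow_le_rpow_of_exponent_le (by norm_num) h)]
    calc th ε k j * (2 : ℝ) ^ ((k : ℝ) / 2)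
        ≤ (2 : ℝ) ^ (-(((k : ℝ) - 1) * (1 / 2 + ε))) * (2 : ℝ) ^ ((k : ℝ) / 2) :=
          mul_le_mul_of_nonneg_right (min_le_left _ _) (by positivity)
      _ = (2 : ℝ) ^ (-(((k : ℝ) - 1) * (1 / 2 + ε)) + (k : ℝ) / 2) :=
          (Real.rpow_add (by norm_num) _ _).symm
      _ ≤ _ := by
          apply Real.rpow_le_rpow_of_exponent_le (by norm_num)
          nlinarith [mul_nonneg hε.le hk0]
  · rw [max_eq_left (Real.rpow_le_rpow_of_exponent_le (by norm_num) h)]
    calc th ε k j * (2 : ℝ) ^ (j : ℝ)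
        ≤ (2 : ℝ) ^ (-(((j : ℝ) - 1) * (1 + ε))) * (2 : ℝ) ^ (j : ℝ) :=
          mul_le_mul_of_nonneg_right (min_le_right _ _) (by positivity)
      _ = (2 : ℝ) ^ (-(((j : ℝ) - 1) * (1 + ε)) + (j : ℝ)) :=
          (Real.rpow_add (by norm_num) _ _).symm
      _ ≤ _ := by
          apply Real.rpow_le_rpow_of_exponent_le (by norm_num)
          nlinarith [mul_le_mul_of_nonneg_left h hε.le]

lemma summ (ε : ℝ) (hε : 0 < ε) : Summable fun k : ℕ => √((k : ℝ) + 1) *
    ∑ j ∈ Finset.range k, th ε k j * max ((2 : ℝ) ^ j) ((2 : ℝ) ^ ((k : ℝ) / 2)) := by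
  set r : ℝ := (2 : ℝ) ^ (-(ε / 2)) with hr
  have hr0 : 0 < r := by positivity
  have hr1 : r < 1 := Real.rpow_lt_one_of_one_lt_of_neg (by norm_num) (by linarith)
  have hs : Summable fun k : ℕ => (k : ℝ) ^ 2 * r ^ k :=
    summable_pow_mul_geometric_of_norm_lt_one 2 (by rw [Real.norm_eq_abs, abs_of_pos hr0]; exact hr1)
  have hs1 : Summable fun k : ℕ => (2 : ℝ) ^ (1 + ε) * r⁻¹ * (((k + 1 : ℕ) : ℝ) ^ 2 * r ^ (k + 1)) :=
    ((summable_nat_add_iff 1).2 hs).mul_left _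
  refine Summable.of_nonneg_of_le (fun k => ?_) (fun k => ?_) hs1
  · refine mul_nonneg (Real.sqrt_nonneg _) (Finset.sum_nonneg fun j _ => ?_)
    exact mul_nonneg (th_nonneg _ _ _) (by positivity)
  · have h1 : √((k : ℝ) + 1) ≤ (k : ℝ) + 1 := by
      rw [Real.sqrt_le_left (by positivity)]
      nlinarith [(Nat.cast_nonneg k : (0 : ℝ) ≤ k)]
    have h2 : ∑ j ∈ Finset.range k, th ε k j * max ((2 : ℝ) ^ j) ((2 : ℝ) ^ ((k : ℝ) / 2)) ≤
        k * ((2 : ℝ) ^ (1 + ε) * r ^ k) := by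
      refine (Finset.sum_le_sum fun j _ => th_max ε hε k j).trans ?_
      rw [Finset.sum_const, Finset.card_range, nsmul_eq_mul]
    have h3 : 0 ≤ (2 : ℝ) ^ (1 + ε) * r ^ k := by positivity
    calc _ ≤ ((k : ℝ) + 1) * (k * ((2 : ℝ) ^ (1 + ε) * r ^ k)) :=
          mul_le_mul h1 h2 (Finset.sum_nonneg fun j _ =>
            mul_nonneg (th_nonneg _ _ _) (by positivity)) (by positivity)
      _ ≤ ((k : ℝ) + 1) * (((k : ℝ) + 1) * ((2 : ℝ) ^ (1 + ε) * r ^ k)) := by
          apply mul_le_mul_of_nonneg_left _ (by positivity)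
          apply mul_le_mul_of_nonneg_right _ h3
          linarith
      _ = _ := by
          push_cast
          rw [pow_succ r k]
          field_simp

theorem stAni {n : ℕ} (hn : 1 ≤ n) (h : StWt n) : StAni n := by
  classical
  intro e ε he hε
  refine h (fun ξ => ENNReal.ofReal (W e ε ξ)) (fun ξ => ENNReal.ofReal (gg ε (nrm ξ)))
    (fun ρ => ENNReal.ofReal (gg ε ρ) * ENNReal.ofReal (cC n)) 1
    (fun k => (Finset.range k).image fun j => (e, (2 : ℝ) ^ j, th ε k j))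
    (fun _ p => fun _ => ENNReal.ofReal p.2.2) ?_ ?_ ?_ ?_ ?_ one_pos ?_ ?_ ?_
  · have h1 : Measurable (fun ξ : Fin n → ℝ => ∑ i, ξ i * e i) := by fun_prop
    have h2 : Measurable (fun ξ : Fin n → ℝ => nrm (ξ - (∑ i, ξ i * e i) • e)) :=
      measurable_nrm'.comp (by fun_prop)
    unfold W
    exact ((measurable_const.add ((continuous_abs.measurable.comp h1).pow_const _)).add (h2.pow_const _)).ennreal_ofReal
  · intro ξ
    exact ENNReal.one_le_ofReal.2 (one_le_W e ε ξ)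
  · exact ((measurable_gg ε).comp measurable_nrm').ennreal_ofReal
  · exact ((measurable_gg ε).ennreal_ofReal).mul_const _
  · rw [lintegral_mul_const _ (measurable_gg ε).ennreal_ofReal]
    refine ENNReal.mul_lt_top ?_ ENNReal.ofReal_lt_top
    exact (setLIntegral_le_lintegral _ _).trans_lt (gg_int ε hε)
  · intro ρ hρ ω
    have h1 := cap_le hn hρ one_pos ω
    rw [one_pow, mul_one] at h1
    have h2 : ∀ ω' : Metric.sphere (0 : EuclideanSpace ℝ (Fin n)) 1,
        ENNReal.ofReal (gg ε (nrm (ρ • ω'.1).ofLp)) = ENNReal.ofReal (gg ε ρ) := by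
      intro ω'
      rw [nrm_sph hρ]
    simp only [h2]
    rw [setLIntegral_const, mul_left_comm]
    exact mul_le_mul_right h1 _
  · refine ⟨?_, ?_⟩
    · intro k p hp
      simp only [Finset.mem_image, Finset.mem_range] at hp
      obtain ⟨j, hj, rfl⟩ := hp
      refine ⟨he, ?_, th_nonneg _ _ _, measurable_const, Or.inl fun ξ => le_rfl⟩
      show (2 : ℝ) ^ j ≤ 2 ^ k / 2
      rw [le_div_iff₀ (by norm_num), ← pow_succ]
      exact pow_le_pow_right₀ (by norm_num) (by omega)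
    · refine (summ ε hε).congr fun k => ?_
      rw [Finset.sum_image]
      intro i _ j _ hij
      have h1 : (2 : ℝ) ^ i = (2 : ℝ) ^ j := congrArg (fun p => p.2.1) hij
      exact pow_right_injective₀ (by norm_num) (by norm_num) h1
  · intro ξ
    have hW0 : 0 < W e ε ξ := lt_of_lt_of_le one_pos (one_le_W e ε ξ)
    rw [← ENNReal.ofReal_inv_of_pos hW0]
    rcases point e ε he hε ξ with h1 | ⟨k, j, hjk, hmem, h1⟩
    · exact (ENNReal.ofReal_le_ofReal h1).trans le_self_add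
    · refine le_trans ?_ le_add_self
      refine le_trans ?_ (ENNReal.le_tsum k)
      have hp : (e, (2 : ℝ) ^ j, th ε k j) ∈
          (Finset.range k).image fun j => (e, (2 : ℝ) ^ j, th ε k j) :=
        Finset.mem_image.2 ⟨j, Finset.mem_range.2 hjk, rfl⟩
      refine le_trans ?_ (Finset.single_le_sum (f := fun p => (tube k p).indicator
        ((fun _ : Fin n → ℝ => ENNReal.ofReal p.2.2)) ξ) (fun _ _ => bot_le) hp)
      show _ ≤ (tube k (e, (2 : ℝ) ^ j, th ε k j)).indicator _ ξ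
      rw [Set.indicator_of_mem hmem]
      exact ENNReal.ofReal_le_ofReal h1

end Vale.Agent.P076.R2.H831V.QA
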