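import Vale.Agent.P076.R2.H831V.Spec2

/-!
# P076 : row Z2, from the anisotropic maximal estimate to the data
-/

open MeasureTheory Complex FourierTransform Filter Topology Set
open scoped ENNReal NNReal

namespace Vale.Agent.P076.R2.H831V.QF

open Vale.Agent.P076 Vale.Agent.P076.H791 Vale.Agent.P076.R2 Vale.Agent.P076.R2.H45
open Vale.Agent.P076.R2.H831 Vale.Agent.P076.R2.H831V

/-- the anisotropic weight -/
lemma measurable_aniso {n : ℕ} (e : Fin n → ℝ) (ε : ℝ) :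
    Measurable fun ξ : Fin n → ℝ => 1 + |∑ i, ξ i * e i| ^ (1 / 2 + ε) +
      nrm (ξ - (∑ i, ξ i * e i) • e) ^ (1 + ε) := by
  unfold nrm
  simp only [Pi.sub_apply, Pi.smul_apply, smul_eq_mul]
  fun_prop

lemma aniso_nonneg {n : ℕ} (e : Fin n → ℝ) (ε : ℝ) (ξ : Fin n → ℝ) :
    0 ≤ |∑ i, ξ i * e i| ^ (1 / 2 + ε) + nrm (ξ - (∑ i, ξ i * e i) • e) ^ (1 + ε) := by
  have h1 : (0 : ℝ) ≤ nrm (ξ - (∑ i, ξ i * e i) • e) := by unfold nrm; positivity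
  positivity

theorem stAniF {n : ℕ} (_hn : 1 ≤ n) (h : StAni n) : StAniF n := by
  intro e ε he hε f g hfg hI
  have hm := measurable_aniso e ε
  refine strong_of_MP _ hm.ennreal_ofReal (fun ξ => ?_) (h e ε he hε) hfg ?_
  · refine ENNReal.one_le_ofReal.2 ?_
    have := aniso_nonneg e ε ξ
    linarith
  · have h2 : Integrable fun ξ => ‖g ξ‖ ^ 2 := hfg.2.1.integrable_norm_pow (by norm_num)
    have h3 := h2.add hI
    have h4 : ∀ ξ, ENNReal.ofReal (1 + |∑ i, ξ i * e i| ^ (1 / 2 + ε) +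
        nrm (ξ - (∑ i, ξ i * e i) • e) ^ (1 + ε)) * ‖g ξ‖ₑ ^ 2 =
        ‖((fun ξ => ‖g ξ‖ ^ 2) + fun ξ => (|∑ i, ξ i * e i| ^ (1 / 2 + ε) +
          nrm (ξ - (∑ i, ξ i * e i) • e) ^ (1 + ε)) * ‖g ξ‖ ^ 2) ξ‖ₑ := by
      intro ξ
      have h5 := aniso_nonneg e ε ξ
      have h6 : ((fun ξ => ‖g ξ‖ ^ 2) + fun ξ => (|∑ i, ξ i * e i| ^ (1 / 2 + ε) +
          nrm (ξ - (∑ i, ξ i * e i) • e) ^ (1 + ε)) * ‖g ξ‖ ^ 2) ξ =
          (1 + |∑ i, ξ i * e i| ^ (1 / 2 + ε) +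
            nrm (ξ - (∑ i, ξ i * e i) • e) ^ (1 + ε)) * ‖g ξ‖ ^ 2 := by
        simp only [Pi.add_apply]
        ring
      rw [h6, enorm_mul, Real.enorm_of_nonneg (by linarith), enorm_pow, enorm_norm]
    simp_rw [h4]
    exact h3.2

end Vale.Agent.P076.R2.H831V.QF
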