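import Vale.Agent.P076.R2.H831V.Wt2
import Vale.Agent.P076.R2.H831V.Q1
import Vale.Agent.P076.R2.H831V.Q2

/-!
# P076 : the weighted theorem and anisotropic Sobolev spaces
-/

open MeasureTheory Complex Filter Topology Set
open scoped ENNReal NNReal

namespace Vale.Agent.P076.R2.H831V

open Vale.Agent.P076 Vale.Agent.P076.H791 Vale.Agent.P076.R2
open Vale.Agent.P076.R2.H831

variable {n : ℕ}

/-- **anisotropic Sobolev spaces** -/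
theorem strong_ani (hn : 1 ≤ n) : StAniF n := QF.stAniF hn (QA.stAni hn (stWt hn))

/-- **weights** -/
theorem strong_wt (hn : 1 ≤ n) {w v : (Fin n → ℝ) → ℝ≥0∞} {θ : ℝ → ℝ≥0∞} {δ : ℝ}
    {T : ℕ → Finset ((Fin n → ℝ) × ℝ × ℝ)}
    {u : ℕ → (Fin n → ℝ) × ℝ × ℝ → (Fin n → ℝ) → ℝ≥0∞} (hw : Measurable w)
    (hw1 : ∀ ξ, 1 ≤ w ξ) (hv : Measurable v) (hθ : Measurable θ)
    (hθi : ∫⁻ ρ in Set.Ioi (0 : ℝ), θ ρ < ⊤) (hδ : 0 < δ) (hvθ : IntegralLE v θ δ)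
    (hT : ThinWeights δ T u)
    (hle : ∀ ξ, (w ξ)⁻¹ ≤ v ξ + ∑' k, ∑ p ∈ T k, (tube k p).indicator (u k p) ξ)
    {f g : (Fin n → ℝ) → ℂ} (hfg : IsFourierPair f g) (hE : ∫⁻ ξ, w ξ * ‖g ξ‖ₑ ^ 2 < ⊤) :
    ConvergesStrongly f g :=
  strong_of_MP w hw hw1 (stWt hn w v θ δ T u hw hw1 hv hθ hθi hδ hvθ hT hle) hfg hE

end Vale.Agent.P076.R2.H831V
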