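import Vale.Agent.P076.R2.H831.Tub2

/-!
# P076 : spec of the local constancy argument on the paraboloid
-/

open MeasureTheory Complex FourierTransform Filter Topology Set
open scoped ENNReal NNReal

namespace Vale.Agent.P076.R2.H831V

open Vale.Agent.P076 Vale.Agent.P076.H791 Vale.Agent.P076.R2.H45 Vale.Agent.P076.R2.H831
open Vale.Agent.P076.R2.H831.V2

/-- the Gaussian on space-time -/
noncomputable def gam {n : ℕ} (c : ℝ) (v : E n) (w : ℝ) : ℝ≥0∞ :=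
  ENNReal.ofReal (Real.exp (-(c * (‖v‖ ^ 2 + w ^ 2))))

/-- the measure `V dη` on the paraboloid, smoothed at scale one -/
noncomputable def KV {n : ℕ} (c : ℝ) (V : E n → ℝ≥0∞) (ζ : E n) (μ : ℝ) : ℝ≥0∞ :=
  ∫⁻ η, V η * gam c (ζ - η) (‖η‖ ^ 2 - μ)

/-- Row P1: caps of radius `δ` have surface measure bounded below -/
def StCap (n : ℕ) : Prop := ∀ δ : ℝ, 0 < δ → ∃ κ : ℝ, 0 < κ ∧ ∀ ρ : ℝ, 1 ≤ ρ → ∀ ω : Sp n,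
  ENNReal.ofReal κ ≤ ENNReal.ofReal (ρ ^ (n - 1)) *
    sig n {ω' : Sp n | ‖ρ • (ω : E n) - ρ • (ω' : E n)‖ < δ}

/-- Row P2: local constancy -/
def StTransfer (n : ℕ) : Prop := ∀ r : ℕ, ∃ C : ℝ≥0, ∀ (V G : E n → ℝ≥0∞) (S c : ℝ≥0∞),
  Measurable V → Measurable G → TTr r G S →
  (∀ (ζ : E n) (μ : ℝ), KV Real.pi V ζ μ ≤ c * KV (Real.pi / 2) G ζ μ) →
    TTr r V (C * c * S)

/-- Row P3: domination of the smoothed measures -/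
def StDom (n : ℕ) : Prop := ∀ δ : ℝ, 0 < δ → ∃ C : ℝ≥0, ∀ (V G : E n → ℝ≥0∞) (θ : ℝ≥0∞),
  Measurable V → Measurable G → (∀ η, ‖η‖ < 1 → V η = 0) →
  (∀ ρ : ℝ, 1 ≤ ρ → ∀ ω : Sp n, ENNReal.ofReal (ρ ^ (n - 1)) *
    ∫⁻ ω' in {ω' : Sp n | ‖ρ • (ω : E n) - ρ • (ω' : E n)‖ < δ}, V (ρ • (ω' : E n)) ∂sig n ≤
      θ * G (ρ • (ω : E n))) →
    ∀ (ζ : E n) (μ : ℝ), KV Real.pi V ζ μ ≤ C * θ * KV (Real.pi / 2) G ζ μ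

/-- Row P4: the majorant of a tube near the tube -/
def StNear (n : ℕ) : Prop := ∀ k : ℕ, 3 ≤ k → ∀ p : E n × ℝ, ‖p.1‖ = 1 → p.2 ≤ 2 ^ k / 2 →
  ∀ η η₁ : E n, 2 ^ k ≤ ‖(2 * Real.pi) • η‖ → ‖(2 * Real.pi) • η‖ < 2 ^ (k + 1) →
    ‖(2 * Real.pi) • η - (inner ℝ ((2 * Real.pi) • η) p.1 : ℝ) • p.1‖ ≤ p.2 →
    ‖η₁ - η‖ ≤ 1 → Real.exp (-(70 * n)) ≤ tub2 k p η₁

end Vale.Agent.P076.R2.H831V
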