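import Vale.Agent.P076.R2.H831V.Sta

/-!
# P076 : definitions for the statement on sparse sets of frequencies, weights
-/

open MeasureTheory Filter Topology
open scoped ENNReal

namespace Vale.Agent.P076.R2

/-- The surface integral of `v` over the balls of radius `δ` around points of the sphere of radius
`ρ` is at most `θ ρ`. -/
def IntegralLE {n : ℕ} (v : (Fin n → ℝ) → ℝ≥0∞) (θ : ℝ → ℝ≥0∞) (δ : ℝ) : Prop :=
  ∀ ρ : ℝ, 0 < ρ → ∀ ω : Metric.sphere (0 : EuclideanSpace ℝ (Fin n)) 1,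
    ENNReal.ofReal (ρ ^ (n - 1)) * ∫⁻ ω' in cap ρ δ ω, v (ρ • ω'.1).ofLp ∂surf n ≤ θ ρ

/-- For `p = (e, b, θ) ∈ T k`: `|e| = 1`, `b ≤ 2 ^ (k - 1)`, `θ ≥ 0` bounds `u k p` or the surface
integrals of `u k p` on the tube over the balls of radius `δ` centred on the spheres around `0`;
moreover `∑_k √(k+1) ∑_{(e,b,θ) ∈ T k} θ max(b, 2^(k/2)) < ∞`. -/
def ThinWeights {n : ℕ} (δ : ℝ) (T : ℕ → Finset ((Fin n → ℝ) × ℝ × ℝ))
    (u : ℕ → (Fin n → ℝ) × ℝ × ℝ → (Fin n → ℝ) → ℝ≥0∞) : Prop :=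
  (∀ k, ∀ p ∈ T k, nrm p.1 = 1 ∧ p.2.1 ≤ 2 ^ k / 2 ∧ 0 ≤ p.2.2 ∧ Measurable (u k p) ∧
    ((∀ ξ, u k p ξ ≤ ENNReal.ofReal p.2.2) ∨
      IntegralLE ((tube k p).indicator (u k p)) (fun _ => ENNReal.ofReal p.2.2) δ)) ∧
    Summable fun k : ℕ => √((k : ℝ) + 1) *
      ∑ p ∈ T k, p.2.2 * max p.2.1 ((2 : ℝ) ^ ((k : ℝ) / 2))

end Vale.Agent.P076.R2
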