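import Vale.Agent.P076.R2.H831V.Fin6
import Vale.Agent.P076.R2.H831.Fin4
import Vale.Agent.P076.R2.H831V.Sta2

/-!
# P076 : spec of the weighted version
-/

open MeasureTheory Complex FourierTransform Filter Topology Set
open scoped ENNReal NNReal

namespace Vale.Agent.P076.R2.H831V

open Vale.Agent.P076 Vale.Agent.P076.H791 Vale.Agent.P076.R2 Vale.Agent.P076.R2.H45
open Vale.Agent.P076.R2.H831

/-- the weighted theorem, as a maximal estimate -/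
def StWt (n : ℕ) : Prop := ∀ (w v : (Fin n → ℝ) → ℝ≥0∞) (θ : ℝ → ℝ≥0∞) (δ : ℝ)
  (T : ℕ → Finset ((Fin n → ℝ) × ℝ × ℝ))
  (u : ℕ → (Fin n → ℝ) × ℝ × ℝ → (Fin n → ℝ) → ℝ≥0∞),
  Measurable w → (∀ ξ, 1 ≤ w ξ) → Measurable v → Measurable θ →
  ∫⁻ ρ in Set.Ioi (0 : ℝ), θ ρ < ⊤ → 0 < δ → IntegralLE v θ δ → ThinWeights δ T u →
  (∀ ξ, (w ξ)⁻¹ ≤ v ξ + ∑' k, ∑ p ∈ T k, (tube k p).indicator (u k p) ξ) →
    MP (Vale.Agent.P076.H791.wt w)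

/-- Row Z1: anisotropic Sobolev spaces -/
def StAni (n : ℕ) : Prop := ∀ (e : Fin n → ℝ) (ε : ℝ), nrm e = 1 → 0 < ε →
  MP (Vale.Agent.P076.H791.wt fun ξ : Fin n → ℝ => ENNReal.ofReal
    (1 + |∑ i, ξ i * e i| ^ (1 / 2 + ε) + nrm (ξ - (∑ i, ξ i * e i) • e) ^ (1 + ε)))

/-- Row Z2: the conclusion for the data -/
def StAniF (n : ℕ) : Prop := ∀ (e : Fin n → ℝ) (ε : ℝ), nrm e = 1 → 0 < ε →
  ∀ f g : (Fin n → ℝ) → ℂ, IsFourierPair f g →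
    Integrable (fun ξ => (|∑ i, ξ i * e i| ^ (1 / 2 + ε) +
      nrm (ξ - (∑ i, ξ i * e i) • e) ^ (1 + ε)) * ‖g ξ‖ ^ 2) → ConvergesStrongly f g

end Vale.Agent.P076.R2.H831V
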