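import Vale.Agent.P076.R2.H831V.Spec

/-!
# P076 : local constancy on the paraboloid (second copy of row P2)
-/

open MeasureTheory Complex FourierTransform Filter Topology Set
open scoped ENNReal NNReal

namespace Vale.Agent.P076.R2.H831V.H873

open Vale.Agent.P076 Vale.Agent.P076.H791 Vale.Agent.P076.R2.H45 Vale.Agent.P076.R2.H831
open Vale.Agent.P076.R2.H831V

variable {n : ℕ}

/-- the phase -/
noncomputable def ee (x : E n) (t : ℝ) (z : E n) (m : ℝ) : ℂ :=
  cexp (((2 * Real.pi * (inner ℝ x z - t * m) : ℝ) : ℂ) * I)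

lemma norm_ee (x : E n) (t : ℝ) (z : E n) (m : ℝ) : ‖ee x t z m‖ = 1 := by
  unfold ee
  exact Complex.norm_exp_ofReal_mul_I _

lemma ee_ph (x : E n) (t : ℝ) (η : E n) : ph x t 0 η = ee x t η (‖η‖ ^ 2) := by
  unfold ph ee
  congr 1
  push_cast
  ring

lemma ee_add (x : E n) (t : ℝ) (z v : E n) (m w : ℝ) :
    ee x t (z + v) (m - w) = ee x t z m * ee x t v (-w) := by
  unfold ee
  rw [← Complex.exp_add, inner_add_right]
  congr 1
  push_cast
  ring

lemma continuous_ee : Continuous fun q : (E n × ℝ) × (E n × ℝ) =>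
    ee q.1.1 q.1.2 q.2.1 q.2.2 := by
  unfold ee
  fun_prop

/-- the real Gaussian -/
noncomputable def gr (c : ℝ) (p : E n × ℝ) : ℝ := Real.exp (-(c * (‖p.1‖ ^ 2 + p.2 ^ 2)))

lemma gam_eq (c : ℝ) (p : E n × ℝ) : gam c p.1 p.2 = ENNReal.ofReal (gr c p) := rfl

lemma gr_pos (c : ℝ) (p : E n × ℝ) : 0 < gr c p := Real.exp_pos _

lemma continuous_gr (c : ℝ) : Continuous (gr (n := n) c) := by
  unfold gr
  fun_prop

lemma integrable_gr {c : ℝ} (hc : 0 < c) : Integrable (gr (n := n) c) := by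
  have h1 := (GaussianFourier.integrable_cexp_neg_mul_sq_norm_add (V := E n) (b := c)
    (by simpa using hc) 0 0).norm
  have h2 := (GaussianFourier.integrable_cexp_neg_mul_sq_norm_add (V := ℝ) (b := c)
    (by simpa using hc) 0 0).norm
  refine (h1.mul_prod h2).congr (Eventually.of_forall fun p => ?_)
  simp only [zero_mul, add_zero]
  rw [Complex.norm_exp, Complex.norm_exp, ← Real.exp_add, gr]
  congr 1
  have e1 : (-(c : ℂ) * (‖p.1‖ : ℂ) ^ 2) = ((-c * ‖p.1‖ ^ 2 : ℝ) : ℂ) := by push_cast; ring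
  have e2 : (-(c : ℂ) * (‖p.2‖ : ℂ) ^ 2) = ((-c * ‖p.2‖ ^ 2 : ℝ) : ℂ) := by push_cast; ring
  rw [e1, e2, Complex.ofReal_re, Complex.ofReal_re, Real.norm_eq_abs, sq_abs]
  ring

/-- the Gaussian is its own Fourier transform -/
lemma ft (x : E n) (t : ℝ) : ∫ p : E n × ℝ, ((gr Real.pi p : ℝ) : ℂ) * ee x t p.1 (-p.2)
    = ((Real.exp (-(Real.pi * (‖x‖ ^ 2 + t ^ 2))) : ℝ) : ℂ) := by
  have h1 := GaussianFourier.integral_cexp_neg_mul_sq_norm_add (V := E n) (b := Real.pi)
    (by simpa using Real.pi_pos) (2 * Real.pi * I) x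
  have h2 := GaussianFourier.integral_cexp_neg_mul_sq_norm_add (V := ℝ) (b := Real.pi)
    (by simpa using Real.pi_pos) (2 * Real.pi * I) t
  have hpi : (Real.pi : ℂ) ≠ 0 := by exact_mod_cast Real.pi_ne_zero
  rw [div_self hpi, Complex.one_cpow, one_mul] at h1 h2
  have h3 := integral_prod_mul (μ := (volume : Measure (E n))) (ν := (volume : Measure ℝ))
    (fun v : E n => cexp (-(Real.pi : ℂ) * (‖v‖ : ℂ) ^ 2 + 2 * Real.pi * I * (inner ℝ x v : ℝ)))
    (fun w : ℝ => cexp (-(Real.pi : ℂ) * (‖w‖ : ℂ) ^ 2 + 2 * Real.pi * I * (inner ℝ t w : ℝ)))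
  rw [h1, h2] at h3
  have h4 : ∫ p : E n × ℝ, ((gr Real.pi p : ℝ) : ℂ) * ee x t p.1 (-p.2)
      = ∫ p : E n × ℝ, cexp (-(Real.pi : ℂ) * (‖p.1‖ : ℂ) ^ 2 +
          2 * Real.pi * I * (inner ℝ x p.1 : ℝ)) *
        cexp (-(Real.pi : ℂ) * (‖p.2‖ : ℂ) ^ 2 + 2 * Real.pi * I * (inner ℝ t p.2 : ℝ)) := by
    refine integral_congr_ae (Eventually.of_forall fun p => ?_)
    simp only
    have e1 : (‖p.2‖ : ℂ) ^ 2 = ((p.2 ^ 2 : ℝ) : ℂ) := by
      rw [← Complex.ofReal_pow, Real.norm_eq_abs, sq_abs]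
    have e2 : (inner ℝ t p.2 : ℝ) = p.2 * t := by simp
    rw [gr, ee, Complex.ofReal_exp, ← Complex.exp_add, ← Complex.exp_add, e1, e2]
    congr 1
    push_cast
    ring
  rw [h4]
  have h5 : (volume : Measure (E n × ℝ)) = (volume : Measure (E n)).prod (volume : Measure ℝ) := rfl
  rw [h5, h3, ← Complex.exp_add, Complex.ofReal_exp]
  congr 1
  have e1 : (‖t‖ : ℂ) ^ 2 = ((t ^ 2 : ℝ) : ℂ) := by
    rw [← Complex.ofReal_pow, Real.norm_eq_abs, sq_abs]
  rw [e1]
  push_cast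
  rw [mul_pow, mul_pow, Complex.I_sq]
  field_simp
  ring

/-- Tonelli on the paraboloid -/
lemma tonelli {c : ℝ} {V : E n → ℝ≥0∞} (hV : Measurable V) {F : E n × ℝ → ℝ≥0∞}
    (hF : Measurable F) :
    ∫⁻ η, V η * ∫⁻ p : E n × ℝ, gam c p.1 p.2 * F (η + p.1, ‖η‖ ^ 2 - p.2)
      = ∫⁻ q : E n × ℝ, F q * KV c V q.1 q.2 := by
  have hg : Measurable fun p : E n × ℝ => gam (n := n) c p.1 p.2 :=
    ((continuous_gr c).measurable).ennreal_ofReal
  have h1 : ∀ η : E n, ∫⁻ p : E n × ℝ, gam c p.1 p.2 * F (η + p.1, ‖η‖ ^ 2 - p.2)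
      = ∫⁻ q : E n × ℝ, gam c (q.1 - η) (‖η‖ ^ 2 - q.2) * F q := by
    intro η
    set H : E n × ℝ → ℝ≥0∞ := fun q => gam c (q.1 - η) (‖η‖ ^ 2 - q.2) * F q with hH
    have hHm : Measurable H := by
      have h2 : Measurable fun q : E n × ℝ => ((q.1 - η, ‖η‖ ^ 2 - q.2) : E n × ℝ) :=
        (measurable_fst.sub_const _).prodMk (measurable_const.sub measurable_snd)
      exact (hg.comp h2).mul hF
    have h3 : ∀ p : E n × ℝ, gam c p.1 p.2 * F (η + p.1, ‖η‖ ^ 2 - p.2)
        = H (η + p.1, ‖η‖ ^ 2 - p.2) := by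
      intro p
      simp [hH]
    simp_rw [h3]
    have h4 : Measurable fun p : E n × ℝ => H (η + p.1, ‖η‖ ^ 2 - p.2) :=
      hHm.comp ((measurable_fst.const_add _).prodMk (measurable_const.sub measurable_snd))
    have h5 : (volume : Measure (E n × ℝ)) = (volume : Measure (E n)).prod (volume : Measure ℝ) :=
      rfl
    rw [h5, lintegral_prod _ h4.aemeasurable, lintegral_prod _ hHm.aemeasurable]
    have h6 : ∀ v : E n, ∫⁻ w : ℝ, H (η + v, ‖η‖ ^ 2 - w) = ∫⁻ w : ℝ, H (η + v, w) :=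
      fun v => lintegral_sub_left_eq_self (fun w => H (η + v, w)) _
    simp_rw [h6]
    exact lintegral_add_left_eq_self (fun v => ∫⁻ w : ℝ, H (v, w)) η
  simp_rw [h1]
  have hm : Measurable fun z : E n × (E n × ℝ) =>
      V z.1 * (gam c (z.2.1 - z.1) (‖z.1‖ ^ 2 - z.2.2) * F z.2) := by
    have h2 : Measurable fun z : E n × (E n × ℝ) =>
        ((z.2.1 - z.1, ‖z.1‖ ^ 2 - z.2.2) : E n × ℝ) :=
      ((measurable_fst.comp measurable_snd).sub measurable_fst).prodMk
        ((measurable_fst.norm.pow_const 2).sub (measurable_snd.comp measurable_snd))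
    exact (hV.comp measurable_fst).mul ((hg.comp h2).mul (hF.comp measurable_snd))
  have h7 : ∀ η : E n, V η * ∫⁻ q : E n × ℝ, gam c (q.1 - η) (‖η‖ ^ 2 - q.2) * F q
      = ∫⁻ q : E n × ℝ, V η * (gam c (q.1 - η) (‖η‖ ^ 2 - q.2) * F q) := by
    intro η
    rw [lintegral_const_mul]
    have h2 : Measurable fun q : E n × ℝ => ((q.1 - η, ‖η‖ ^ 2 - q.2) : E n × ℝ) :=
      (measurable_fst.sub_const _).prodMk (measurable_const.sub measurable_snd)
    exact (hg.comp h2).mul hF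
  simp_rw [h7]
  rw [lintegral_lintegral_swap hm.aemeasurable]
  refine lintegral_congr fun q => ?_
  unfold KV
  rw [← lintegral_const_mul]
  · refine lintegral_congr fun η => ?_
    ring
  · have h2 : Measurable fun η : E n => ((q.1 - η, ‖η‖ ^ 2 - q.2) : E n × ℝ) :=
      (measurable_const.sub measurable_id).prodMk
        ((measurable_norm.pow_const 2).sub measurable_const)
    have h8 := hg.comp h2
    simp only [Function.comp_def] at h8
    exact hV.mul h8

/-- the cut off amplitude -/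
noncomputable def h1 (A : Set (E n)) (s : E n → ℝ) (h : E n → ℂ) : E n → ℂ :=
  A.indicator fun x => h x * ((Real.exp (Real.pi * (‖x‖ ^ 2 + s x ^ 2)) : ℝ) : ℂ)

/-- the bound -/
noncomputable def RR (r : ℕ) : ℝ := Real.exp (Real.pi * ((r : ℝ) ^ 2 + (r : ℝ) ^ 2))

lemma RR_pos (r : ℕ) : 0 < RR r := Real.exp_pos _

variable {r : ℕ} {A : Set (E n)} {s : E n → ℝ} {h : E n → ℂ}

lemma measurable_h1 (a : Adm r A s h) : Measurable (h1 A s h) := by
  refine Measurable.indicator ?_ a.mA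
  have h2 : Measurable fun x : E n => Real.exp (Real.pi * (‖x‖ ^ 2 + s x ^ 2)) :=
    Real.measurable_exp.comp (((measurable_norm.pow_const 2).add (a.ms.pow_const 2)).const_mul _)
  exact a.mh.mul (Complex.measurable_ofReal.comp h2)

lemma norm_h1_le (a : Adm r A s h) (x : E n) : ‖h1 A s h x‖ ≤ RR r := by
  unfold h1
  by_cases hx : x ∈ A
  · rw [indicator_of_mem hx, norm_mul, Complex.norm_real, Real.norm_eq_abs, Real.abs_exp]
    have hx1 : ‖x‖ < r := by simpa using a.sub hx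
    have hx2 : ‖x‖ ^ 2 ≤ (r : ℝ) ^ 2 := by gcongr
    have hx3 : s x ^ 2 ≤ (r : ℝ) ^ 2 := sq_le_sq.2 ((a.bs x).trans (le_abs_self _))
    calc ‖h x‖ * Real.exp (Real.pi * (‖x‖ ^ 2 + s x ^ 2))
        ≤ 1 * Real.exp (Real.pi * (‖x‖ ^ 2 + s x ^ 2)) := by gcongr; exact a.bh x
      _ ≤ RR r := by rw [one_mul]; unfold RR; gcongr
  · rw [indicator_of_notMem hx, norm_zero]
    exact (RR_pos r).le

/-- the smoothed transform -/
noncomputable def NN (A : Set (E n)) (s : E n → ℝ) (h : E n → ℂ) (q : E n × ℝ) : ℂ :=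
  ∫ x in A, h1 A s h x * ee x (s x) q.1 q.2

lemma measurable_kern2 (a : Adm r A s h) : Measurable fun z : (E n × ℝ) × E n =>
    h1 A s h z.2 * ee z.2 (s z.2) z.1.1 z.1.2 := by
  have h2 : Measurable fun z : (E n × ℝ) × E n => (((z.2, s z.2), z.1) :
      (E n × ℝ) × (E n × ℝ)) :=
    (measurable_snd.prodMk (a.ms.comp measurable_snd)).prodMk measurable_fst
  have h3 := Measurable.comp continuous_ee.measurable h2
  simp only [Function.comp_def] at h3
  have h4 : Measurable fun z : (E n × ℝ) × E n => h1 A s h z.2 :=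
    (measurable_h1 a).comp measurable_snd
  exact h4.mul h3

lemma measurable_NN (a : Adm r A s h) : Measurable (NN A s h) :=
  ((measurable_kern2 a).stronglyMeasurable.integral_prod_right
    (ν := (volume : Measure (E n)).restrict A)).measurable

/-- the twisted amplitude -/
noncomputable def h3 (r : ℕ) (A : Set (E n)) (s : E n → ℝ) (h : E n → ℂ) (p : E n × ℝ) :
    E n → ℂ := fun x => (((RR r)⁻¹ : ℝ) : ℂ) * (h1 A s h x * ee x (s x) p.1 (-p.2))

lemma adm_h3 (a : Adm r A s h) (p : E n × ℝ) : Adm r A s (h3 r A s h p) where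
  mA := a.mA
  sub := a.sub
  ms := a.ms
  bs := a.bs
  mh := by
    have h2 : Measurable fun x : E n => (((x, s x), (p.1, -p.2)) : (E n × ℝ) × (E n × ℝ)) :=
      (measurable_id.prodMk a.ms).prodMk measurable_const
    have h3 := Measurable.comp continuous_ee.measurable h2
    simp only [Function.comp_def] at h3
    exact ((measurable_h1 a).mul h3).const_mul _
  bh := fun x => by
    unfold h3
    rw [norm_mul, norm_mul, norm_ee, mul_one, Complex.norm_real, Real.norm_eq_abs,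
      abs_of_pos (inv_pos.2 (RR_pos r))]
    calc (RR r)⁻¹ * ‖h1 A s h x‖ ≤ (RR r)⁻¹ * RR r := by
          gcongr
          · exact (inv_pos.2 (RR_pos r)).le
          · exact norm_h1_le a x
      _ = 1 := inv_mul_cancel₀ (RR_pos r).ne'

lemma NN_eq (p : E n × ℝ) (η : E n) :
    NN A s h (η + p.1, ‖η‖ ^ 2 - p.2) = ((RR r : ℝ) : ℂ) * Phi A s (h3 r A s h p) η := by
  unfold NN Phi h3
  rw [← integral_const_mul]
  refine integral_congr_ae (Eventually.of_forall fun x => ?_)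
  simp only
  have hR : ((RR r : ℝ) : ℂ) ≠ 0 := by exact_mod_cast (RR_pos r).ne'
  rw [ee_add, ee_ph, Complex.ofReal_inv]
  field_simp

lemma Phi_le (a : Adm r A s h) (η : E n) :
    ‖Phi A s h η‖ₑ ≤ ∫⁻ p : E n × ℝ, gam Real.pi p.1 p.2 * ‖NN A s h (η + p.1, ‖η‖ ^ 2 - p.2)‖ₑ := by
  have hfin : IsFiniteMeasure ((volume : Measure (E n)).restrict A) :=
    ⟨by rw [Measure.restrict_apply_univ]; exact a.vol⟩
  have e1 : Phi A s h η = ∫ x in A, ∫ p : E n × ℝ, ((gr Real.pi p : ℝ) : ℂ) *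
      (h1 A s h x * ee x (s x) (η + p.1) (‖η‖ ^ 2 - p.2)) := by
    unfold Phi
    refine setIntegral_congr_fun a.mA fun x hx => ?_
    have e2 : ∀ p : E n × ℝ, ((gr Real.pi p : ℝ) : ℂ) *
        (h1 A s h x * ee x (s x) (η + p.1) (‖η‖ ^ 2 - p.2))
        = (h1 A s h x * ee x (s x) η (‖η‖ ^ 2)) *
          (((gr Real.pi p : ℝ) : ℂ) * ee x (s x) p.1 (-p.2)) := by
      intro p
      rw [ee_add]
      ring
    simp_rw [e2]
    rw [integral_const_mul, ft, ee_ph, h1, indicator_of_mem hx]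
    have e3 : ((Real.exp (Real.pi * (‖x‖ ^ 2 + s x ^ 2)) : ℝ) : ℂ) *
        ((Real.exp (-(Real.pi * (‖x‖ ^ 2 + s x ^ 2))) : ℝ) : ℂ) = 1 := by
      rw [← Complex.ofReal_mul, ← Real.exp_add, add_neg_cancel, Real.exp_zero, Complex.ofReal_one]
    linear_combination (-(h x * ee x (s x) η (‖η‖ ^ 2))) * e3
  have hint : Integrable (Function.uncurry fun (x : E n) (p : E n × ℝ) =>
      ((gr Real.pi p : ℝ) : ℂ) * (h1 A s h x * ee x (s x) (η + p.1) (‖η‖ ^ 2 - p.2)))
      (((volume : Measure (E n)).restrict A).prod volume) := by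
    have h2 : Integrable (fun z : E n × (E n × ℝ) => RR r * gr Real.pi z.2)
        (((volume : Measure (E n)).restrict A).prod volume) :=
      (integrable_const (RR r)).mul_prod (integrable_gr Real.pi_pos)
    refine h2.mono' ?_ (Eventually.of_forall fun z => ?_)
    · have h4 : Measurable fun z : E n × (E n × ℝ) =>
          ((((η + z.2.1, ‖η‖ ^ 2 - z.2.2) : E n × ℝ), z.1) : (E n × ℝ) × E n) :=
        (((measurable_fst.comp measurable_snd).const_add _).prodMk
          (measurable_const.sub (measurable_snd.comp measurable_snd))).prodMk measurable_fst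
      have h5 : Measurable fun z : E n × (E n × ℝ) => ((gr Real.pi z.2 : ℝ) : ℂ) :=
        Complex.measurable_ofReal.comp ((continuous_gr _).measurable.comp measurable_snd)
      have h6 := Measurable.comp (measurable_kern2 a) h4
      simp only [Function.comp_def] at h6
      exact (h5.mul h6).aestronglyMeasurable
    · rw [Function.uncurry, norm_mul, norm_mul, norm_ee, mul_one, Complex.norm_real,
        Real.norm_eq_abs, abs_of_pos (gr_pos _ _), mul_comm]
      gcongr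
      · exact (gr_pos _ _).le
      · exact norm_h1_le a _
  rw [e1, integral_integral_swap hint]
  refine (enorm_integral_le_lintegral_enorm _).trans (lintegral_mono fun p => ?_)
  rw [integral_const_mul, enorm_mul]
  have e4 : ‖((gr Real.pi p : ℝ) : ℂ)‖ₑ = gam Real.pi p.1 p.2 := by
    rw [gam_eq, ← ofReal_norm, Complex.norm_real, Real.norm_eq_abs, abs_of_pos (gr_pos _ _)]
  rw [e4]
  rfl

lemma measurable_gam (c : ℝ) : Measurable fun p : E n × ℝ => gam (n := n) c p.1 p.2 :=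
  ((continuous_gr c).measurable).ennreal_ofReal

lemma measurable_KV {c : ℝ} {V : E n → ℝ≥0∞} (hV : Measurable V) :
    Measurable fun q : E n × ℝ => KV c V q.1 q.2 := by
  have h2 : Measurable fun z : (E n × ℝ) × E n =>
      ((z.1.1 - z.2, ‖z.2‖ ^ 2 - z.1.2) : E n × ℝ) :=
    ((measurable_fst.comp measurable_fst).sub measurable_snd).prodMk
      ((measurable_snd.norm.pow_const 2).sub (measurable_snd.comp measurable_fst))
  have h3 := Measurable.comp (measurable_gam (n := n) c) h2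
  simp only [Function.comp_def] at h3
  have h4 : Measurable fun z : (E n × ℝ) × E n => V z.2 := hV.comp measurable_snd
  exact (h4.mul h3).lintegral_prod_right'

lemma mass_lt {c : ℝ} (hc : 0 < c) : ∫⁻ p : E n × ℝ, gam c p.1 p.2 < ⊤ :=
  (integrable_gr hc).lintegral_lt_top

lemma Phi_sq_le (a : Adm r A s h) (η : E n) :
    ‖Phi A s h η‖ₑ ^ 2 ≤ (∫⁻ p : E n × ℝ, gam Real.pi p.1 p.2) *
      ∫⁻ p : E n × ℝ, gam Real.pi p.1 p.2 * ‖NN A s h (η + p.1, ‖η‖ ^ 2 - p.2)‖ₑ ^ 2 := by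
  have h0 : ∀ p : E n × ℝ, gam Real.pi p.1 p.2 ≠ 0 := fun p => by
    rw [gam_eq]
    simpa using gr_pos Real.pi p
  have ht : ∀ p : E n × ℝ, gam Real.pi p.1 p.2 ≠ ⊤ := fun p => by
    rw [gam_eq]
    exact ENNReal.ofReal_ne_top
  have h2 : Measurable fun p : E n × ℝ => ((η + p.1, ‖η‖ ^ 2 - p.2) : E n × ℝ) :=
    (measurable_fst.const_add _).prodMk (measurable_const.sub measurable_snd)
  have h3 := Measurable.comp (measurable_NN a) h2
  simp only [Function.comp_def] at h3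
  have h4 := cs_weight (μ := (volume : Measure (E n × ℝ)))
    (f := fun p => gam Real.pi p.1 p.2 * ‖NN A s h (η + p.1, ‖η‖ ^ 2 - p.2)‖ₑ)
    (u := fun p => (gam Real.pi p.1 p.2)⁻¹)
    ((measurable_gam _).mul h3.enorm).aemeasurable (measurable_gam _).inv.aemeasurable
    (Eventually.of_forall fun p => ENNReal.inv_ne_zero.2 (ht p))
    (Eventually.of_forall fun p hp => absurd (ENNReal.inv_eq_top.1 hp) (h0 p))
  refine (pow_le_pow_left' (Phi_le a η) 2).trans (h4.trans (le_of_eq ?_))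
  congr 1
  · exact lintegral_congr fun p => inv_inv _
  · refine lintegral_congr fun p => ?_
    rw [mul_pow, pow_two (gam Real.pi p.1 p.2), ← mul_assoc, ← mul_assoc,
      ENNReal.inv_mul_cancel (h0 p) (ht p), one_mul]

/-- Row P2 -/
theorem stTransfer : StTransfer n := by
  intro r
  set M1 : ℝ≥0∞ := ∫⁻ p : E n × ℝ, gam Real.pi p.1 p.2 with hM1
  set M2 : ℝ≥0∞ := ∫⁻ p : E n × ℝ, gam (Real.pi / 2) p.1 p.2 with hM2
  set R : ℝ≥0∞ := ENNReal.ofReal (RR r) with hR
  have hM1t : M1 ≠ ⊤ := (mass_lt Real.pi_pos).ne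
  have hM2t : M2 ≠ ⊤ := (mass_lt (by positivity)).ne
  have hRt : R ≠ ⊤ := ENNReal.ofReal_ne_top
  refine ⟨(M1 * M2 * R ^ 2).toNNReal, fun V G S c hV hG hT hK A s h a => ?_⟩
  rw [ENNReal.coe_toNNReal (ENNReal.mul_ne_top (ENNReal.mul_ne_top hM1t hM2t)
    (ENNReal.pow_ne_top hRt))]
  set F : E n × ℝ → ℝ≥0∞ := fun q => ‖NN A s h q‖ₑ ^ 2 with hF
  have hFm : Measurable F := (measurable_NN a).enorm.pow_const 2
  -- step 5
  have s5 : ∀ p : E n × ℝ, ∫⁻ η, G η * F (η + p.1, ‖η‖ ^ 2 - p.2) ≤ R ^ 2 * (S * volume A) := by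
    intro p
    have e1 : ∀ η, G η * F (η + p.1, ‖η‖ ^ 2 - p.2)
        = R ^ 2 * (G η * ‖Phi A s (h3 r A s h p) η‖ₑ ^ 2) := by
      intro η
      rw [hF]
      simp only
      rw [NN_eq (r := r), enorm_mul, mul_pow]
      have e2 : ‖((RR r : ℝ) : ℂ)‖ₑ = R := by
        rw [hR, ← ofReal_norm, Complex.norm_real, Real.norm_eq_abs, abs_of_pos (RR_pos r)]
      rw [e2]
      ring
    simp_rw [e1]
    have b := adm_h3 a p
    have hm3 : Measurable fun η => G η * ‖Phi A s (h3 r A s h p) η‖ₑ ^ 2 :=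
      hG.mul ((measurable_Phi b.ms b.mh).enorm.pow_const 2)
    rw [lintegral_const_mul _ hm3]
    gcongr
    exact hT A s _ b
  have hm : Measurable fun z : E n × (E n × ℝ) =>
      G z.1 * (gam (Real.pi / 2) z.2.1 z.2.2 * F (z.1 + z.2.1, ‖z.1‖ ^ 2 - z.2.2)) := by
    have h2 : Measurable fun z : E n × (E n × ℝ) =>
        ((z.1 + z.2.1, ‖z.1‖ ^ 2 - z.2.2) : E n × ℝ) :=
      (measurable_fst.add (measurable_fst.comp measurable_snd)).prodMk
        ((measurable_fst.norm.pow_const 2).sub (measurable_snd.comp measurable_snd))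
    have h3 := Measurable.comp hFm h2
    simp only [Function.comp_def] at h3
    have h4 := Measurable.comp (measurable_gam (n := n) (Real.pi / 2))
      (measurable_snd : Measurable (Prod.snd : E n × (E n × ℝ) → E n × ℝ))
    simp only [Function.comp_def] at h4
    have h5 : Measurable fun z : E n × (E n × ℝ) => G z.1 := hG.comp measurable_fst
    exact h5.mul (h4.mul h3)
  have hin : ∀ (c' : ℝ) (η : E n), Measurable fun p : E n × ℝ =>
      gam c' p.1 p.2 * F (η + p.1, ‖η‖ ^ 2 - p.2) := by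
    intro c' η
    have h2 : Measurable fun p : E n × ℝ => ((η + p.1, ‖η‖ ^ 2 - p.2) : E n × ℝ) :=
      (measurable_fst.const_add _).prodMk (measurable_const.sub measurable_snd)
    have h3 := Measurable.comp hFm h2
    simp only [Function.comp_def] at h3
    exact (measurable_gam c').mul h3
  -- step 4
  have s4 : ∫⁻ η, G η * ∫⁻ p : E n × ℝ, gam (Real.pi / 2) p.1 p.2 *
      F (η + p.1, ‖η‖ ^ 2 - p.2) ≤ M2 * (R ^ 2 * (S * volume A)) := by
    have e1 : ∀ η, G η * ∫⁻ p : E n × ℝ, gam (Real.pi / 2) p.1 p.2 *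
        F (η + p.1, ‖η‖ ^ 2 - p.2) = ∫⁻ p : E n × ℝ, G η * (gam (Real.pi / 2) p.1 p.2 *
        F (η + p.1, ‖η‖ ^ 2 - p.2)) := fun η => (lintegral_const_mul _ (hin _ η)).symm
    simp_rw [e1]
    rw [lintegral_lintegral_swap hm.aemeasurable, hM2,
      ← lintegral_mul_const _ (measurable_gam _)]
    refine lintegral_mono fun p => ?_
    have e2 : ∀ η, G η * (gam (Real.pi / 2) p.1 p.2 * F (η + p.1, ‖η‖ ^ 2 - p.2))
        = gam (Real.pi / 2) p.1 p.2 * (G η * F (η + p.1, ‖η‖ ^ 2 - p.2)) := fun η => by ring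
    simp_rw [e2]
    have h6 : Measurable fun η : E n => G η * F (η + p.1, ‖η‖ ^ 2 - p.2) := by
      have h2 : Measurable fun η : E n => ((η + p.1, ‖η‖ ^ 2 - p.2) : E n × ℝ) :=
        (measurable_id.add_const _).prodMk ((measurable_norm.pow_const 2).sub measurable_const)
      have h3 := Measurable.comp hFm h2
      simp only [Function.comp_def] at h3
      exact hG.mul h3
    rw [lintegral_const_mul _ h6]
    gcongr
    exact s5 p
  -- steps 1 - 3
  calc ∫⁻ η, V η * ‖Phi A s h η‖ₑ ^ 2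
      ≤ ∫⁻ η, M1 * (V η * ∫⁻ p : E n × ℝ, gam Real.pi p.1 p.2 *
          F (η + p.1, ‖η‖ ^ 2 - p.2)) := by
        refine lintegral_mono fun η => ?_
        have h2 := mul_le_mul_right (Phi_sq_le a η) (V η)
        refine h2.trans (le_of_eq ?_)
        ring
    _ = M1 * ∫⁻ η, V η * ∫⁻ p : E n × ℝ, gam Real.pi p.1 p.2 *
          F (η + p.1, ‖η‖ ^ 2 - p.2) := lintegral_const_mul' _ _ hM1t
    _ = M1 * ∫⁻ q : E n × ℝ, F q * KV Real.pi V q.1 q.2 := by rw [tonelli hV hFm]
    _ ≤ M1 * ∫⁻ q : E n × ℝ, c * (F q * KV (Real.pi / 2) G q.1 q.2) := by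
        refine mul_le_mul_right (lintegral_mono fun q => ?_) _
        calc F q * KV Real.pi V q.1 q.2 ≤ F q * (c * KV (Real.pi / 2) G q.1 q.2) := by
              gcongr
              exact hK q.1 q.2
          _ = c * (F q * KV (Real.pi / 2) G q.1 q.2) := by ring
    _ = M1 * (c * ∫⁻ q : E n × ℝ, F q * KV (Real.pi / 2) G q.1 q.2) := by
        have hm4 : Measurable fun q : E n × ℝ => F q * KV (Real.pi / 2) G q.1 q.2 :=
          hFm.mul (measurable_KV hG)
        rw [lintegral_const_mul _ hm4]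
    _ = M1 * (c * ∫⁻ η, G η * ∫⁻ p : E n × ℝ, gam (Real.pi / 2) p.1 p.2 *
          F (η + p.1, ‖η‖ ^ 2 - p.2)) := by rw [tonelli hG hFm]
    _ ≤ M1 * (c * (M2 * (R ^ 2 * (S * volume A)))) := by gcongr
    _ = M1 * M2 * R ^ 2 * c * S * volume A := by ring

end Vale.Agent.P076.R2.H831V.H873
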