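import Vale.Agent.P076.R2.H831V.Spec

/-!
# P076 : tubes with a local density
-/

open MeasureTheory Complex FourierTransform Filter Topology Set
open scoped ENNReal NNReal

namespace Vale.Agent.P076.R2.H831V

open Vale.Agent.P076 Vale.Agent.P076.H791 Vale.Agent.P076.R2.H45 Vale.Agent.P076.R2.H831
open Vale.Agent.P076.R2.H831.V2

variable {n : ℕ}

/-- the part of `Ω` in the tube `p` and in the shell `k` -/
def pieceX (Ω : Set (E n)) (k : ℕ) (p : E n × ℝ × ℝ) : Set (E n) :=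
  {ξ | ξ ∈ Ω ∧ 2 ^ k ≤ ‖ξ‖ ∧ ‖ξ‖ < 2 ^ (k + 1) ∧ ‖ξ - (inner ℝ ξ p.1 : ℝ) • p.1‖ ≤ p.2.1}

/-- the same in the variable `η = ξ / 2π` -/
def pieceE (Ω : Set (E n)) (k : ℕ) (p : E n × ℝ × ℝ) : Set (E n) :=
  {η | (2 * Real.pi) • η ∈ pieceX Ω k p}

lemma measurableSet_pieceX {Ω : Set (E n)} (hΩ : MeasurableSet Ω) (k : ℕ) (p : E n × ℝ × ℝ) :
    MeasurableSet (pieceX Ω k p) := by
  have h1 : Continuous fun ξ : E n => ‖ξ - (inner ℝ ξ p.1 : ℝ) • p.1‖ := by fun_prop
  have m1 : MeasurableSet {ξ : E n | ‖ξ - (inner ℝ ξ p.1 : ℝ) • p.1‖ ≤ p.2.1} :=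
    measurableSet_le h1.measurable measurable_const
  have m2 : MeasurableSet {ξ : E n | 2 ^ k ≤ ‖ξ‖} := measurableSet_le measurable_const measurable_norm
  have m3 : MeasurableSet {ξ : E n | ‖ξ‖ < 2 ^ (k + 1)} :=
    measurableSet_lt measurable_norm measurable_const
  exact hΩ.inter (m2.inter (m3.inter m1))

lemma measurableSet_pieceE {Ω : Set (E n)} (hΩ : MeasurableSet Ω) (k : ℕ) (p : E n × ℝ × ℝ) :
    MeasurableSet (pieceE Ω k p) :=
  (measurable_id.const_smul (2 * Real.pi)) (measurableSet_pieceX hΩ k p)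

/-- the density hypothesis on a tube -/
def DenX (Ω : Set (E n)) (k : ℕ) (p : E n × ℝ × ℝ) (δ : ℝ) : Prop :=
  ∀ ρ : ℝ, 0 < ρ → ∀ ω : Sp n, ENNReal.ofReal (ρ ^ (n - 1)) *
    sig n {ω' : Sp n | ‖ρ • (ω : E n) - ρ • (ω' : E n)‖ < δ ∧ ρ • (ω' : E n) ∈ pieceX Ω k p} ≤
      ENNReal.ofReal p.2.2

/-- the TT* bound for one piece -/
theorem TTr_piece (hn : 1 ≤ n) (hTr : StTransfer n) (hDo : StDom n) (hNe : StNear n) {δ : ℝ}
    (hδ : 0 < δ) (r : ℕ) : ∃ K0 : ℝ≥0, ∀ Ω : Set (E n), MeasurableSet Ω → ∀ k : ℕ, 3 ≤ k →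
      ∀ p : E n × ℝ × ℝ, ‖p.1‖ = 1 → p.2.1 ≤ 2 ^ k / 2 → 0 ≤ p.2.2 →
      (p.2.2 = 1 ∨ DenX Ω k p δ) →
      TTr r ((pieceE Ω k p).indicator fun _ => (1 : ℝ≥0∞))
        (K0 * ENNReal.ofReal (√((k : ℝ) + 1) * (p.2.2 * max p.2.1 ((2 : ℝ) ^ ((k : ℝ) / 2))))) := by
  classical
  have hn1 : (1 : ℝ) ≤ n := by exact_mod_cast hn
  have hpi := Real.pi_pos
  have hpi3 := Real.pi_gt_three
  have hpi4 := Real.pi_lt_d2
  obtain ⟨C, hC, h⟩ := TTr_gg2 hn r (K := 8 * n) (C0 := 1) zero_le_one (by linarith)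
  obtain ⟨Ct, hCt⟩ := hTr r
  set δ' : ℝ := min (δ / (2 * Real.pi)) 1 with hδ'
  have hδ'0 : 0 < δ' := lt_min (by positivity) one_pos
  obtain ⟨Cd, hCd⟩ := hDo δ' hδ'0
  set c1 : ℝ≥0 := Real.toNNReal (3 * √(6 * n) * (2 * C)) with hc1
  set e5 : ℝ≥0 := Real.toNNReal (Real.exp 5) with he5
  set e70 : ℝ≥0 := Real.toNNReal (Real.exp (70 * n)) with he70
  refine ⟨e5 * c1 + Ct * (Cd * e70) * c1, fun Ω hΩ k hk p hp hp2 hp0 hden => ?_⟩
  set σ : ℝ := max p.2.1 ((2 : ℝ) ^ ((k : ℝ) / 2)) with hσ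
  have hσ0 : 0 ≤ σ := le_max_of_le_right (by positivity)
  set V : E n → ℝ≥0∞ := (pieceE Ω k p).indicator fun _ => (1 : ℝ≥0∞) with hV
  have hVm : Measurable V := measurable_const.indicator (measurableSet_pieceE hΩ k p)
  -- the majorant
  have htt := TR_tub2 hn hC h hk (p := (p.1, p.2.1)) hp hp2
  have hJ := JJ_le2 (n := n) hn hk
  have hS : ENNReal.ofReal (∑ _j ∈ Finset.range (JJ2 n k), (C * σ + C * σ)) ≤
      c1 * ENNReal.ofReal (√((k : ℝ) + 1) * σ) := by
    rw [hc1, ← ENNReal.ofReal, ← ENNReal.ofReal_mul (by positivity)]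
    refine ENNReal.ofReal_le_ofReal ?_
    simp only [Finset.sum_const, Finset.card_range, nsmul_eq_mul]
    calc (JJ2 n k : ℝ) * (C * σ + C * σ)
        ≤ (3 * (√(6 * n) * √((k : ℝ) + 1))) * (C * σ + C * σ) := by gcongr
      _ = _ := by ring
  have hG : TTr r (fun η => ENNReal.ofReal (tub2 k (p.1, p.2.1) η))
      (c1 * ENNReal.ofReal (√((k : ℝ) + 1) * σ)) := htt.tt.mono (fun _ => le_rfl) hS
  have hGm : Measurable fun η => ENNReal.ofReal (tub2 k (p.1, p.2.1) η) :=
    ENNReal.measurable_ofReal.comp htt.m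
  rcases hden with hone | hden
  · -- no density
    have h1 := TTr.const_mul hGm hG (e5 : ℝ≥0∞)
    refine h1.mono (fun η => ?_) ?_
    · by_cases hη : η ∈ pieceE Ω k p
      · rw [hV, Set.indicator_of_mem hη]
        obtain ⟨-, h2, h3, h4⟩ := hη
        have h5 := tub_ge2 (n := n) hk (p := (p.1, p.2.1)) hp hp2 h2 h3 h4
        rw [he5, ← ENNReal.ofReal, ← ENNReal.ofReal_mul (Real.exp_pos _).le, ← ENNReal.ofReal_one]
        refine ENNReal.ofReal_le_ofReal ?_
        have h8 : Real.exp 5 * Real.exp (-5) = 1 := by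
          rw [← Real.exp_add]; simp
        rw [← h8]
        gcongr
      · rw [hV, Set.indicator_of_notMem hη]
        exact zero_le
    · rw [hone, one_mul, ← mul_assoc]
      gcongr
      push_cast
      exact le_self_add
  · -- density
    set θ' : ℝ≥0∞ := ENNReal.ofReal p.2.2 * e70 with hθ'
    have hdom := hCd V (fun η => ENNReal.ofReal (tub2 k (p.1, p.2.1) η)) θ' hVm hGm ?_ ?_
    · have h1 := hCt V (fun η => ENNReal.ofReal (tub2 k (p.1, p.2.1) η)) _ (Cd * θ') hVm hGm hG hdom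
      refine h1.mono (fun _ => le_rfl) ?_
      have e1 : ENNReal.ofReal (√((k : ℝ) + 1) * (p.2.2 * σ)) =
          ENNReal.ofReal p.2.2 * ENNReal.ofReal (√((k : ℝ) + 1) * σ) := by
        rw [← ENNReal.ofReal_mul hp0]
        congr 1
        ring
      rw [e1, hθ']
      push_cast
      calc (Ct : ℝ≥0∞) * (Cd * (ENNReal.ofReal p.2.2 * e70)) *
            (c1 * ENNReal.ofReal (√((k : ℝ) + 1) * σ))
          = (Ct * (Cd * e70) * c1) * (ENNReal.ofReal p.2.2 *
            ENNReal.ofReal (√((k : ℝ) + 1) * σ)) := by ring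
        _ ≤ _ := by
            gcongr
            exact le_add_self
    · intro η hη
      rw [hV]
      refine Set.indicator_of_notMem (fun hm => ?_) _
      obtain ⟨-, h2, -, -⟩ := hm
      rw [norm_smul, Real.norm_eq_abs, abs_of_pos (by positivity)] at h2
      have h3 : (8 : ℝ) ≤ 2 ^ k := by
        calc (8 : ℝ) = 2 ^ 3 := by norm_num
          _ ≤ 2 ^ k := pow_le_pow_right₀ (by norm_num) hk
      have h4 : 2 * Real.pi * ‖η‖ ≤ 2 * Real.pi * 1 := by gcongr
      linarith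
    · intro ρ hρ ω
      have hρ0 : 0 < ρ := by linarith
      set A : Set (Sp n) := {ω' : Sp n | ‖ρ • (ω : E n) - ρ • (ω' : E n)‖ < δ'} with hA
      have hAm : MeasurableSet A := by
        refine (isOpen_lt ?_ continuous_const).measurableSet
        fun_prop
      have e1 : ∫⁻ ω' in A, V (ρ • (ω' : E n)) ∂sig n =
          sig n {ω' : Sp n | ω' ∈ A ∧ ρ • (ω' : E n) ∈ pieceE Ω k p} := by
        have hm : MeasurableSet {ω' : Sp n | ρ • (ω' : E n) ∈ pieceE Ω k p} := by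
          have c2 : Continuous fun ω : Sp n => (ρ • ω.1 : E n) := by fun_prop
          exact c2.measurable (measurableSet_pieceE hΩ k p)
        have e2 : ∀ ω' : Sp n, V (ρ • (ω' : E n)) =
            ({ω' : Sp n | ρ • (ω' : E n) ∈ pieceE Ω k p}).indicator (fun _ => (1 : ℝ≥0∞)) ω' := by
          intro ω'
          by_cases hm' : ρ • (ω' : E n) ∈ pieceE Ω k p
          · rw [hV, Set.indicator_of_mem hm', Set.indicator_of_mem (by exact hm')]
          · rw [hV, Set.indicator_of_notMem hm', Set.indicator_of_notMem (by exact hm')]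
        simp_rw [e2]
        rw [lintegral_indicator hm]
        simp only [lintegral_const, one_mul, Measure.restrict_apply_univ]
        rw [Measure.restrict_apply hm, Set.inter_comm]
        rfl
      rw [e1]
      rcases Set.eq_empty_or_nonempty {ω' : Sp n | ω' ∈ A ∧ ρ • (ω' : E n) ∈ pieceE Ω k p} with
        h0 | ⟨ω₀, h01, h02⟩
      · rw [h0, measure_empty, mul_zero]
        exact zero_le
      · -- the majorant is bounded below
        have h03 := h02
        obtain ⟨-, h2, h3, h4⟩ := h03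
        have h5 : ‖ρ • (ω : E n) - ρ • (ω₀ : E n)‖ ≤ 1 := by
          have h6 : ‖ρ • (ω : E n) - ρ • (ω₀ : E n)‖ < δ' := h01
          exact h6.le.trans (min_le_right _ _)
        have h6 := hNe k hk (p.1, p.2.1) hp hp2 (ρ • (ω₀ : E n)) (ρ • (ω : E n)) h2 h3 h4 h5
        have h7 : (1 : ℝ≥0∞) ≤ e70 * ENNReal.ofReal (tub2 k (p.1, p.2.1) (ρ • (ω : E n))) := by
          rw [he70, ← ENNReal.ofReal, ← ENNReal.ofReal_mul (Real.exp_pos _).le,
            ← ENNReal.ofReal_one]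
          refine ENNReal.ofReal_le_ofReal ?_
          have h8 : Real.exp (70 * n) * Real.exp (-(70 * n)) = 1 := by
            rw [← Real.exp_add]; simp
          rw [← h8]
          gcongr
        -- the density
        have h9 := hden (2 * Real.pi * ρ) (by positivity) ω
        have h10 : {ω' : Sp n | ω' ∈ A ∧ ρ • (ω' : E n) ∈ pieceE Ω k p} ⊆
            {ω' : Sp n | ‖(2 * Real.pi * ρ) • (ω : E n) - (2 * Real.pi * ρ) • (ω' : E n)‖ < δ ∧
              (2 * Real.pi * ρ) • (ω' : E n) ∈ pieceX Ω k p} := by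
          rintro ω' ⟨h11, h12⟩
          constructor
          · have h13 : ‖ρ • (ω : E n) - ρ • (ω' : E n)‖ < δ' := h11
            have h14 : δ' ≤ δ / (2 * Real.pi) := min_le_left _ _
            have e3 : (2 * Real.pi * ρ) • (ω : E n) - (2 * Real.pi * ρ) • (ω' : E n) =
                (2 * Real.pi) • (ρ • (ω : E n) - ρ • (ω' : E n)) := by
              rw [smul_sub, smul_smul, smul_smul]
            rw [e3, norm_smul, Real.norm_eq_abs, abs_of_pos (by positivity)]
            calc 2 * Real.pi * ‖ρ • (ω : E n) - ρ • (ω' : E n)‖ < 2 * Real.pi * (δ / (2 * Real.pi)) := by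
                  gcongr
                  linarith
              _ = δ := by field_simp
          · rw [mul_smul]
            exact h12
        have h15 : ENNReal.ofReal (ρ ^ (n - 1)) ≤ ENNReal.ofReal ((2 * Real.pi * ρ) ^ (n - 1)) := by
          refine ENNReal.ofReal_le_ofReal ?_
          gcongr
          nlinarith
        calc ENNReal.ofReal (ρ ^ (n - 1)) *
              sig n {ω' : Sp n | ω' ∈ A ∧ ρ • (ω' : E n) ∈ pieceE Ω k p}
            ≤ ENNReal.ofReal ((2 * Real.pi * ρ) ^ (n - 1)) * sig n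
              {ω' : Sp n | ‖(2 * Real.pi * ρ) • (ω : E n) - (2 * Real.pi * ρ) • (ω' : E n)‖ < δ ∧
              (2 * Real.pi * ρ) • (ω' : E n) ∈ pieceX Ω k p} := by
              gcongr
          _ ≤ ENNReal.ofReal p.2.2 * 1 := by rw [mul_one]; exact h9
          _ ≤ ENNReal.ofReal p.2.2 * (e70 *
              ENNReal.ofReal (tub2 k (p.1, p.2.1) (ρ • (ω : E n)))) := by gcongr
          _ = _ := by rw [hθ', mul_assoc]

/-- the majorant of a shell -/
noncomputable def shV (s : ℝ) (Ω : Set (E n)) (T : ℕ → Finset (E n × ℝ × ℝ)) (k : ℕ) (η : E n) :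
    ℝ≥0∞ :=
  if 3 ≤ k then ENNReal.ofReal ((2 : ℝ) ^ (-(2 * s * k))) *
    ∑ p ∈ T k, (pieceE Ω k p).indicator (fun _ => (1 : ℝ≥0∞)) η else 0

/-- the summands of the hypothesis -/
noncomputable def ak3 (s : ℝ) (T : ℕ → Finset (E n × ℝ × ℝ)) (k : ℕ) : ℝ :=
  √((k : ℝ) + 1) * (2 : ℝ) ^ (-(2 * s * k)) *
    ∑ p ∈ T k, p.2.2 * max p.2.1 ((2 : ℝ) ^ ((k : ℝ) / 2))

/-- **MP for few tubes with a local density** -/
theorem MP_tubes3 (hn : 1 ≤ n) (hTr : StTransfer n) (hDo : StDom n) (hNe : StNear n) {s : ℝ}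
    (hs : 0 ≤ s) {Ω : Set (E n)} (hΩ : MeasurableSet Ω) (T : ℕ → Finset (E n × ℝ × ℝ)) {δ : ℝ}
    (hδ : 0 < δ) (hT : ∀ k, ∀ p ∈ T k, ‖p.1‖ = 1 ∧ p.2.1 ≤ 2 ^ k / 2 ∧ 0 ≤ p.2.2 ∧
      (p.2.2 = 1 ∨ DenX Ω k p δ))
    (hN : Summable (ak3 s T)) {w : E n → ℝ≥0∞} (hw : Measurable w) (hw1 : ∀ η, 1 ≤ w η)
    (hw2 : ∀ η, w η ≠ ⊤ → ENNReal.ofReal ((1 + ‖(2 * Real.pi) • η‖ ^ 2) ^ s) ≤ w η ∧
      ∃ k, ∃ p ∈ T k, η ∈ pieceE Ω k p) :
    MP w := by
  classical
  refine MP_of_TT hw hw1 fun r => ?_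
  obtain ⟨K0, hK0⟩ := TTr_piece hn hTr hDo hNe hδ r
  have ak0 : ∀ k, 0 ≤ ak3 s T k := fun k => by
    unfold ak3
    refine mul_nonneg (by positivity) (Finset.sum_nonneg fun p hp => ?_)
    exact mul_nonneg (hT k p hp).2.2.1 (le_max_of_le_right (by positivity))
  have hpm : ∀ k p, Measurable ((pieceE Ω k p).indicator fun _ => (1 : ℝ≥0∞)) := fun k p =>
    measurable_const.indicator (measurableSet_pieceE hΩ k p)
  have hsm : ∀ k, Measurable (shV s Ω T k) := by
    intro k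
    by_cases hk : 3 ≤ k
    · have e : shV s Ω T k = fun η => ENNReal.ofReal ((2 : ℝ) ^ (-(2 * s * k))) *
          ∑ p ∈ T k, (pieceE Ω k p).indicator (fun _ => (1 : ℝ≥0∞)) η := by
        funext η
        simp only [shV, hk, if_true]
      rw [e]
      exact (Finset.measurable_sum _ fun p _ => hpm k p).const_mul _
    · have e : shV s Ω T k = fun _ => 0 := by
        funext η
        simp only [shV, hk, if_false]
      rw [e]
      exact measurable_const
  have hsh : ∀ k, TTr r (shV s Ω T k) (K0 * ENNReal.ofReal (ak3 s T k)) := by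
    intro k
    by_cases hk : 3 ≤ k
    · -- a sum over the tubes
      have hsum : ∀ t : Finset (E n × ℝ × ℝ), t ⊆ T k →
          TTr r (fun η => ∑ p ∈ t, (pieceE Ω k p).indicator (fun _ => (1 : ℝ≥0∞)) η)
            (∑ p ∈ t, K0 * ENNReal.ofReal (√((k : ℝ) + 1) *
              (p.2.2 * max p.2.1 ((2 : ℝ) ^ ((k : ℝ) / 2))))) := by
        intro t
        induction t using Finset.induction_on with
        | empty => intro _ A u g a; simp
        | insert q t hq ih =>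
          intro hsub
          have hqT : q ∈ T k := hsub (Finset.mem_insert_self q t)
          have h1 := ih fun x hx => hsub (Finset.mem_insert_of_mem hx)
          obtain ⟨h2, h3, h4, h5⟩ := hT k q hqT
          have h6 := hK0 Ω hΩ k hk q h2 h3 h4 h5
          simp_rw [Finset.sum_insert hq]
          exact h6.add (hpm k q) h1
      have h7 := TTr.const_mul (Finset.measurable_sum _ fun p _ => hpm k p)
        (hsum (T k) subset_rfl) (ENNReal.ofReal ((2 : ℝ) ^ (-(2 * s * k))))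
      refine h7.mono (fun η => le_of_eq ?_) (le_of_eq ?_)
      · simp only [shV, hk, if_true]
      · rw [← Finset.mul_sum, ← ENNReal.ofReal_sum_of_nonneg, ← mul_assoc,
          mul_comm (ENNReal.ofReal _) (K0 : ℝ≥0∞), mul_assoc, ← ENNReal.ofReal_mul (by positivity)]
        · congr 2
          rw [ak3, ← Finset.mul_sum]
          ring
        · intro p hp
          refine mul_nonneg (by positivity) (mul_nonneg (hT k p hp).2.2.1 ?_)
          exact le_max_of_le_right (by positivity)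
    · have e : shV s Ω T k = fun _ => 0 := by
        funext η
        simp only [shV, hk, if_false]
      rw [e]
      intro A u g a
      simp
  have hlow : Measurable ((Metric.ball (0 : E n) 2).indicator fun _ => (1 : ℝ≥0∞)) :=
    measurable_const.indicator Metric.isOpen_ball.measurableSet
  have h1 := TTr.tsum hsm hsh
  have h2 := TTr.add hlow (TTr_triv r hlow) h1
  have hfin : (∫⁻ η, (Metric.ball (0 : E n) 2).indicator (fun _ => (1 : ℝ≥0∞)) η) *
      volume (Metric.ball (0 : E n) r) + ∑' k, K0 * ENNReal.ofReal (ak3 s T k) ≠ ⊤ := by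
    refine ENNReal.add_ne_top.2 ⟨ENNReal.mul_ne_top ?_ measure_ball_lt_top.ne, ?_⟩
    · rw [lintegral_indicator Metric.isOpen_ball.measurableSet]
      simp only [lintegral_const, one_mul, Measure.restrict_apply_univ]
      exact measure_ball_lt_top.ne
    · rw [ENNReal.tsum_mul_left, ← ENNReal.ofReal_tsum_of_nonneg ak0 hN]
      exact ENNReal.mul_ne_top ENNReal.coe_ne_top ENNReal.ofReal_ne_top
  refine ⟨((∫⁻ η, (Metric.ball (0 : E n) 2).indicator (fun _ => (1 : ℝ≥0∞)) η) *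
      volume (Metric.ball (0 : E n) r) + ∑' k, K0 * ENNReal.ofReal (ak3 s T k)).toNNReal, ?_⟩
  rw [ENNReal.coe_toNNReal hfin]
  refine h2.mono (fun η => ?_) le_rfl
  by_cases hwt : w η = ⊤
  · rw [hwt, ENNReal.inv_top]
    exact zero_le
  obtain ⟨hlb, k, p, hp, hpe⟩ := hw2 η hwt
  have hpe' := hpe
  obtain ⟨-, hk1, hk2, -⟩ := hpe'
  have hpi3 := Real.pi_gt_three
  by_cases hk : 3 ≤ k
  · refine le_trans ?_ le_add_self
    refine le_trans ?_ (ENNReal.le_tsum k)
    have hpos : (0 : ℝ) < (1 + ‖(2 * Real.pi) • η‖ ^ 2) ^ s := by positivity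
    have h4 : ((1 + ‖(2 * Real.pi) • η‖ ^ 2) ^ s)⁻¹ ≤ (2 : ℝ) ^ (-(2 * s * k)) := by
      have h5 : (2 : ℝ) ^ (-(2 * s * k)) = (((2 : ℝ) ^ k) ^ 2) ^ (-s) := by
        rw [← pow_mul, ← Real.rpow_natCast, ← Real.rpow_mul (by norm_num)]
        congr 1
        push_cast
        ring
      rw [h5, ← Real.rpow_neg (by positivity)]
      refine Real.rpow_le_rpow_of_nonpos (by positivity) ?_ (by linarith)
      have h6 : ((2 : ℝ) ^ k) ^ 2 ≤ ‖(2 * Real.pi) • η‖ ^ 2 := by gcongr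
      linarith
    have h7 : (1 : ℝ≥0∞) ≤ ∑ q ∈ T k, (pieceE Ω k q).indicator (fun _ => (1 : ℝ≥0∞)) η := by
      refine le_trans (le_of_eq ?_) (Finset.single_le_sum
        (f := fun q => (pieceE Ω k q).indicator (fun _ => (1 : ℝ≥0∞)) η) (fun q _ => zero_le) hp)
      rw [Set.indicator_of_mem hpe]
    calc (w η)⁻¹ ≤ (ENNReal.ofReal ((1 + ‖(2 * Real.pi) • η‖ ^ 2) ^ s))⁻¹ :=
          ENNReal.inv_le_inv.2 hlb
      _ = ENNReal.ofReal (((1 + ‖(2 * Real.pi) • η‖ ^ 2) ^ s)⁻¹) :=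
          (ENNReal.ofReal_inv_of_pos hpos).symm
      _ ≤ ENNReal.ofReal ((2 : ℝ) ^ (-(2 * s * k))) := ENNReal.ofReal_le_ofReal h4
      _ = ENNReal.ofReal ((2 : ℝ) ^ (-(2 * s * k))) * 1 := (mul_one _).symm
      _ ≤ ENNReal.ofReal ((2 : ℝ) ^ (-(2 * s * k))) *
          ∑ q ∈ T k, (pieceE Ω k q).indicator (fun _ => (1 : ℝ≥0∞)) η := by gcongr
      _ = shV s Ω T k η := by simp only [shV, hk, if_true]
  · refine le_trans ?_ le_self_add
    have hmem : η ∈ Metric.ball (0 : E n) 2 := by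
      rw [mem_ball_zero_iff]
      rw [norm_smul, Real.norm_eq_abs, abs_of_pos (by positivity)] at hk2
      have h4 : (2 : ℝ) ^ (k + 1) ≤ 2 ^ 3 := pow_le_pow_right₀ (by norm_num) (by omega)
      by_contra hcon
      rw [not_lt] at hcon
      nlinarith
    rw [indicator_of_mem hmem]
    exact ENNReal.inv_le_one.2 (hw1 η)

end Vale.Agent.P076.R2.H831V
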