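import Vale.Agent.P076.R2.H831V.Spec2

/-!
# P076 : tubes with weights
-/

open MeasureTheory Complex FourierTransform Filter Topology Set
open scoped ENNReal NNReal

namespace Vale.Agent.P076.R2.H831V

open Vale.Agent.P076 Vale.Agent.P076.H791 Vale.Agent.P076.R2 Vale.Agent.P076.R2.H45
open Vale.Agent.P076.R2.H831 Vale.Agent.P076.R2.H831.V2

variable {n : ℕ}

/-- the local integrals of a function on the spheres -/
def DenU (U : E n → ℝ≥0∞) (θ δ : ℝ) : Prop :=
  ∀ ρ : ℝ, 0 < ρ → ∀ ω : Sp n, ENNReal.ofReal (ρ ^ (n - 1)) *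
    ∫⁻ ω' in {ω' : Sp n | ‖ρ • (ω : E n) - ρ • (ω' : E n)‖ < δ}, U (ρ • (ω' : E n)) ∂sig n ≤
      ENNReal.ofReal θ

/-- the TT* bound for one piece -/
theorem TTr_pieceU (hn : 1 ≤ n) (hTr : StTransfer n) (hDo : StDom n) (hNe : StNear n) {δ : ℝ}
    (hδ : 0 < δ) (r : ℕ) : ∃ K0 : ℝ≥0, ∀ U : E n → ℝ≥0∞, Measurable U → ∀ k : ℕ, 3 ≤ k →
      ∀ p : E n × ℝ × ℝ, ‖p.1‖ = 1 → p.2.1 ≤ 2 ^ k / 2 → 0 ≤ p.2.2 →
      (∀ ξ, ξ ∉ pieceX univ k p → U ξ = 0) →
      ((∀ ξ, U ξ ≤ ENNReal.ofReal p.2.2) ∨ DenU U p.2.2 δ) →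
      TTr r (fun η => U ((2 * Real.pi) • η))
        (K0 * ENNReal.ofReal (√((k : ℝ) + 1) * (p.2.2 * max p.2.1 ((2 : ℝ) ^ ((k : ℝ) / 2))))) := by
  classical
  have hn1 : (1 : ℝ) ≤ n := by exact_mod_cast hn
  have hpi := Real.pi_pos
  have hpi3 := Real.pi_gt_three
  have hpi4 := Real.pi_lt_d2
  obtain ⟨C, hC, h⟩ := TTr_gg2 hn r (K := 8 * n) (C0 := 1) zero_le_one (by linarith)
  obtain ⟨Ct, hCt⟩ := hTr r
  set δ' : ℝ := min (δ / (2 * Real.pi)) 1 with hδ'
  have hδ'0 : 0 < δ' := lt_min (by positivity) one_pos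
  obtain ⟨Cd, hCd⟩ := hDo δ' hδ'0
  set c1 : ℝ≥0 := Real.toNNReal (3 * √(6 * n) * (2 * C)) with hc1
  set e5 : ℝ≥0 := Real.toNNReal (Real.exp 5) with he5
  set e70 : ℝ≥0 := Real.toNNReal (Real.exp (70 * n)) with he70
  refine ⟨e5 * c1 + Ct * (Cd * e70) * c1, fun U hU k hk p hp hp2 hp0 hsup hden => ?_⟩
  set σ : ℝ := max p.2.1 ((2 : ℝ) ^ ((k : ℝ) / 2)) with hσ
  have hσ0 : 0 ≤ σ := le_max_of_le_right (by positivity)
  set V : E n → ℝ≥0∞ := fun η => U ((2 * Real.pi) • η) with hV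
  have hVm : Measurable V := hU.comp (measurable_id.const_smul (2 * Real.pi))
  -- the majorant
  have htt := TR_tub2 hn hC h hk (p := (p.1, p.2.1)) hp hp2
  have hJ := JJ_le2 (n := n) hn hk
  have hS : ENNReal.ofReal (∑ _j ∈ Finset.range (JJ2 n k), (C * σ + C * σ)) ≤
      c1 * ENNReal.ofReal (√((k : ℝ) + 1) * σ) := by
    rw [hc1, ← ENNReal.ofReal, ← ENNReal.ofReal_mul (by positivity)]
    refine ENNReal.ofReal_le_ofReal ?_
    simp only [Finset.sum_const, Finset.card_range, nsmul_eq_mul]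
    calc (JJ2 n k : ℝ) * (C * σ + C * σ)
        ≤ (3 * (√(6 * n) * √((k : ℝ) + 1))) * (C * σ + C * σ) := by gcongr
      _ = _ := by ring
  have hG : TTr r (fun η => ENNReal.ofReal (tub2 k (p.1, p.2.1) η))
      (c1 * ENNReal.ofReal (√((k : ℝ) + 1) * σ)) := htt.tt.mono (fun _ => le_rfl) hS
  have hGm : Measurable fun η => ENNReal.ofReal (tub2 k (p.1, p.2.1) η) :=
    ENNReal.measurable_ofReal.comp htt.m
  have e1 : ENNReal.ofReal (√((k : ℝ) + 1) * (p.2.2 * σ)) =
      ENNReal.ofReal p.2.2 * ENNReal.ofReal (√((k : ℝ) + 1) * σ) := by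
    rw [← ENNReal.ofReal_mul hp0]
    congr 1
    ring
  rcases hden with hone | hden
  · -- bounded weights
    have h1 := TTr.const_mul hGm hG (ENNReal.ofReal p.2.2 * e5 : ℝ≥0∞)
    refine h1.mono (fun η => ?_) ?_
    · by_cases hη : (2 * Real.pi) • η ∈ pieceX univ k p
      · obtain ⟨-, h2, h3, h4⟩ := hη
        have h5 := tub_ge2 (n := n) hk (p := (p.1, p.2.1)) hp hp2 h2 h3 h4
        have h6 : (1 : ℝ≥0∞) ≤ e5 * ENNReal.ofReal (tub2 k (p.1, p.2.1) η) := by
          rw [he5, ← ENNReal.ofReal, ← ENNReal.ofReal_mul (Real.exp_pos _).le, ← ENNReal.ofReal_one]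
          refine ENNReal.ofReal_le_ofReal ?_
          have h8 : Real.exp 5 * Real.exp (-5) = 1 := by
            rw [← Real.exp_add]; simp
          rw [← h8]
          gcongr
        calc V η ≤ ENNReal.ofReal p.2.2 := hone _
          _ = ENNReal.ofReal p.2.2 * 1 := (mul_one _).symm
          _ ≤ ENNReal.ofReal p.2.2 * (e5 * ENNReal.ofReal (tub2 k (p.1, p.2.1) η)) := by gcongr
          _ = _ := by rw [mul_assoc]
      · have h0 : V η = 0 := hsup _ hη
        rw [h0]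
        exact zero_le
    · rw [e1]
      push_cast
      calc ENNReal.ofReal p.2.2 * (e5 : ℝ≥0∞) * (c1 * ENNReal.ofReal (√((k : ℝ) + 1) * σ))
          = (e5 * c1) * (ENNReal.ofReal p.2.2 * ENNReal.ofReal (√((k : ℝ) + 1) * σ)) := by ring
        _ ≤ _ := by
            gcongr
            exact le_self_add
  · -- density
    set θ' : ℝ≥0∞ := ENNReal.ofReal p.2.2 * e70 with hθ'
    have hdom := hCd V (fun η => ENNReal.ofReal (tub2 k (p.1, p.2.1) η)) θ' hVm hGm ?_ ?_
    · have h1 := hCt V (fun η => ENNReal.ofReal (tub2 k (p.1, p.2.1) η)) _ (Cd * θ') hVm hGm hG hdom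
      refine h1.mono (fun _ => le_rfl) ?_
      rw [e1, hθ']
      push_cast
      calc (Ct : ℝ≥0∞) * (Cd * (ENNReal.ofReal p.2.2 * e70)) *
            (c1 * ENNReal.ofReal (√((k : ℝ) + 1) * σ))
          = (Ct * (Cd * e70) * c1) * (ENNReal.ofReal p.2.2 *
            ENNReal.ofReal (√((k : ℝ) + 1) * σ)) := by ring
        _ ≤ _ := by
            gcongr
            exact le_add_self
    · intro η hη
      refine hsup _ (fun hm => ?_)
      obtain ⟨-, h2, -, -⟩ := hm
      rw [norm_smul, Real.norm_eq_abs, abs_of_pos (by positivity)] at h2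
      have h3 : (8 : ℝ) ≤ 2 ^ k := by
        calc (8 : ℝ) = 2 ^ 3 := by norm_num
          _ ≤ 2 ^ k := pow_le_pow_right₀ (by norm_num) hk
      have h4 : 2 * Real.pi * ‖η‖ ≤ 2 * Real.pi * 1 := by gcongr
      linarith
    · intro ρ hρ ω
      have hρ0 : 0 < ρ := by linarith
      set A : Set (Sp n) := {ω' : Sp n | ‖ρ • (ω : E n) - ρ • (ω' : E n)‖ < δ'} with hA
      have hAm : MeasurableSet A := by
        refine (isOpen_lt ?_ continuous_const).measurableSet
        fun_prop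
      by_cases hex : ∃ ω₀ ∈ A, V (ρ • (ω₀ : E n)) ≠ 0
      · -- the majorant is bounded below
        obtain ⟨ω₀, h01, h02⟩ := hex
        have h03 : (2 * Real.pi) • (ρ • (ω₀ : E n)) ∈ pieceX univ k p := by
          by_contra hcon
          exact h02 (hsup _ hcon)
        obtain ⟨-, h2, h3, h4⟩ := h03
        have h5 : ‖ρ • (ω : E n) - ρ • (ω₀ : E n)‖ ≤ 1 := by
          have h6 : ‖ρ • (ω : E n) - ρ • (ω₀ : E n)‖ < δ' := h01
          exact h6.le.trans (min_le_right _ _)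
        have h6 := hNe k hk (p.1, p.2.1) hp hp2 (ρ • (ω₀ : E n)) (ρ • (ω : E n)) h2 h3 h4 h5
        have h7 : (1 : ℝ≥0∞) ≤ e70 * ENNReal.ofReal (tub2 k (p.1, p.2.1) (ρ • (ω : E n))) := by
          rw [he70, ← ENNReal.ofReal, ← ENNReal.ofReal_mul (Real.exp_pos _).le,
            ← ENNReal.ofReal_one]
          refine ENNReal.ofReal_le_ofReal ?_
          have h8 : Real.exp (70 * n) * Real.exp (-(70 * n)) = 1 := by
            rw [← Real.exp_add]; simp
          rw [← h8]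
          gcongr
        -- the density
        have h9 := hden (2 * Real.pi * ρ) (by positivity) ω
        have h10 : A ⊆ {ω' : Sp n |
            ‖(2 * Real.pi * ρ) • (ω : E n) - (2 * Real.pi * ρ) • (ω' : E n)‖ < δ} := by
          intro ω' h11
          have h13 : ‖ρ • (ω : E n) - ρ • (ω' : E n)‖ < δ' := h11
          have h14 : δ' ≤ δ / (2 * Real.pi) := min_le_left _ _
          have e3 : (2 * Real.pi * ρ) • (ω : E n) - (2 * Real.pi * ρ) • (ω' : E n) =
              (2 * Real.pi) • (ρ • (ω : E n) - ρ • (ω' : E n)) := by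
            rw [smul_sub, smul_smul, smul_smul]
          show ‖(2 * Real.pi * ρ) • (ω : E n) - (2 * Real.pi * ρ) • (ω' : E n)‖ < δ
          rw [e3, norm_smul, Real.norm_eq_abs, abs_of_pos (by positivity)]
          calc 2 * Real.pi * ‖ρ • (ω : E n) - ρ • (ω' : E n)‖ < 2 * Real.pi * (δ / (2 * Real.pi)) := by
                gcongr
                linarith
            _ = δ := by field_simp
        have h15 : ENNReal.ofReal (ρ ^ (n - 1)) ≤ ENNReal.ofReal ((2 * Real.pi * ρ) ^ (n - 1)) := by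
          refine ENNReal.ofReal_le_ofReal ?_
          gcongr
          nlinarith
        have e4 : ∀ ω' : Sp n, V (ρ • (ω' : E n)) = U ((2 * Real.pi * ρ) • (ω' : E n)) := by
          intro ω'
          rw [hV]
          simp only [smul_smul]
        calc ENNReal.ofReal (ρ ^ (n - 1)) * ∫⁻ ω' in A, V (ρ • (ω' : E n)) ∂sig n
            = ENNReal.ofReal (ρ ^ (n - 1)) *
              ∫⁻ ω' in A, U ((2 * Real.pi * ρ) • (ω' : E n)) ∂sig n := by simp_rw [e4]
          _ ≤ ENNReal.ofReal ((2 * Real.pi * ρ) ^ (n - 1)) * ∫⁻ ω' in {ω' : Sp n |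
              ‖(2 * Real.pi * ρ) • (ω : E n) - (2 * Real.pi * ρ) • (ω' : E n)‖ < δ},
              U ((2 * Real.pi * ρ) • (ω' : E n)) ∂sig n :=
              mul_le_mul' h15 (lintegral_mono_set h10)
          _ ≤ ENNReal.ofReal p.2.2 * 1 := by rw [mul_one]; exact h9
          _ ≤ ENNReal.ofReal p.2.2 * (e70 *
              ENNReal.ofReal (tub2 k (p.1, p.2.1) (ρ • (ω : E n)))) := by gcongr
          _ = _ := by rw [hθ', mul_assoc]
      · -- nothing in the cap
        push Not at hex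
        have h0 : ∫⁻ ω' in A, V (ρ • (ω' : E n)) ∂sig n = 0 := by
          rw [setLIntegral_congr_fun (g := fun _ => 0) hAm (fun ω' h1 => hex ω' h1)]
          simp
        rw [h0, mul_zero]
        exact zero_le

end Vale.Agent.P076.R2.H831V
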