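import Vale.Agent.P076.R2.H831V.Wt1

/-!
# P076 : the weighted theorem
-/

open MeasureTheory Complex FourierTransform Filter Topology Set
open scoped ENNReal NNReal

namespace Vale.Agent.P076.R2.H831V

open Vale.Agent.P076 Vale.Agent.P076.H791 Vale.Agent.P076.R2 Vale.Agent.P076.R2.H45
open Vale.Agent.P076.R2.H831

variable {n : ℕ}

/-- the weight of one tube, on the side of `E n` -/
noncomputable def UE (u : ℕ → (Fin n → ℝ) × ℝ × ℝ → (Fin n → ℝ) → ℝ≥0∞) (k : ℕ)
    (p : (Fin n → ℝ) × ℝ × ℝ) (x : E n) : ℝ≥0∞ := (tube k p).indicator (u k p) (WithLp.ofLp x)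

/-- the majorant of a shell -/
noncomputable def shU (T : ℕ → Finset ((Fin n → ℝ) × ℝ × ℝ))
    (u : ℕ → (Fin n → ℝ) × ℝ × ℝ → (Fin n → ℝ) → ℝ≥0∞) (k : ℕ) (η : E n) : ℝ≥0∞ :=
  if 3 ≤ k then ∑ p ∈ T k, UE u k p ((2 * Real.pi) • η) else 0

/-- the summands of the hypothesis -/
noncomputable def akU (T : ℕ → Finset ((Fin n → ℝ) × ℝ × ℝ)) (k : ℕ) : ℝ :=
  √((k : ℝ) + 1) * ∑ p ∈ T k, p.2.2 * max p.2.1 ((2 : ℝ) ^ ((k : ℝ) / 2))

/-- **the tube part** -/
theorem TTr_tubesU (hn : 1 ≤ n) (hTr : StTransfer n) (hDo : StDom n) (hNe : StNear n) {δ : ℝ}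
    (hδ : 0 < δ) (T : ℕ → Finset ((Fin n → ℝ) × ℝ × ℝ))
    (u : ℕ → (Fin n → ℝ) × ℝ × ℝ → (Fin n → ℝ) → ℝ≥0∞) (hT : ThinWeights δ T u) (r : ℕ) :
    ∃ S : ℝ≥0, TTr r (fun η => (Metric.ball (0 : E n) 2).indicator (fun _ => (1 : ℝ≥0∞)) η +
      ∑' k, shU T u k η) S := by
  classical
  obtain ⟨K0, hK0⟩ := TTr_pieceU hn hTr hDo hNe hδ r
  have hN : Summable (akU T) := hT.2
  have ak0 : ∀ k, 0 ≤ akU T k := fun k => by
    unfold akU
    refine mul_nonneg (by positivity) (Finset.sum_nonneg fun p hp => ?_)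
    exact mul_nonneg (hT.1 k p hp).2.2.1 (le_max_of_le_right (by positivity))
  have hof : Measurable fun x : E n => WithLp.ofLp x := by fun_prop
  have hUm : ∀ k, ∀ p ∈ T k, Measurable (UE u k p) := fun k p hp =>
    ((hT.1 k p hp).2.2.2.1.indicator (measurableSet_tube k p)).comp hof
  have hUm2 : ∀ k, ∀ p ∈ T k, Measurable fun η : E n => UE u k p ((2 * Real.pi) • η) :=
    fun k p hp => (hUm k p hp).comp (measurable_id.const_smul (2 * Real.pi))
  have hsm : ∀ k, Measurable (shU T u k) := by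
    intro k
    by_cases hk : 3 ≤ k
    · have e : shU T u k = fun η => ∑ p ∈ T k, UE u k p ((2 * Real.pi) • η) := by
        funext η
        simp only [shU, hk, if_true]
      rw [e]
      exact Finset.measurable_sum _ fun p hp => hUm2 k p hp
    · have e : shU T u k = fun _ => 0 := by
        funext η
        simp only [shU, hk, if_false]
      rw [e]
      exact measurable_const
  have hsh : ∀ k, TTr r (shU T u k) (K0 * ENNReal.ofReal (akU T k)) := by
    intro k
    by_cases hk : 3 ≤ k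
    · -- a sum over the tubes
      have hsum : ∀ t : Finset ((Fin n → ℝ) × ℝ × ℝ), t ⊆ T k →
          TTr r (fun η => ∑ p ∈ t, UE u k p ((2 * Real.pi) • η))
            (∑ p ∈ t, K0 * ENNReal.ofReal (√((k : ℝ) + 1) *
              (p.2.2 * max p.2.1 ((2 : ℝ) ^ ((k : ℝ) / 2))))) := by
        intro t
        induction t using Finset.induction_on with
        | empty => intro _ A u g a; simp
        | insert q t hq ih =>
          intro hsub
          have hqT : q ∈ T k := hsub (Finset.mem_insert_self q t)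
          have h1 := ih fun x hx => hsub (Finset.mem_insert_of_mem hx)
          obtain ⟨h2, h3, h4, -, h5⟩ := hT.1 k q hqT
          rw [nrm_eq] at h2
          have h6 := hK0 (UE u k q) (hUm k q hqT) k hk (embT3 q) h2 h3 h4 ?_ ?_
          · simp_rw [Finset.sum_insert hq]
            exact h6.add (hUm2 k q hqT) h1
          · intro x hx
            unfold UE
            refine Set.indicator_of_notMem (fun hx2 => hx ?_) _
            have h7 := (mem_pieceX univ k q x).2 ⟨mem_univ _, hx2⟩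
            exact ⟨mem_univ _, h7.2⟩
          · refine h5.imp (fun h7 x => ?_) fun h7 => ?_
            · unfold UE
              refine le_trans ?_ (h7 (WithLp.ofLp x))
              exact Set.indicator_le_self _ _ _
            · exact h7
      have h7 := hsum (T k) subset_rfl
      refine h7.mono (fun η => le_of_eq ?_) (le_of_eq ?_)
      · simp only [shU, hk, if_true]
      · rw [← Finset.mul_sum, ← ENNReal.ofReal_sum_of_nonneg]
        · congr 2
          rw [akU, ← Finset.mul_sum]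
        · intro p hp
          refine mul_nonneg (by positivity) (mul_nonneg (hT.1 k p hp).2.2.1 ?_)
          exact le_max_of_le_right (by positivity)
    · have e : shU T u k = fun _ => 0 := by
        funext η
        simp only [shU, hk, if_false]
      rw [e]
      intro A u g a
      simp
  have hlow : Measurable ((Metric.ball (0 : E n) 2).indicator fun _ => (1 : ℝ≥0∞)) :=
    measurable_const.indicator Metric.isOpen_ball.measurableSet
  have h1 := TTr.tsum hsm hsh
  have h2 := TTr.add hlow (TTr_triv r hlow) h1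
  have hfin : (∫⁻ η, (Metric.ball (0 : E n) 2).indicator (fun _ => (1 : ℝ≥0∞)) η) *
      volume (Metric.ball (0 : E n) r) + ∑' k, K0 * ENNReal.ofReal (akU T k) ≠ ⊤ := by
    refine ENNReal.add_ne_top.2 ⟨ENNReal.mul_ne_top ?_ measure_ball_lt_top.ne, ?_⟩
    · rw [lintegral_indicator Metric.isOpen_ball.measurableSet]
      simp only [lintegral_const, one_mul, Measure.restrict_apply_univ]
      exact measure_ball_lt_top.ne
    · rw [ENNReal.tsum_mul_left, ← ENNReal.ofReal_tsum_of_nonneg ak0 hN]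
      exact ENNReal.mul_ne_top ENNReal.coe_ne_top ENNReal.ofReal_ne_top
  refine ⟨((∫⁻ η, (Metric.ball (0 : E n) 2).indicator (fun _ => (1 : ℝ≥0∞)) η) *
      volume (Metric.ball (0 : E n) r) + ∑' k, K0 * ENNReal.ofReal (akU T k)).toNNReal, ?_⟩
  rw [ENNReal.coe_toNNReal hfin]
  exact h2

/-- `x⁻¹ ≤ 2 y` gives `max 1 (2 y)⁻¹ ≤ x` for `x ≥ 1` -/
lemma max_inv_le {x y : ℝ≥0∞} (hx : 1 ≤ x) (h : x⁻¹ ≤ 2 * y) : max 1 (2 * y)⁻¹ ≤ x :=
  max_le hx (ENNReal.inv_le_iff_inv_le.1 h)

/-- **the weighted theorem** -/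
theorem stWt (hn : 1 ≤ n) : StWt n := by
  intro w v θ δ T u hw hw1 hv hθ hθi hδ hvθ hT hle
  have hof : Measurable fun x : E n => WithLp.ofLp x := by fun_prop
  -- the part of the local integrals
  set w1 : (Fin n → ℝ) → ℝ≥0∞ := fun ξ => max 1 (2 * v ξ)⁻¹ with hw1d
  have w1m : Measurable w1 := measurable_const.max ((hv.const_mul 2).inv)
  have i1 : ∀ ξ, (w1 ξ)⁻¹ ≤ 2 * v ξ := by
    intro ξ
    rw [hw1d, ENNReal.inv_le_iff_inv_le]
    exact le_max_right _ _
  have m1 : MP (Vale.Agent.P076.H791.wt w1) := by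
    refine MP_wt_local hn w1m (fun ξ => le_max_left _ _) (m := fun ρ => 2 * θ ρ)
      (hθ.const_mul 2) ?_ hδ ?_
    · rw [lintegral_const_mul _ hθ]
      exact ENNReal.mul_ne_top (by norm_num) hθi.ne
    · intro ρ hρ ω
      have h1 := hvθ ρ hρ ω
      have h2 : ∫⁻ ω' in {ω' : Sp n | ‖ρ • (ω : E n) - ρ • (ω' : E n)‖ < δ},
          (w1 (WithLp.ofLp (ρ • (ω' : E n))))⁻¹ ∂sig n ≤
          2 * ∫⁻ ω' in {ω' : Sp n | ‖ρ • (ω : E n) - ρ • (ω' : E n)‖ < δ},
          v (WithLp.ofLp (ρ • (ω' : E n))) ∂sig n := by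
        rw [← lintegral_const_mul' _ _ (by norm_num)]
        exact lintegral_mono fun ω' => i1 _
      calc ENNReal.ofReal (ρ ^ (n - 1)) *
          ∫⁻ ω' in {ω' : Sp n | ‖ρ • (ω : E n) - ρ • (ω' : E n)‖ < δ},
            (w1 (WithLp.ofLp (ρ • (ω' : E n))))⁻¹ ∂sig n
          ≤ ENNReal.ofReal (ρ ^ (n - 1)) * (2 *
          ∫⁻ ω' in {ω' : Sp n | ‖ρ • (ω : E n) - ρ • (ω' : E n)‖ < δ},
            v (WithLp.ofLp (ρ • (ω' : E n))) ∂sig n) := by gcongr
        _ = 2 * (ENNReal.ofReal (ρ ^ (n - 1)) *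
          ∫⁻ ω' in {ω' : Sp n | ‖ρ • (ω : E n) - ρ • (ω' : E n)‖ < δ},
            v (WithLp.ofLp (ρ • (ω' : E n))) ∂sig n) := by ring
        _ ≤ 2 * θ ρ := mul_le_mul_right h1 2
  -- the part of the tubes
  set V0 : E n → ℝ≥0∞ := fun η => (Metric.ball (0 : E n) 2).indicator (fun _ => (1 : ℝ≥0∞)) η +
      ∑' k, shU T u k η with hV0
  have hUm2 : ∀ k, ∀ p ∈ T k, Measurable fun η : E n => UE u k p ((2 * Real.pi) • η) :=
    fun k p hp => (((hT.1 k p hp).2.2.2.1.indicator (measurableSet_tube k p)).comp hof).comp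
      (measurable_id.const_smul (2 * Real.pi))
  have hsm : ∀ k, Measurable (shU T u k) := by
    intro k
    by_cases hk : 3 ≤ k
    · have e : shU T u k = fun η => ∑ p ∈ T k, UE u k p ((2 * Real.pi) • η) := by
        funext η
        simp only [shU, hk, if_true]
      rw [e]
      exact Finset.measurable_sum _ fun p hp => hUm2 k p hp
    · have e : shU T u k = fun _ => 0 := by
        funext η
        simp only [shU, hk, if_false]
      rw [e]
      exact measurable_const
  have hV0m : Measurable V0 :=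
    (measurable_const.indicator Metric.isOpen_ball.measurableSet).add
      (Measurable.tsum hsm)
  set w2 : E n → ℝ≥0∞ := fun η => max 1 (2 * V0 η)⁻¹ with hw2d
  have w2m : Measurable w2 := measurable_const.max ((hV0m.const_mul 2).inv)
  have m2 : MP w2 := by
    refine MP_of_TT w2m (fun η => le_max_left _ _) fun r => ?_
    obtain ⟨S, hS⟩ := TTr_tubesU hn PF.stTransfer (PF.stDom hn (PF.stCap hn)) (PF.stNear hn) hδ T u
      hT r
    refine ⟨2 * S, ?_⟩
    have h1 := TTr.const_mul hV0m hS 2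
    refine h1.mono (fun η => ?_) (le_of_eq ?_)
    · rw [hw2d, ENNReal.inv_le_iff_inv_le]
      exact le_max_right _ _
    · push_cast
      rfl
  refine MP_union m1 m2 (measurable_wt w1m) (measurable_wt hw) fun η => ?_
  set ξ : Fin n → ℝ := WithLp.ofLp ((2 * Real.pi) • η) with hξ
  have hwt : Vale.Agent.P076.H791.wt w η = w ξ := rfl
  have hwt1 : Vale.Agent.P076.H791.wt w1 η = max 1 (2 * v ξ)⁻¹ := rfl
  rw [hwt, hwt1]
  have hnr : nrm ξ = 2 * Real.pi * ‖η‖ := nrm_smul_eq η
  have hpi3 := Real.pi_gt_three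
  -- the sum over the tubes
  have hmain : (w ξ)⁻¹ ≤ v ξ + V0 η := by
    by_cases h8 : nrm ξ < 8
    · have hb : η ∈ Metric.ball (0 : E n) 2 := by
        rw [mem_ball_zero_iff]
        rw [hnr] at h8
        by_contra hcon
        rw [not_lt] at hcon
        nlinarith
      have h1 : (1 : ℝ≥0∞) ≤ V0 η := by
        rw [hV0]
        simp only
        rw [Set.indicator_of_mem hb]
        exact le_self_add
      calc (w ξ)⁻¹ ≤ 1 := ENNReal.inv_le_one.2 (hw1 ξ)
        _ ≤ V0 η := h1
        _ ≤ v ξ + V0 η := le_add_self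
    · rw [not_lt] at h8
      refine (hle ξ).trans ?_
      gcongr
      rw [hV0]
      simp only
      refine le_trans ?_ le_add_self
      refine ENNReal.tsum_le_tsum fun k => ?_
      by_cases hk : 3 ≤ k
      · simp only [shU, hk, if_true]
        exact le_rfl
      · refine le_of_eq_of_le ?_ zero_le
        refine Finset.sum_eq_zero fun p _ => ?_
        refine Set.indicator_of_notMem (fun hx => ?_) _
        obtain ⟨-, h2, -⟩ := hx
        have h3 : (2 : ℝ) ^ (k + 1) ≤ 2 ^ 3 := pow_le_pow_right₀ (by norm_num) (by omega)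
        linarith
  rcases le_total (v ξ) (V0 η) with h1 | h1
  · right
    refine max_inv_le (hw1 ξ) (hmain.trans ?_)
    rw [two_mul]
    gcongr
  · left
    refine max_inv_le (hw1 ξ) (hmain.trans ?_)
    rw [two_mul]
    gcongr

end Vale.Agent.P076.R2.H831V
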